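import Vale.Agent.P076.R2.H64.Core4
import Vale.Agent.P076.R2.H64.Cell
import Vale.Agent.P076.R2.H305.DetEnd

/-!
# Strong fractal means: the deterministic part
-/

open MeasureTheory Complex FourierTransform Filter Topology Set
open scoped ENNReal NNReal

namespace Vale.Agent.P076.R2.H45

open Vale.Agent.P076 Vale.Agent.P076.H791 Vale.Agent.P076.R2.H64

variable {n : ℕ}

/-- `μ` lives on `[0, T]` and every interval `I` of length at most `T` has `μ I ≤ (|I| / T) ^ γ` -/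
def Frost (γ T : ℝ) (μ : Measure ℝ) : Prop :=
  μ (Icc 0 T)ᶜ = 0 ∧
    ∀ a r : ℝ, 0 ≤ r → r ≤ T → μ (Icc a (a + r)) ≤ ENNReal.ofReal ((r / T) ^ γ)

lemma Frost.total {γ T : ℝ} (hT : 0 < T) {μ : Measure ℝ} (h : Frost γ T μ) : μ Set.univ ≤ 1 := by
  have h1 := h.2 0 T hT.le le_rfl
  rw [zero_add, div_self hT.ne', Real.one_rpow, ENNReal.ofReal_one] at h1
  calc μ Set.univ = μ (Icc 0 T ∪ (Icc 0 T)ᶜ) := by rw [union_compl_self]
    _ ≤ μ (Icc 0 T) + μ (Icc 0 T)ᶜ := measure_union_le _ _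
    _ ≤ 1 + 0 := add_le_add h1 h.1.le
    _ = 1 := add_zero _

lemma Frost.mono {γ γ' T : ℝ} (hT : 0 < T) (hγ : γ' ≤ γ) (h0 : 0 ≤ γ') {μ : Measure ℝ}
    (h : Frost γ T μ) : Frost γ' T μ := by
  refine ⟨h.1, fun a r h1 h2 => (h.2 a r h1 h2).trans (ENNReal.ofReal_le_ofReal ?_)⟩
  refine Real.rpow_le_rpow_of_exponent_ge' (by positivity) ?_ h0 hγ
  rw [div_le_one hT]
  exact h2

lemma Frost.cell {γ T : ℝ} (h0 : 0 < γ) (hT : 0 < T) {μ : Measure ℝ} (h : Frost γ T μ) (k l : ℕ) :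
    μ (H64.cell (k, l)) ≤ ENNReal.ofReal (2 ^ γ) * ENNReal.ofReal (((l : ℝ) + 1) ^ (-γ)) := by
  have hl : (0 : ℝ) < (l : ℝ) + 1 := by positivity
  have h4 : (0 : ℝ) < 4 ^ k := by positivity
  rw [← ENNReal.ofReal_mul (by positivity)]
  have e1 : (2 : ℝ) ^ γ * ((l : ℝ) + 1) ^ (-γ) = (2 / ((l : ℝ) + 1)) ^ γ := by
    rw [Real.div_rpow (by norm_num) hl.le, Real.rpow_neg hl.le]
    rfl
  rw [e1]
  by_cases hlT : T < (l : ℝ) / 4 ^ k
  · have : μ (H64.cell (k, l)) ≤ 0 := by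
      rw [← h.1]
      refine measure_mono fun t ht ht2 => ?_
      have := ht.1
      simp only at this
      exact absurd ht2.2 (not_le.2 (hlT.trans_le this))
    exact this.trans bot_le
  · rw [not_lt] at hlT
    by_cases hr : 1 / (4 : ℝ) ^ k ≤ T
    · have h2 := h.2 ((l : ℝ) / 4 ^ k) (1 / 4 ^ k) (by positivity) hr
      have e2 : Icc ((l : ℝ) / 4 ^ k) ((l : ℝ) / 4 ^ k + 1 / 4 ^ k) = H64.cell (k, l) := by
        rw [H64.cell, ← add_div]
      rw [e2] at h2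
      refine h2.trans (ENNReal.ofReal_le_ofReal (Real.rpow_le_rpow (by positivity) ?_ h0.le))
      rw [div_le_div_iff₀ hT hl]
      have h5 : ((l : ℝ) + 1) / 4 ^ k ≤ 2 * T := by
        rw [add_div]
        linarith
      calc 1 / 4 ^ k * ((l : ℝ) + 1) = ((l : ℝ) + 1) / 4 ^ k := by ring
        _ ≤ 2 * T := h5
    · rw [not_le] at hr
      have h3 : (l : ℝ) < 1 := by
        have := hlT.trans_lt hr
        rwa [div_lt_div_iff_of_pos_right h4] at this
      have h6 : l = 0 := by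
        have : l < 1 := by exact_mod_cast h3
        omega
      subst h6
      refine (measure_mono (Set.subset_univ _)).trans ((h.total hT).trans ?_)
      rw [← ENNReal.ofReal_one]
      refine ENNReal.ofReal_le_ofReal ?_
      rw [Nat.cast_zero, zero_add, div_one]
      exact Real.one_le_rpow (by norm_num) h0.le

/-- the cell of a time -/
lemma mem_cell {t : ℝ} (ht : 0 ≤ t) (k : ℕ) : t ∈ H64.cell (k, ⌊t * 4 ^ k⌋₊) := by
  have h4 : (0 : ℝ) < 4 ^ k := by positivity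
  have h1 := Nat.floor_le (mul_nonneg ht h4.le)
  have h2 := Nat.lt_floor_add_one (t * 4 ^ k)
  constructor
  · simp only
    rw [div_le_iff₀ h4]
    exact h1
  · simp only
    rw [le_div_iff₀ h4]
    exact h2.le

lemma mem_Il {t : ℝ} {k l : ℕ} (h : t ∈ H64.cell (k, l)) :
    2 * Real.pi * t ∈ Il ((2 : ℝ) ^ k) l := by
  have h4 : (0 : ℝ) < 4 ^ k := by positivity
  have hpi := Real.pi_pos
  have e1 : hh ((2 : ℝ) ^ k) = 2 * Real.pi / 4 ^ k := by
    unfold hh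
    rw [← pow_mul, mul_comm k 2, pow_mul]
    norm_num
  obtain ⟨h1, h2⟩ := h
  simp only at h1 h2
  rw [div_le_iff₀ h4] at h1
  rw [le_div_iff₀ h4] at h2
  rw [Il, e1]
  constructor
  · rw [mul_div_assoc', div_le_iff₀ h4]
    nlinarith
  · rw [mul_div_assoc', ← add_div, le_div_iff₀ h4]
    nlinarith

/-- the majorant as a function of the time -/
noncomputable def bb (M : ℕ → ℝ≥0∞) (k : ℕ) (t : ℝ) : ℝ≥0∞ :=
  ∑' l, (H64.cell (k, l)).indicator (fun _ => M l) t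

lemma measurableSet_cell (p : ℕ × ℕ) : MeasurableSet (H64.cell p) := measurableSet_Icc

lemma measurable_bb (M : ℕ → ℝ≥0∞) (k : ℕ) : Measurable (bb M k) :=
  Measurable.tsum fun l => measurable_const.indicator (measurableSet_cell (k, l))

lemma le_bb (M : ℕ → ℝ≥0∞) (k : ℕ) {t : ℝ} (ht : 0 ≤ t) : M ⌊t * 4 ^ k⌋₊ ≤ bb M k t := by
  refine le_trans ?_ (ENNReal.le_tsum ⌊t * 4 ^ k⌋₊)
  rw [indicator_of_mem (mem_cell ht k)]

/-- the weighted sum of the majorants -/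
noncomputable def Wk (γ : ℝ) (M : ℕ → ℝ≥0∞) : ℝ≥0∞ :=
  ∑' l : ℕ, ENNReal.ofReal (((l : ℝ) + 1) ^ (-γ)) * M l

lemma lint_bb {γ T : ℝ} (h0 : 0 < γ) (hT : 0 < T) {μ : Measure ℝ} (h : Frost γ T μ)
    (M : ℕ → ℝ≥0∞) (k : ℕ) : ∫⁻ t, bb M k t ∂μ ≤ ENNReal.ofReal (2 ^ γ) * Wk γ M := by
  unfold bb Wk
  rw [lintegral_tsum fun l => (measurable_const.indicator (measurableSet_cell (k, l))).aemeasurable,
    ← ENNReal.tsum_mul_left]
  refine ENNReal.tsum_le_tsum fun l => ?_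
  rw [lintegral_indicator_const (measurableSet_cell (k, l)), mul_comm, ← mul_assoc]
  gcongr
  exact h.cell h0 hT k l

lemma le_Wk (γ : ℝ) (M : ℕ → ℝ≥0∞) : M 0 ≤ Wk γ M := by
  refine le_trans ?_ (ENNReal.le_tsum 0)
  simp

end Vale.Agent.P076.R2.H45
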