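import Vale.Agent.P076.R2.H45.Fm9

/-!
# Strong fractal means: the rate at almost every point
-/

open MeasureTheory Complex FourierTransform Filter Topology Set
open scoped ENNReal NNReal

namespace Vale.Agent.P076.R2.H45

open Vale.Agent.P076 Vale.Agent.P076.H791 Vale.Agent.P076.R2.H64

variable {n : ℕ} {G : E n → ℂ}

/-- **Almost every point has good majorants, also for the derivative in the time.** -/
theorem ae_majorants2 (hK : SpecK n) (hS : SpecS n) (hA : SpecA n) (hGm : Measurable G)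
    (hG2 : MemLp G 2 volume) {s γ θ : ℝ} (hs : 0 ≤ s) (h0 : 0 < γ) (h1 : γ < 1)
    (h2 : 2 * θ < γ + 2 * s - 1)
    (hE : En (fun η : E n => ENNReal.ofReal ((1 + ‖(2 * Real.pi) • η‖ ^ 2) ^ s)) G < ⊤) :
    ∃ κ : ℝ, 0 < κ ∧ ∀ᵐ x : E n, ∃ (M : ℕ → ℕ → ℝ≥0∞) (M' : ℕ → ℝ≥0∞),
      (∀ k l, ∀ t ∈ Il ((2 : ℝ) ^ k) l, ∀ a : ℝ, 0 ≤ a →
        ‖evo (Pc G (k + 1)) x t a‖ₑ ^ 2 ≤ M k l) ∧
      (∀ k, ∀ t ∈ Il ((2 : ℝ) ^ k) 0, ‖evo (dG (Pc G (k + 1))) x t 0‖ₑ ^ 2 ≤ M' k) ∧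
      ∑' k, lam (κ + 2 * θ) k * Vk γ M M' k ≠ ⊤ := by
  obtain ⟨C, hC, hcore⟩ := core hK hS hA
  have hsh := fun k : ℕ => shell_Pc (G := G) hGm hG2 k
  choose M hM1 hM2 hM3 hM4 using fun k : ℕ =>
    hcore ((2 : ℝ) ^ k) (Pc G (k + 1)) (by positivity) (hsh k)
  choose N hN1 hN2 hN3 hN4 using fun k : ℕ =>
    hcore ((2 : ℝ) ^ k) (dG (Pc G (k + 1))) (by positivity) (shell_dG (by positivity) (hsh k))
  set κ : ℝ := (γ + 2 * s - 1 - 2 * θ) / 2 with hκ
  have hκ0 : 0 < κ := by rw [hκ]; linarith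
  set E0 : ℝ≥0∞ := En (fun η : E n => ENNReal.ofReal ((1 + ‖(2 * Real.pi) • η‖ ^ 2) ^ s)) G
    with hE0
  set C' : ℝ := C * (1 / (1 - γ) + 1) with hC'
  set C'' : ℝ := C * (8 * Real.pi) ^ 2 with hC''
  have hγ : 0 < 1 - γ := by linarith
  have hC'0 : 0 ≤ C' := by positivity
  have hC''0 : 0 ≤ C'' := by positivity
  have mW : ∀ k, Measurable fun x : E n => Wk γ (fun l => M k l x) := fun k =>
    Measurable.tsum fun l => (hM1 k l).const_mul _
  have mV : ∀ k, Measurable fun x : E n =>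
      Vk γ (fun k l => M k l x) (fun k => N k 0 x) k := fun k =>
    (mW k).add ((hN1 k 0).const_mul _)
  have hder : ∀ k, ∫⁻ x, WW x * (ENNReal.ofReal ((16 ^ k)⁻¹) * N k 0 x) ≤
      ENNReal.ofReal C'' * ∫⁻ η, ‖Pc G (k + 1) η‖ₑ ^ 2 := by
    intro k
    have h3 := lint_dG (by positivity : (0 : ℝ) ≤ 2 ^ k) (hsh k)
    calc ∫⁻ x, WW x * (ENNReal.ofReal ((16 ^ k)⁻¹) * N k 0 x)
        ≤ ∫⁻ x, ENNReal.ofReal ((16 ^ k)⁻¹) * N k 0 x := by
          refine lintegral_mono fun x => ?_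
          calc WW x * (ENNReal.ofReal ((16 ^ k)⁻¹) * N k 0 x)
              ≤ 1 * (ENNReal.ofReal ((16 ^ k)⁻¹) * N k 0 x) := mul_le_mul_left (WW_le_one x) _
            _ = _ := one_mul _
      _ = ENNReal.ofReal ((16 ^ k)⁻¹) * ∫⁻ x, N k 0 x := lintegral_const_mul _ (hN1 k 0)
      _ ≤ ENNReal.ofReal ((16 ^ k)⁻¹) * (ENNReal.ofReal C *
          (ENNReal.ofReal ((8 * Real.pi * (2 ^ k) ^ 2) ^ 2) * ∫⁻ η, ‖Pc G (k + 1) η‖ₑ ^ 2)) := by
          gcongr
          exact (hN3 k 0).trans (mul_le_mul_right h3 _)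
      _ = _ := by
          rw [← mul_assoc, ← mul_assoc, ← ENNReal.ofReal_mul (by positivity),
            ← ENNReal.ofReal_mul (by positivity)]
          congr 2
          rw [hC'']
          have : ((2 : ℝ) ^ k) ^ 2 = 4 ^ k := by
            rw [← pow_mul, mul_comm, pow_mul]; norm_num
          have h16 : ((4 : ℝ) ^ k) ^ 2 = 16 ^ k := by
            rw [← pow_mul, mul_comm, pow_mul]; norm_num
          rw [this, mul_pow (8 * Real.pi), h16]
          field_simp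
  have hk : ∀ k, ∫⁻ x, WW x * (lam (κ + 2 * θ) k *
      Vk γ (fun k l => M k l x) (fun k => N k 0 x) k) ≤
      ENNReal.ofReal ((C' + C'') * (2 : ℝ) ^ (-(k * κ))) * E0 := by
    intro k
    have h3 := lint_Wk h0 h1 hC (hM1 k) k (hM3 k) (hM4 k)
    have h5 : ENNReal.ofReal C'' ≤ ENNReal.ofReal (C'' * (2 : ℝ) ^ (k * (1 - γ))) := by
      refine ENNReal.ofReal_le_ofReal (le_mul_of_one_le_right hC''0 ?_)
      exact Real.one_le_rpow (by norm_num) (mul_nonneg k.cast_nonneg hγ.le)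
    have h6 : ∫⁻ x, WW x * Vk γ (fun k l => M k l x) (fun k => N k 0 x) k ≤
        ENNReal.ofReal ((C' + C'') * (2 : ℝ) ^ (k * (1 - γ))) *
          ∫⁻ η, ‖Pc G (k + 1) η‖ₑ ^ 2 := by
      unfold Vk
      have m1 : Measurable fun x : E n => WW x * Wk γ (fun l => M k l x) :=
        measurable_WW.mul (mW k)
      simp_rw [mul_add]
      rw [lintegral_add_left m1]
      refine (add_le_add h3 (hder k)).trans ?_
      rw [add_mul, ENNReal.ofReal_add (by positivity) (by positivity), add_mul]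
      gcongr
    have h4 := h6.trans (mul_le_mul_right (energy_Pc (G := G) hs k) _)
    calc ∫⁻ x, WW x * (lam (κ + 2 * θ) k * Vk γ (fun k l => M k l x) (fun k => N k 0 x) k)
        = lam (κ + 2 * θ) k * ∫⁻ x, WW x * Vk γ (fun k l => M k l x) (fun k => N k 0 x) k := by
          have m1 : Measurable fun x : E n =>
              WW x * Vk γ (fun k l => M k l x) (fun k => N k 0 x) k := measurable_WW.mul (mV k)
          rw [← lintegral_const_mul _ m1]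
          refine lintegral_congr fun x => ?_
          ring
      _ ≤ lam (κ + 2 * θ) k * (ENNReal.ofReal ((C' + C'') * (2 : ℝ) ^ (k * (1 - γ))) *
          (ENNReal.ofReal ((2 : ℝ) ^ (-(k * (2 * s)))) * E0)) := by
          gcongr
      _ = _ := by
          unfold lam
          rw [← mul_assoc, ← mul_assoc, ← ENNReal.ofReal_mul (by positivity),
            ← ENNReal.ofReal_mul (by positivity)]
          congr 2
          have : (2 : ℝ) ^ (k * (κ + 2 * θ)) * ((C' + C'') * 2 ^ (k * (1 - γ))) *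
              2 ^ (-(k * (2 * s))) =
              (C' + C'') * (2 ^ (k * (κ + 2 * θ)) * 2 ^ (k * (1 - γ)) * 2 ^ (-(k * (2 * s)))) := by
            ring
          rw [this, ← Real.rpow_add (by norm_num), ← Real.rpow_add (by norm_num)]
          congr 2
          rw [hκ]
          ring
  have htot : ∫⁻ x, WW x * ∑' k, lam (κ + 2 * θ) k *
      Vk γ (fun k l => M k l x) (fun k => N k 0 x) k ≠ ⊤ := by
    have e1 : ∀ x : E n, WW x * ∑' k, lam (κ + 2 * θ) k *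
        Vk γ (fun k l => M k l x) (fun k => N k 0 x) k =
        ∑' k, WW x * (lam (κ + 2 * θ) k * Vk γ (fun k l => M k l x) (fun k => N k 0 x) k) :=
      fun x => ENNReal.tsum_mul_left.symm
    simp_rw [e1]
    have m1 : ∀ k, Measurable fun x : E n => WW x * (lam (κ + 2 * θ) k *
        Vk γ (fun k l => M k l x) (fun k => N k 0 x) k) :=
      fun k => measurable_WW.mul ((mV k).const_mul _)
    rw [lintegral_tsum fun k => (m1 k).aemeasurable]
    refine ne_top_of_le_ne_top ?_ (ENNReal.tsum_le_tsum hk)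
    rw [ENNReal.tsum_mul_right]
    refine ENNReal.mul_ne_top ?_ hE.ne
    rw [← ENNReal.ofReal_tsum_of_nonneg (fun k => by positivity) ((summable_neg hκ0).mul_left _)]
    exact ENNReal.ofReal_ne_top
  refine ⟨κ, hκ0, ?_⟩
  have mT : Measurable fun x : E n => WW x * ∑' k, lam (κ + 2 * θ) k *
      Vk γ (fun k l => M k l x) (fun k => N k 0 x) k :=
    measurable_WW.mul (Measurable.tsum fun k => (mV k).const_mul _)
  filter_upwards [ae_lt_top mT htot] with x hx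
  refine ⟨fun k l => M k l x, fun k => N k 0 x, fun k l t ht a ha => hM2 k l x t ht a ha,
    fun k t ht => hN2 k 0 x t ht 0 le_rfl, fun htop => ?_⟩
  rw [htop, ENNReal.mul_top (WW_ne_zero x)] at hx
  exact lt_irrefl _ hx

/-- the statement on the side of the Fourier transform `G` of `F` -/
theorem rate_evo (hK : SpecK n) (hS : SpecS n) (hA : SpecA n) {s γ θ : ℝ} (hs : 0 < s)
    (h0 : 0 < γ) (h1 : γ < 1) (hθ0 : 0 < θ) (hθ2 : θ ≤ 2) (h2 : 2 * θ < γ + 2 * s - 1)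
    (F : Lp ℂ 2 (volume : Measure (E n)))
    (hE : En (fun η : E n => ENNReal.ofReal ((1 + ‖(2 * Real.pi) • η‖ ^ 2) ^ s))
      (fun η => (𝓕 F : Lp ℂ 2 (volume : Measure (E n))) η) < ⊤) :
    ∀ᵐ x : E n, ∃ u : ℝ → ℂ, Measurable u ∧ u 0 = F x ∧
      (∀ T : ℝ, 0 < T → ∀ μ : Measure ℝ, Frost γ T μ → ∀ᵐ t ∂μ,
        Tendsto (fun a => evo (fun η => (𝓕 F : Lp ℂ 2 (volume : Measure (E n))) η) x
          (2 * Real.pi * t) a) (𝓝[>] 0) (𝓝 (u t))) ∧
      ∃ C : ℝ, ∀ T, 0 < T → T ≤ 1 → ∀ μ : Measure ℝ,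
        Frost γ T μ → ∫⁻ t, ‖u t - F x‖ₑ ^ 2 ∂μ ≤ ENNReal.ofReal (C * T ^ θ) := by
  set G : E n → ℂ := fun η => (𝓕 F : Lp ℂ 2 (volume : Measure (E n))) η with hG
  have hGm : Measurable G := (Lp.stronglyMeasurable _).measurable
  have hG2 : MemLp G 2 volume := Lp.memLp _
  obtain ⟨κ, hκ, hM⟩ := ae_majorants2 hK hS hA hGm hG2 hs.le h0 h1 h2 hE
  have hP : Pieces (Pc G) (dl G s
      (En (fun η : E n => ENNReal.ofReal ((1 + ‖(2 * Real.pi) • η‖ ^ 2) ^ s)) G).toReal) :=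
    pieces_Pc hG2 hs ENNReal.toReal_nonneg (ENNReal.ofReal_toReal hE.ne).ge
  have hPc : ∀ k, ∃ b : ℝ, ∀ η, Pc G k η ≠ 0 → ‖η‖ ≤ b := fun k =>
    ⟨2 ^ k, fun η hη => sh_le (Pc_supp hη)⟩
  obtain ⟨f, hf1, hf2⟩ := exists_f hP
  have hGf : ∀ᵐ η, (𝓕 f : Lp ℂ 2 (volume : Measure (E n))) η = G η := by
    filter_upwards [hf1] with η hη
    exact hη.unique (hasSum_Pc G η)
  have hfF : f = F := by
    have h1 : (𝓕 f : Lp ℂ 2 (volume : Measure (E n))) = 𝓕 F := Lp.ext hGf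
    exact (Lp.fourierTransformₗᵢ (E n) ℂ).injective h1
  subst hfF
  filter_upwards [hM, hf2] with x hx hx2
  obtain ⟨M, M', hM1, hM2, hM3⟩ := hx
  have hW := sum_W_of_V hθ0 hM3
  have hu0 : (∑' k, evo (Pc G k) x (2 * Real.pi * 0) 0) = f x := by
    simp_rw [mul_zero]
    exact hx2.tsum_eq
  refine ⟨fun t => ∑' k, evo (Pc G k) x (2 * Real.pi * t) 0, ?_, hu0, ?_, ?_⟩
  · refine Measurable.tsum fun k => ?_
    exact ((continuous_evo_s (hP.int k) x).comp (continuous_const.mul continuous_id :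
      Continuous fun t : ℝ => 2 * Real.pi * t)).measurable
  · intro T hT μ hμ
    filter_upwards [ae_good (κ := κ) (M := M) h0 hW hT hμ] with t ht
    exact tendsto_good hP (Eventually.of_forall (hasSum_Pc G)) hκ hM1 ht.1.1 ht.2
  · obtain ⟨C, h⟩ := rate_bound hP hPc h0 hκ hθ0 hθ2 hM1 hM2 hM3
    refine ⟨C, fun T hT hTT μ hμ => ?_⟩
    have h3 := h T hT hTT μ hμ
    rw [hu0] at h3
    exact h3

/-- **Strong fractal means with a rate.** -/
theorem fractal_rate (hK : SpecK n) (hS : SpecS n) (hA : SpecA n) {s γ θ : ℝ} (hs : 0 < s)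
    (h0 : 0 < γ) (h1 : γ ≤ 1) (hθ0 : 0 < θ) (hθ2 : θ ≤ 2) (h2 : 2 * θ < γ + 2 * s - 1)
    {f g : (Fin n → ℝ) → ℂ} (hfg : IsFourierPair f g)
    (hf : Integrable fun ξ => (1 + nrm ξ ^ 2) ^ s * ‖g ξ‖ ^ 2) :
    ∀ᵐ x, ∃ u : ℝ → ℂ, Measurable u ∧ u 0 = f x ∧
      (∀ T : ℝ, 0 < T → ∀ μ : Measure ℝ, Frost γ T μ → ∀ᵐ t ∂μ,
        Tendsto (fun a => evolve g t a x) (𝓝[>] 0) (𝓝 (u t))) ∧
      ∃ C : ℝ, ∀ T, 0 < T → T ≤ 1 → ∀ μ : Measure ℝ,
        Frost γ T μ → ∫⁻ t, ‖u t - f x‖ₑ ^ 2 ∂μ ≤ ENNReal.ofReal (C * T ^ θ) := by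
  -- reduction to an exponent below one
  obtain ⟨γ', g0, g1, g2, g3⟩ : ∃ γ' : ℝ, 0 < γ' ∧ γ' < 1 ∧ 2 * θ < γ' + 2 * s - 1 ∧ γ' ≤ γ := by
    have hm : max 0 (1 - 2 * s + 2 * θ) < γ := max_lt h0 (by linarith)
    have hm0 : 0 ≤ max 0 (1 - 2 * s + 2 * θ) := le_max_left _ _
    have hm1 : 1 - 2 * s + 2 * θ ≤ max 0 (1 - 2 * s + 2 * θ) := le_max_right _ _
    exact ⟨(max 0 (1 - 2 * s + 2 * θ) + γ) / 2, by linarith, by linarith, by linarith,
      by linarith⟩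
  obtain ⟨F, hF, hg⟩ := exists_lp hfg
  have hE1 := (integrable_weight_iff s hfg.2.1).1 hf
  have hE2 : En (fun η : E n => ENNReal.ofReal ((1 + ‖(2 * Real.pi) • η‖ ^ 2) ^ s))
      (fun η => (𝓕 F : Lp ℂ 2 (volume : Measure (E n))) η) < ⊤ := by
    have h1 : ∫⁻ ξ, ENNReal.ofReal ((1 + nrm ξ ^ 2) ^ s) * ‖g ξ‖ₑ ^ 2 =
        ∫⁻ ξ, ENNReal.ofReal ((1 + nrm ξ ^ 2) ^ s) * ‖freq F ξ‖ₑ ^ 2 := by
      refine lintegral_congr_ae ?_
      filter_upwards [hg] with ξ hξ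
      rw [hξ]
    rw [h1, energy_freq] at hE1
    have h3 : En (H791.wt fun ξ : Fin n → ℝ => ENNReal.ofReal ((1 + nrm ξ ^ 2) ^ s))
        (fun η => (𝓕 F : Lp ℂ 2 (volume : Measure (E n))) η) < ⊤ := by
      by_contra hcon
      rw [not_lt, top_le_iff] at hcon
      rw [hcon, ENNReal.mul_top ofReal_pos_scale] at hE1
      exact lt_irrefl _ hE1
    refine lt_of_le_of_lt (le_of_eq ?_) h3
    congr 1
    funext η
    change ENNReal.ofReal ((1 + ‖(2 * Real.pi) • η‖ ^ 2) ^ s) =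
      ENNReal.ofReal ((1 + nrm (WithLp.ofLp ((2 * Real.pi) • η)) ^ 2) ^ s)
    rw [nrm_eq]
    rfl
  filter_upwards [ae_toE (rate_evo hK hS hA hs g0 g1 hθ0 hθ2 g2 F hE2), hF] with x hx hx2
  obtain ⟨u, hu1, hu2, hu3, C, hu4⟩ := hx
  have hfx : f x = F (toE x) := hx2
  refine ⟨u, hu1, by rw [hu2, hfx], fun T hT μ hμ => ?_, C, fun T hT hTT μ hμ => ?_⟩
  · filter_upwards [hu3 T hT μ (hμ.mono hT g3 g0.le)] with t ht
    have h2 : Tendsto (fun b : ℝ => 4 * Real.pi ^ 2 * b) (𝓝[>] 0) (𝓝[>] 0) := by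
      refine tendsto_nhdsWithin_iff.2 ⟨?_, ?_⟩
      · have : Tendsto (fun b : ℝ => 4 * Real.pi ^ 2 * b) (𝓝 0) (𝓝 (4 * Real.pi ^ 2 * 0)) :=
          (continuous_const.mul continuous_id).tendsto 0
        rw [mul_zero] at this
        exact this.mono_left nhdsWithin_le_nhds
      · filter_upwards [self_mem_nhdsWithin] with b hb
        have hb' : (0:ℝ) < b := hb
        exact Set.mem_Ioi.2 (by positivity)
    refine (ht.comp h2).congr fun a => ?_
    rw [evolve_congr hg, evolve_freq, schrReg_eq_evo]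
    rfl
  · rw [hfx]
    exact hu4 T hT hTT μ (hμ.mono hT g3 g0.le)

end Vale.Agent.P076.R2.H45
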