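import Vale.Agent.P076.R2.H45.Fm1

/-!
# Strong fractal means: the limit at a fixed point
-/

open MeasureTheory Complex FourierTransform Filter Topology Set
open scoped ENNReal NNReal

namespace Vale.Agent.P076.R2.H45

open Vale.Agent.P076 Vale.Agent.P076.H791 Vale.Agent.P076.R2.H64

variable {n : ℕ}

/-- the weights -/
noncomputable def lam (κ : ℝ) (k : ℕ) : ℝ≥0∞ := ENNReal.ofReal ((2 : ℝ) ^ (k * κ))

lemma lam_ne_zero (κ : ℝ) (k : ℕ) : lam κ k ≠ 0 := by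
  unfold lam
  simp only [ne_eq, ENNReal.ofReal_eq_zero, not_le]
  positivity

lemma lam_ne_top (κ : ℝ) (k : ℕ) : lam κ k ≠ ⊤ := ENNReal.ofReal_ne_top

lemma two_pow_neg_eq (κ : ℝ) (k : ℕ) : (2 : ℝ) ^ (-(k * κ)) = ((2 : ℝ) ^ (-κ)) ^ k := by
  rw [← Real.rpow_natCast, ← Real.rpow_mul (by norm_num)]
  congr 1
  ring

lemma summable_neg {κ : ℝ} (hκ : 0 < κ) : Summable fun k : ℕ => (2 : ℝ) ^ (-(k * κ)) := by
  simp_rw [two_pow_neg_eq]
  exact summable_geometric_of_lt_one (by positivity)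
    (Real.rpow_lt_one_of_one_lt_of_neg (by norm_num) (by linarith))

lemma lam_inv (κ : ℝ) (k : ℕ) : (lam κ k)⁻¹ = ENNReal.ofReal ((2 : ℝ) ^ (-(k * κ))) := by
  unfold lam
  rw [← ENNReal.ofReal_inv_of_pos (by positivity), Real.rpow_neg (by norm_num)]

lemma tsum_lam_inv {κ : ℝ} (hκ : 0 < κ) : ∑' k, (lam κ k)⁻¹ ≠ ⊤ := by
  simp_rw [lam_inv]
  rw [← ENNReal.ofReal_tsum_of_nonneg (fun k => by positivity) (summable_neg hκ)]
  exact ENNReal.ofReal_ne_top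

/-- Cauchy-Schwarz for series -/
lemma cs_tsum (f u : ℕ → ℝ≥0∞) (h0 : ∀ k, u k ≠ 0) (h1 : ∀ k, u k ≠ ⊤) :
    (∑' k, f k) ^ 2 ≤ (∑' k, (u k)⁻¹) * ∑' k, u k * f k ^ 2 := by
  have h := H831.cs_weight (μ := (Measure.count : Measure ℕ)) (f := f) (u := u)
    (measurable_of_countable f).aemeasurable (measurable_of_countable u).aemeasurable
    (Eventually.of_forall h0) (Eventually.of_forall fun k h => absurd h (h1 k))
  simpa only [lintegral_count] using h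

lemma sq_add_le (a b : ℝ≥0∞) : (a + b) ^ 2 ≤ 2 * (a ^ 2 + b ^ 2) := by
  by_cases ha : a = ⊤
  · subst ha; simp
  by_cases hb : b = ⊤
  · subst hb; simp
  lift a to ℝ≥0 using ha
  lift b to ℝ≥0 using hb
  norm_cast
  rw [← NNReal.coe_le_coe]
  push_cast
  nlinarith [sq_nonneg ((a : ℝ) - b)]

section
variable {P : ℕ → E n → ℂ} {δ : ℕ → ℝ} {G : E n → ℂ} {x : E n} {M : ℕ → ℕ → ℝ≥0∞}
  {γ κ : ℝ}

/-- the total majorant of a time -/
noncomputable def BT (κ : ℝ) (M : ℕ → ℕ → ℝ≥0∞) (t : ℝ) : ℝ≥0∞ := ∑' k, lam κ k * bb (M k) k t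

lemma measurable_BT (κ : ℝ) (M : ℕ → ℕ → ℝ≥0∞) : Measurable (BT κ M) :=
  Measurable.tsum fun k => (measurable_bb (M k) k).const_mul _

lemma lint_BT (h0 : 0 < γ) {T : ℝ} (hT : 0 < T) {μ : Measure ℝ} (h : Frost γ T μ) :
    ∫⁻ t, BT κ M t ∂μ ≤ ENNReal.ofReal (2 ^ γ) * ∑' k, lam κ k * Wk γ (M k) := by
  unfold BT
  rw [lintegral_tsum fun k => ((measurable_bb (M k) k).const_mul _).aemeasurable,
    ← ENNReal.tsum_mul_left]
  refine ENNReal.tsum_le_tsum fun k => ?_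
  rw [lintegral_const_mul _ (measurable_bb (M k) k), ← mul_assoc,
    mul_comm (ENNReal.ofReal (2 ^ γ)), mul_assoc]
  gcongr
  exact lint_bb h0 hT h (M k) k

/-- almost every time is good -/
lemma ae_good (h0 : 0 < γ) (hW : ∑' k, lam κ k * Wk γ (M k) ≠ ⊤) {T : ℝ} (hT : 0 < T)
    {μ : Measure ℝ} (h : Frost γ T μ) : ∀ᵐ t ∂μ, (t ∈ Icc 0 T) ∧ BT κ M t < ⊤ := by
  have h1 : ∀ᵐ t ∂μ, t ∈ Icc 0 T := by
    rw [ae_iff]
    exact h.1
  have h2 : ∀ᵐ t ∂μ, BT κ M t < ⊤ := ae_lt_top (measurable_BT κ M)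
    (ne_top_of_le_ne_top (ENNReal.mul_ne_top ENNReal.ofReal_ne_top hW) (lint_BT h0 hT h))
  exact h1.and h2

lemma norm_le_of_BT (hM : ∀ k l, ∀ s ∈ Il ((2 : ℝ) ^ k) l, ∀ a : ℝ, 0 ≤ a →
      ‖evo (P (k + 1)) x s a‖ₑ ^ 2 ≤ M k l) {t : ℝ} (ht : 0 ≤ t)
    (hB : BT κ M t < ⊤) (k : ℕ) {a : ℝ} (ha : 0 ≤ a) :
    ‖evo (P (k + 1)) x (2 * Real.pi * t) a‖ ≤ √(BT κ M t).toReal * (2 : ℝ) ^ (-(k * (κ / 2))) := by
  have h1 := (hM k _ _ (mem_Il (mem_cell ht k)) a ha).trans (le_bb (M k) k ht)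
  have h2 : lam κ k * ‖evo (P (k + 1)) x (2 * Real.pi * t) a‖ₑ ^ 2 ≤ BT κ M t :=
    (mul_le_mul_right h1 _).trans (ENNReal.le_tsum k)
  rw [← ofReal_norm, ← ENNReal.ofReal_pow (norm_nonneg _), lam, ← ENNReal.ofReal_mul (by positivity),
    ENNReal.ofReal_le_iff_le_toReal hB.ne] at h2
  set b : ℝ := (BT κ M t).toReal with hb
  set e : ℝ := ‖evo (P (k + 1)) x (2 * Real.pi * t) a‖ with he
  have h3 : ((2 : ℝ) ^ (k * (κ / 2)) * e) ^ 2 ≤ b := by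
    have : ((2 : ℝ) ^ (k * (κ / 2))) ^ 2 = (2 : ℝ) ^ (k * κ) := by
      rw [← Real.rpow_natCast, ← Real.rpow_mul (by norm_num)]
      congr 1
      push_cast
      ring
    rw [mul_pow, this]
    exact h2
  have h4 : (2 : ℝ) ^ (k * (κ / 2)) * e ≤ √b := Real.le_sqrt_of_sq_le h3
  rw [Real.rpow_neg (by norm_num), ← div_eq_mul_inv, le_div_iff₀ (by positivity), mul_comm]
  exact h4

/-- the values exist at a good time -/
lemma tendsto_good (hP : Pieces P δ) (hg : ∀ᵐ η, HasSum (fun i => P i η) (G η)) (hκ : 0 < κ)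
    (hM : ∀ k l, ∀ s ∈ Il ((2 : ℝ) ^ k) l, ∀ a : ℝ, 0 ≤ a →
      ‖evo (P (k + 1)) x s a‖ₑ ^ 2 ≤ M k l) {t : ℝ} (ht : 0 ≤ t) (hB : BT κ M t < ⊤) :
    Tendsto (fun a => evo G x (2 * Real.pi * t) a) (𝓝[>] 0)
      (𝓝 (∑' k, evo (P k) x (2 * Real.pi * t) 0)) := by
  set e : ℕ → ℝ := fun k => match k with
    | 0 => 0
    | k + 1 => √(BT κ M t).toReal * (2 : ℝ) ^ (-(k * (κ / 2))) with he
  have hes : Summable e := by
    rw [← summable_nat_add_iff 1]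
    exact (summable_neg (κ := κ / 2) (by positivity)).mul_left _
  refine (det_end hP hg x (Z := {2 * Real.pi * t}) hes (k0 := 1) ?_).2 _ rfl
  intro k hk s hs a ha
  obtain ⟨j, rfl⟩ : ∃ j, k = j + 1 := ⟨k - 1, by omega⟩
  rw [mem_singleton_iff] at hs
  subst hs
  exact norm_le_of_BT hM ht hB j ha

lemma summable_good (hκ : 0 < κ)
    (hM : ∀ k l, ∀ s ∈ Il ((2 : ℝ) ^ k) l, ∀ a : ℝ, 0 ≤ a →
      ‖evo (P (k + 1)) x s a‖ₑ ^ 2 ≤ M k l) {t : ℝ} (ht : 0 ≤ t) (hB : BT κ M t < ⊤) :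
    Summable fun k => evo (P k) x (2 * Real.pi * t) 0 := by
  rw [← summable_nat_add_iff 1]
  exact Summable.of_norm_bounded ((summable_neg (κ := κ / 2) (by positivity)).mul_left _)
    fun k => norm_le_of_BT hM ht hB k le_rfl

end

end Vale.Agent.P076.R2.H45
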