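import Vale.Agent.P076.R2.H45.Fm2

/-!
# Strong fractal means: the mean bound
-/

open MeasureTheory Complex FourierTransform Filter Topology Set
open scoped ENNReal NNReal

namespace Vale.Agent.P076.R2.H45

open Vale.Agent.P076 Vale.Agent.P076.H791 Vale.Agent.P076.R2.H64

variable {n : ℕ} {P : ℕ → E n → ℂ} {δ : ℕ → ℝ} {G : E n → ℂ} {x : E n} {M : ℕ → ℕ → ℝ≥0∞}
  {γ κ : ℝ}

lemma zero_le_Mk (hM : ∀ k l, ∀ s ∈ Il ((2 : ℝ) ^ k) l, ∀ a : ℝ, 0 ≤ a →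
      ‖evo (P (k + 1)) x s a‖ₑ ^ 2 ≤ M k l) (k : ℕ) :
    ‖evo (P (k + 1)) x (2 * Real.pi * 0) 0‖ₑ ^ 2 ≤ M k 0 := by
  have h1 := mem_Il (mem_cell (le_refl (0 : ℝ)) k)
  rw [zero_mul, Nat.floor_zero] at h1
  exact hM k 0 _ h1 0 le_rfl

lemma summable_zero (hκ : 0 < κ) (hM : ∀ k l, ∀ s ∈ Il ((2 : ℝ) ^ k) l, ∀ a : ℝ, 0 ≤ a →
      ‖evo (P (k + 1)) x s a‖ₑ ^ 2 ≤ M k l) (hW : ∑' k, lam κ k * Wk γ (M k) ≠ ⊤) :
    Summable fun k => evo (P k) x (2 * Real.pi * 0) 0 := by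
  rw [← summable_nat_add_iff 1]
  set W0 : ℝ := (∑' k, lam κ k * Wk γ (M k)).toReal with hW0
  refine Summable.of_norm_bounded (g := fun k : ℕ => √W0 * (2 : ℝ) ^ (-(k * (κ / 2))))
    ((summable_neg (κ := κ / 2) (by positivity)).mul_left _) fun k => ?_
  have h1 := (zero_le_Mk hM k).trans (le_Wk γ (M k))
  have h2 : lam κ k * ‖evo (P (k + 1)) x (2 * Real.pi * 0) 0‖ₑ ^ 2 ≤
      ∑' k, lam κ k * Wk γ (M k) :=
    (mul_le_mul_right h1 _).trans (ENNReal.le_tsum k)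
  rw [← ofReal_norm, ← ENNReal.ofReal_pow (norm_nonneg _), lam, ← ENNReal.ofReal_mul (by positivity),
    ENNReal.ofReal_le_iff_le_toReal hW] at h2
  set e : ℝ := ‖evo (P (k + 1)) x (2 * Real.pi * 0) 0‖ with he
  have h3 : ((2 : ℝ) ^ (k * (κ / 2)) * e) ^ 2 ≤ W0 := by
    have : ((2 : ℝ) ^ (k * (κ / 2))) ^ 2 = (2 : ℝ) ^ (k * κ) := by
      rw [← Real.rpow_natCast, ← Real.rpow_mul (by norm_num)]
      congr 1
      push_cast
      ring
    rw [mul_pow, this]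
    exact h2
  have h4 : (2 : ℝ) ^ (k * (κ / 2)) * e ≤ √W0 := Real.le_sqrt_of_sq_le h3
  rw [Real.rpow_neg (by norm_num), ← div_eq_mul_inv, le_div_iff₀ (by positivity), mul_comm]
  exact h4

/-- the tail majorant -/
noncomputable def Dt (κ : ℝ) (M : ℕ → ℕ → ℝ≥0∞) (K : ℕ) (t : ℝ) : ℝ≥0∞ :=
  ∑' k, lam κ (k + K) * (2 * (bb (M (k + K)) (k + K) t + M (k + K) 0))

lemma measurable_Dt (κ : ℝ) (M : ℕ → ℕ → ℝ≥0∞) (K : ℕ) : Measurable (Dt κ M K) :=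
  Measurable.tsum fun k =>
    (((measurable_bb (M (k + K)) (k + K)).add measurable_const).const_mul _).const_mul _

lemma lint_Dt (h0 : 0 < γ) {T : ℝ} (hT : 0 < T) {μ : Measure ℝ} (h : Frost γ T μ) (K : ℕ) :
    ∫⁻ t, Dt κ M K t ∂μ ≤
      2 * (ENNReal.ofReal (2 ^ γ) + 1) * ∑' k, lam κ (k + K) * Wk γ (M (k + K)) := by
  unfold Dt
  have m1 : ∀ k, Measurable fun t => bb (M (k + K)) (k + K) t + M (k + K) 0 := fun k =>
    (measurable_bb (M (k + K)) (k + K)).add measurable_const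
  have m2 : ∀ k, Measurable fun t => 2 * (bb (M (k + K)) (k + K) t + M (k + K) 0) := fun k =>
    (m1 k).const_mul _
  have m3 : ∀ k, Measurable fun t => lam κ (k + K) * (2 * (bb (M (k + K)) (k + K) t + M (k + K) 0)) :=
    fun k => (m2 k).const_mul _
  rw [lintegral_tsum fun k => (m3 k).aemeasurable, ← ENNReal.tsum_mul_left]
  refine ENNReal.tsum_le_tsum fun k => ?_
  rw [lintegral_const_mul _ (m2 k), lintegral_const_mul _ (m1 k),
    lintegral_add_right _ measurable_const, lintegral_const]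
  have h1 := lint_bb h0 hT h (M (k + K)) (k + K)
  have h2 : M (k + K) 0 * μ univ ≤ Wk γ (M (k + K)) := by
    calc M (k + K) 0 * μ univ ≤ Wk γ (M (k + K)) * 1 :=
          mul_le_mul' (le_Wk γ _) (h.total hT)
      _ = _ := mul_one _
  calc lam κ (k + K) * (2 * (∫⁻ t, bb (M (k + K)) (k + K) t ∂μ + M (k + K) 0 * μ univ))
      ≤ lam κ (k + K) * (2 * (ENNReal.ofReal (2 ^ γ) * Wk γ (M (k + K)) + Wk γ (M (k + K)))) := by
        gcongr
    _ = _ := by ring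

/-- the pointwise bound -/
lemma point_bound (hκ : 0 < κ) (hM : ∀ k l, ∀ s ∈ Il ((2 : ℝ) ^ k) l, ∀ a : ℝ, 0 ≤ a →
      ‖evo (P (k + 1)) x s a‖ₑ ^ 2 ≤ M k l) (hW : ∑' k, lam κ k * Wk γ (M k) ≠ ⊤) (K : ℕ)
    {t : ℝ} (ht : 0 ≤ t) (hB : BT κ M t < ⊤) {ε₁ : ℝ≥0∞}
    (hε : ∑ k ∈ Finset.range (K + 1),
      ‖evo (P k) x (2 * Real.pi * t) 0 - evo (P k) x (2 * Real.pi * 0) 0‖ₑ ≤ ε₁) :
    ‖(∑' k, evo (P k) x (2 * Real.pi * t) 0) - ∑' k, evo (P k) x (2 * Real.pi * 0) 0‖ₑ ^ 2 ≤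
      2 * (ε₁ ^ 2 + (∑' k, (lam κ k)⁻¹) * Dt κ M K t) := by
  have s1 := summable_good hκ hM ht hB
  have s2 := summable_zero hκ hM hW
  generalize hu : (fun k => evo (P k) x (2 * Real.pi * t) 0) = u at s1
  generalize hv : (fun k => evo (P k) x (2 * Real.pi * 0) 0) = v at s2
  have hu' : ∀ k, evo (P k) x (2 * Real.pi * t) 0 = u k := fun k => by rw [← hu]
  have hv' : ∀ k, evo (P k) x (2 * Real.pi * 0) 0 = v k := fun k => by rw [← hv]
  simp_rw [hu', hv'] at hε ⊢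
  rw [← s1.tsum_sub s2]
  set f : ℕ → ℂ := fun k => u k - v k with hf
  have h1 : ‖∑' k, f k‖ₑ ≤ ε₁ + ∑' k, ‖f (k + (K + 1))‖ₑ := by
    refine enorm_tsum_le_tsum_enorm.trans ?_
    have h2 : ∑ k ∈ Finset.range (K + 1), ‖f k‖ₑ + ∑' k, ‖f (k + (K + 1))‖ₑ = ∑' k, ‖f k‖ₑ :=
      Summable.sum_add_tsum_nat_add' (f := fun k => ‖f k‖ₑ) ENNReal.summable
    rw [← h2]
    gcongr
  have h2 : (∑' k, ‖f (k + (K + 1))‖ₑ) ^ 2 ≤ (∑' k, (lam κ k)⁻¹) * Dt κ M K t := by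
    refine (cs_tsum _ (fun k => lam κ (k + K)) (fun k => lam_ne_zero _ _)
      fun k => lam_ne_top _ _).trans ?_
    refine mul_le_mul' ?_ ?_
    · exact ENNReal.tsum_comp_le_tsum_of_injective (add_left_injective K)
        (fun k => (lam κ k)⁻¹)
    · unfold Dt
      refine ENNReal.tsum_le_tsum fun k => ?_
      gcongr
      have e1 : k + (K + 1) = (k + K) + 1 := by ring
      simp only [hf]
      rw [e1]
      have g1 := (hM (k + K) _ _ (mem_Il (mem_cell ht (k + K))) 0 le_rfl).trans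
        (le_bb (M (k + K)) (k + K) ht)
      have g2 := zero_le_Mk hM (k + K)
      rw [hu'] at g1
      rw [hv'] at g2
      have g3 : ‖u (k + K + 1) - v (k + K + 1)‖ₑ ≤ ‖u (k + K + 1)‖ₑ + ‖v (k + K + 1)‖ₑ :=
        enorm_sub_le
      refine (pow_le_pow_left' g3 2).trans ((sq_add_le _ _).trans ?_)
      gcongr
  calc ‖∑' k, f k‖ₑ ^ 2 ≤ (ε₁ + ∑' k, ‖f (k + (K + 1))‖ₑ) ^ 2 := pow_le_pow_left' h1 2
    _ ≤ 2 * (ε₁ ^ 2 + (∑' k, ‖f (k + (K + 1))‖ₑ) ^ 2) := sq_add_le _ _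
    _ ≤ _ := by gcongr

/-- the means at a fixed point -/
theorem mean_bound (hP : Pieces P δ) (h0 : 0 < γ) (hκ : 0 < κ)
    (hM : ∀ k l, ∀ s ∈ Il ((2 : ℝ) ^ k) l, ∀ a : ℝ, 0 ≤ a →
      ‖evo (P (k + 1)) x s a‖ₑ ^ 2 ≤ M k l) (hW : ∑' k, lam κ k * Wk γ (M k) ≠ ⊤)
    {ε : ℝ} (hε : 0 < ε) : ∃ T₀ : ℝ, 0 < T₀ ∧ ∀ T, 0 < T → T ≤ T₀ → ∀ μ : Measure ℝ,
      Frost γ T μ → ∫⁻ t, ‖(∑' k, evo (P k) x (2 * Real.pi * t) 0) -
        ∑' k, evo (P k) x (2 * Real.pi * 0) 0‖ₑ ^ 2 ∂μ ≤ ENNReal.ofReal ε := by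
  set Λ : ℝ≥0∞ := ∑' k, (lam κ k)⁻¹ with hΛ
  have hΛt : Λ ≠ ⊤ := tsum_lam_inv hκ
  set c : ℝ≥0∞ := 2 * (Λ * (2 * (ENNReal.ofReal (2 ^ γ) + 1))) with hc
  have hct : c ≠ ⊤ := by
    rw [hc]
    exact ENNReal.mul_ne_top (by norm_num) (ENNReal.mul_ne_top hΛt (ENNReal.mul_ne_top (by norm_num)
      (ENNReal.add_ne_top.2 ⟨ENNReal.ofReal_ne_top, by norm_num⟩)))
  have h1 : Tendsto (fun K => c * ∑' k, lam κ (k + K) * Wk γ (M (k + K))) atTop (𝓝 0) := by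
    have h2 := ENNReal.tendsto_sum_nat_add (fun k => lam κ k * Wk γ (M k)) hW
    have h3 := ENNReal.Tendsto.const_mul (a := c) h2 (Or.inr hct)
    rwa [mul_zero] at h3
  have hε2 : 0 < ENNReal.ofReal (ε / 2) := by rw [ENNReal.ofReal_pos]; positivity
  obtain ⟨K, hK⟩ := (h1.eventually (ge_mem_nhds hε2)).exists
  -- small times for the finite part
  set ε₁ : ℝ := min 1 (ε / 4) with hε1
  have hε10 : 0 < ε₁ := lt_min one_pos (by positivity)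
  have hcont : Continuous fun t : ℝ => ∑ k ∈ Finset.range (K + 1),
      ‖evo (P k) x (2 * Real.pi * t) 0 - evo (P k) x (2 * Real.pi * 0) 0‖ := by
    refine continuous_finsetSum _ fun k _ => ?_
    have := (continuous_evo_s (hP.int k) x).comp (continuous_const.mul continuous_id :
      Continuous fun t : ℝ => 2 * Real.pi * t)
    exact (this.sub continuous_const).norm
  have h4 : ∀ᶠ t in 𝓝 (0 : ℝ), ∑ k ∈ Finset.range (K + 1),
      ‖evo (P k) x (2 * Real.pi * t) 0 - evo (P k) x (2 * Real.pi * 0) 0‖ < ε₁ := by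
    refine hcont.continuousAt.eventually (gt_mem_nhds ?_)
    simp only [sub_self, norm_zero, Finset.sum_const_zero]
    exact hε10
  obtain ⟨r, hr, hr2⟩ := Metric.eventually_nhds_iff.1 h4
  refine ⟨r / 2, by positivity, fun T hT hTr μ hμ => ?_⟩
  have hgood := ae_good (κ := κ) (M := M) h0 hW hT hμ
  have hmain : ∀ᵐ t ∂μ, ‖(∑' k, evo (P k) x (2 * Real.pi * t) 0) -
      ∑' k, evo (P k) x (2 * Real.pi * 0) 0‖ₑ ^ 2 ≤
      2 * (ENNReal.ofReal ε₁ ^ 2 + Λ * Dt κ M K t) := by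
    filter_upwards [hgood] with t ht
    refine point_bound hκ hM hW K ht.1.1 ht.2 ?_
    have h5 : dist t 0 < r := by
      rw [Real.dist_0_eq_abs, abs_of_nonneg ht.1.1]
      linarith [ht.1.2]
    have h6 := (hr2 h5).le
    calc ∑ k ∈ Finset.range (K + 1),
          ‖evo (P k) x (2 * Real.pi * t) 0 - evo (P k) x (2 * Real.pi * 0) 0‖ₑ
        = ENNReal.ofReal (∑ k ∈ Finset.range (K + 1),
          ‖evo (P k) x (2 * Real.pi * t) 0 - evo (P k) x (2 * Real.pi * 0) 0‖) := by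
          rw [ENNReal.ofReal_sum_of_nonneg fun k _ => norm_nonneg _]
          exact Finset.sum_congr rfl fun k _ => (ofReal_norm _).symm
      _ ≤ ENNReal.ofReal ε₁ := ENNReal.ofReal_le_ofReal h6
  refine (lintegral_mono_ae hmain).trans ?_
  have mD := measurable_Dt κ M K
  have mD2 : Measurable fun t => ENNReal.ofReal ε₁ ^ 2 + Λ * Dt κ M K t :=
    measurable_const.add (mD.const_mul _)
  rw [lintegral_const_mul _ mD2,
    lintegral_add_left measurable_const, lintegral_const, lintegral_const_mul _ mD]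
  have h7 := lint_Dt (κ := κ) (M := M) h0 hT hμ K
  have h8 := hμ.total hT
  calc 2 * (ENNReal.ofReal ε₁ ^ 2 * μ univ + Λ * ∫⁻ t, Dt κ M K t ∂μ)
      ≤ 2 * (ENNReal.ofReal ε₁ ^ 2 * 1 + Λ * (2 * (ENNReal.ofReal (2 ^ γ) + 1) *
        ∑' k, lam κ (k + K) * Wk γ (M (k + K)))) := by gcongr
    _ = 2 * ENNReal.ofReal ε₁ ^ 2 + c * ∑' k, lam κ (k + K) * Wk γ (M (k + K)) := by
        rw [hc]; ring
    _ ≤ ENNReal.ofReal (ε / 2) + ENNReal.ofReal (ε / 2) := by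
        refine add_le_add ?_ hK
        have e2 : (2 : ℝ≥0∞) = ENNReal.ofReal 2 := by norm_num
        rw [e2, ← ENNReal.ofReal_pow hε10.le, ← ENNReal.ofReal_mul (by norm_num)]
        refine ENNReal.ofReal_le_ofReal ?_
        have g1 : ε₁ ≤ 1 := min_le_left _ _
        have g2 : ε₁ ≤ ε / 4 := min_le_right _ _
        nlinarith
    _ = ENNReal.ofReal ε := by
        rw [← ENNReal.ofReal_add (by positivity) (by positivity)]
        congr 1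
        ring

end Vale.Agent.P076.R2.H45
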