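import Vale.Agent.P076.R2.H45.Fm3

/-!
# Strong fractal means: the pieces, almost every point
-/

open MeasureTheory Complex FourierTransform Filter Topology Set
open scoped ENNReal NNReal

namespace Vale.Agent.P076.R2.H45

open Vale.Agent.P076 Vale.Agent.P076.H791 Vale.Agent.P076.R2.H64

variable {n : ℕ} {G : E n → ℂ}

/-- the shells -/
def sh (n : ℕ) : ℕ → Set (E n)
  | 0 => {η | ‖η‖ < 1}
  | k + 1 => {η | 2 ^ k ≤ ‖η‖ ∧ ‖η‖ < 2 ^ (k + 1)}

lemma measurableSet_sh (k : ℕ) : MeasurableSet (sh n k) := by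
  cases k with
  | zero => exact measurableSet_lt measurable_norm measurable_const
  | succ k =>
    exact (measurableSet_le measurable_const measurable_norm).inter
      (measurableSet_lt measurable_norm measurable_const)

lemma sh_le {k : ℕ} {η : E n} (h : η ∈ sh n k) : ‖η‖ ≤ 2 ^ k := by
  cases k with
  | zero =>
    have h1 : ‖η‖ < 1 := h
    simpa using h1.le
  | succ k => exact h.2.le

lemma exists_sh (η : E n) : ∃ k, η ∈ sh n k ∧ ∀ j, j ≠ k → η ∉ sh n j := by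
  have hpow : ∀ i j : ℕ, (2 : ℝ) ^ i ≤ ‖η‖ → ‖η‖ < 2 ^ j → i < j := fun i j h1 h2 =>
    (pow_lt_pow_iff_right₀ (by norm_num : (1 : ℝ) < 2)).1 (h1.trans_lt h2)
  by_cases h : ‖η‖ < 1
  · refine ⟨0, h, fun j hj hm => ?_⟩
    obtain ⟨i, rfl⟩ : ∃ i, j = i + 1 := ⟨j - 1, by omega⟩
    have h1 : (1 : ℝ) ≤ 2 ^ i := one_le_pow₀ (by norm_num)
    linarith [hm.1]
  · rw [not_lt] at h
    obtain ⟨k, hk1, hk2⟩ := exists_nat_pow_near h (by norm_num : (1 : ℝ) < 2)
    refine ⟨k + 1, ⟨hk1, hk2⟩, fun j hj hm => ?_⟩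
    cases j with
    | zero =>
      have h1 : ‖η‖ < 1 := hm
      linarith
    | succ j =>
      have h1 := hpow k (j + 1) hk1 hm.2
      have h2 := hpow j (k + 1) hm.1 hk2
      omega

/-- the pieces -/
noncomputable def Pc (G : E n → ℂ) (k : ℕ) : E n → ℂ := (sh n k).indicator G

lemma hasSum_Pc (G : E n → ℂ) (η : E n) : HasSum (fun k => Pc G k η) (G η) := by
  obtain ⟨k, hk, hk2⟩ := exists_sh η
  have h := hasSum_single (f := fun k => Pc G k η) k fun j hj => by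
    simp only [Pc]
    exact indicator_of_notMem (hk2 j hj) _
  have e : Pc G k η = G η := indicator_of_mem hk _
  rwa [e] at h

lemma Pc_supp {k : ℕ} {η : E n} (h : Pc G k η ≠ 0) : η ∈ sh n k := by
  by_contra hc
  exact h (indicator_of_notMem hc _)

lemma enorm_Pc_le (k : ℕ) (η : E n) : ‖Pc G k η‖ₑ ≤ ‖G η‖ₑ := by
  by_cases h : η ∈ sh n k
  · rw [Pc, indicator_of_mem h]
  · rw [Pc, indicator_of_notMem h, enorm_zero]
    exact bot_le

lemma lint_ne_top (hG2 : MemLp G 2 volume) : ∫⁻ η, ‖G η‖ₑ ^ 2 ≠ ⊤ := by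
  have h := hG2.2
  rw [eLpNorm_lt_top_iff_lintegral_rpow_enorm_lt_top (by norm_num) (by norm_num)] at h
  simp only [ENNReal.toReal_ofNat, ENNReal.rpow_ofNat] at h
  exact h.ne

lemma memLp_Pc (hG2 : MemLp G 2 volume) (k : ℕ) : MemLp (Pc G k) 2 volume :=
  hG2.indicator (measurableSet_sh k)

lemma shell_Pc (hGm : Measurable G) (hG2 : MemLp G 2 volume) (k : ℕ) :
    Shell ((2 : ℝ) ^ k) (Pc G (k + 1)) where
  meas := hGm.indicator (measurableSet_sh (k + 1))
  l2 := lint_ne_top (memLp_Pc hG2 (k + 1))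
  supp := fun η hη => by
    have h := Pc_supp hη
    refine ⟨h.1, ?_⟩
    have := h.2.le
    rwa [pow_succ, mul_comm] at this

lemma integrable_Pc (hG2 : MemLp G 2 volume) (k : ℕ) : Integrable (Pc G k) := by
  have h1 : IntegrableOn (Pc G k) (Metric.closedBall 0 (2 ^ k)) volume := by
    have : IsFiniteMeasure (volume.restrict (Metric.closedBall (0 : E n) (2 ^ k))) :=
      ⟨by rw [Measure.restrict_apply_univ]; exact measure_closedBall_lt_top⟩
    exact ((memLp_Pc hG2 k).restrict _).integrable one_le_two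
  refine (integrableOn_iff_integrable_of_support_subset fun η hη => ?_).1 h1
  rw [mem_closedBall_zero_iff]
  exact sh_le (Pc_supp hη)

/-- the energy of a shell -/
lemma energy_Pc {s : ℝ} (hs : 0 ≤ s) (k : ℕ) :
    ∫⁻ η, ‖Pc G (k + 1) η‖ₑ ^ 2 ≤ ENNReal.ofReal ((2 : ℝ) ^ (-(k * (2 * s)))) *
      En (fun η : E n => ENNReal.ofReal ((1 + ‖(2 * Real.pi) • η‖ ^ 2) ^ s)) G := by
  unfold En
  rw [← lintegral_const_mul' _ _ ENNReal.ofReal_ne_top]
  refine lintegral_mono fun η => ?_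
  simp only
  by_cases h : η ∈ sh n (k + 1)
  · rw [Pc, indicator_of_mem h, ← mul_assoc, ← ENNReal.ofReal_mul (by positivity)]
    have h1 : (1 : ℝ) ≤ 2 ^ (-(k * (2 * s))) * (1 + ‖(2 * Real.pi) • η‖ ^ 2) ^ s := by
      have e1 : (2 : ℝ) ^ (-(k * (2 * s))) = (((2 : ℝ) ^ k) ^ 2) ^ (-s) := by
        rw [← pow_mul, ← Real.rpow_natCast, ← Real.rpow_mul (by norm_num)]
        congr 1
        push_cast
        ring
      have h2 : ((2 : ℝ) ^ k) ^ 2 ≤ 1 + ‖(2 * Real.pi) • η‖ ^ 2 := by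
        have h3 : (2 : ℝ) ^ k ≤ ‖(2 * Real.pi) • η‖ := by
          rw [norm_smul, Real.norm_eq_abs, abs_of_pos (by positivity)]
          have h4 : (2 : ℝ) ^ k ≤ ‖η‖ := h.1
          nlinarith [Real.pi_gt_three, norm_nonneg η]
        have h5 := pow_le_pow_left₀ (by positivity) h3 2
        linarith
      rw [e1, Real.rpow_neg (by positivity), ← div_eq_inv_mul, one_le_div (by positivity)]
      exact Real.rpow_le_rpow (by positivity) h2 hs
    calc ‖G η‖ₑ ^ 2 = ENNReal.ofReal 1 * ‖G η‖ₑ ^ 2 := by rw [ENNReal.ofReal_one, one_mul]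
      _ ≤ _ := by gcongr
  · rw [Pc, indicator_of_notMem h, enorm_zero]
    simp

/-- the sizes of the pieces -/
noncomputable def dl (G : E n → ℂ) (s E0 : ℝ) : ℕ → ℝ
  | 0 => (∫ η, ‖Pc G 0 η‖ ^ 2) + 1
  | k + 1 => (E0 + 1) * (2 : ℝ) ^ (-(k * s))

lemma pieces_Pc (hG2 : MemLp G 2 volume) {s : ℝ} (hs : 0 < s) {E0 : ℝ} (hE0 : 0 ≤ E0)
    (hE : En (fun η : E n => ENNReal.ofReal ((1 + ‖(2 * Real.pi) • η‖ ^ 2) ^ s)) G ≤
      ENNReal.ofReal E0) : Pieces (Pc G) (dl G s E0) := by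
  refine ⟨integrable_Pc hG2, memLp_Pc hG2, fun i => ?_, fun i => ?_, ?_⟩
  · cases i with
    | zero =>
      have h1 : 0 ≤ ∫ η, ‖Pc G 0 η‖ ^ 2 := integral_nonneg fun η => by positivity
      change ∫ η, ‖Pc G 0 η‖ ^ 2 ≤ ((∫ η, ‖Pc G 0 η‖ ^ 2) + 1) ^ 2
      nlinarith
    | succ k =>
      change ∫ η, ‖Pc G (k + 1) η‖ ^ 2 ≤ ((E0 + 1) * (2 : ℝ) ^ (-(k * s))) ^ 2
      have h1 := (energy_Pc (G := G) hs.le k).trans (mul_le_mul_right hE _)
      rw [← ENNReal.ofReal_mul (by positivity)] at h1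
      have h2 : ∫ η, ‖Pc G (k + 1) η‖ ^ 2 = (∫⁻ η, ‖Pc G (k + 1) η‖ₑ ^ 2).toReal := by
        have m1 : AEStronglyMeasurable (fun η => ‖Pc G (k + 1) η‖ ^ 2) volume :=
          (memLp_Pc hG2 (k + 1)).1.norm.pow 2
        rw [integral_eq_lintegral_of_nonneg_ae (Eventually.of_forall fun η => sq_nonneg _) m1]
        congr 1
        refine lintegral_congr fun η => ?_
        rw [ENNReal.ofReal_pow (norm_nonneg _), ofReal_norm]
      rw [h2]
      have h3 := ENNReal.toReal_mono ENNReal.ofReal_ne_top h1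
      rw [ENNReal.toReal_ofReal (by positivity)] at h3
      refine h3.trans ?_
      have e1 : (2 : ℝ) ^ (-(k * (2 * s))) = ((2 : ℝ) ^ (-(k * s))) ^ 2 := by
        rw [← Real.rpow_natCast, ← Real.rpow_mul (by norm_num)]
        congr 1
        push_cast
        ring
      rw [e1, mul_pow, mul_comm]
      have h4 : E0 ≤ (E0 + 1) ^ 2 := by nlinarith
      gcongr
  · cases i with
    | zero =>
      have h1 : 0 ≤ ∫ η, ‖Pc G 0 η‖ ^ 2 := integral_nonneg fun η => by positivity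
      change 0 < (∫ η, ‖Pc G 0 η‖ ^ 2) + 1
      linarith
    | succ k =>
      change 0 < (E0 + 1) * (2 : ℝ) ^ (-(k * s))
      positivity
  · rw [← summable_nat_add_iff 1]
    exact (summable_neg hs).mul_left _

lemma sum_rpow45 {α : ℝ} (h0 : 0 < α) (h1 : α < 1) (m : ℕ) :
    ∑ l ∈ Finset.range m, ((l : ℝ) + 1) ^ (-α) ≤ (m : ℝ) ^ (1 - α) / (1 - α) := by
  induction m with
  | zero =>
    simp only [Finset.range_zero, Finset.sum_empty, Nat.cast_zero]
    rw [Real.zero_rpow (by linarith)]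
    simp
  | succ m ih =>
    rw [Finset.sum_range_succ]
    have hm : (0 : ℝ) < (m : ℝ) + 1 := by positivity
    have hα : (0 : ℝ) < 1 - α := by linarith
    have key : (m : ℝ) ^ (1 - α) ≤ ((m : ℝ) + 1) ^ (1 - α) - (1 - α) * ((m : ℝ) + 1) ^ (-α) := by
      have h2 := rpow_one_add_le_one_add_mul_self (s := -1 / ((m : ℝ) + 1)) (p := 1 - α)
        (by rw [le_div_iff₀ hm]; nlinarith [(m.cast_nonneg : (0:ℝ) ≤ m)]) hα.le (by linarith)
      have e1 : 1 + -1 / ((m : ℝ) + 1) = m / (m + 1) := by field_simp; ring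
      rw [e1, Real.div_rpow (by positivity) hm.le] at h2
      have h3 : (0 : ℝ) < ((m : ℝ) + 1) ^ (1 - α) := by positivity
      rw [div_le_iff₀ h3] at h2
      refine h2.trans (le_of_eq ?_)
      have e2 : ((m : ℝ) + 1) ^ (1 - α) = (m + 1) * ((m : ℝ) + 1) ^ (-α) := by
        rw [sub_eq_add_neg, Real.rpow_add hm, Real.rpow_one]
      rw [e2]
      field_simp
      ring
    push_cast
    rw [le_div_iff₀ hα] at ih ⊢
    rw [add_mul]
    linarith

end Vale.Agent.P076.R2.H45
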