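import Vale.Agent.P076.R2.H45.Fm4

/-!
# Strong fractal means: almost every point
-/

open MeasureTheory Complex FourierTransform Filter Topology Set
open scoped ENNReal NNReal

namespace Vale.Agent.P076.R2.H45

open Vale.Agent.P076 Vale.Agent.P076.H791 Vale.Agent.P076.R2.H64

variable {n : ℕ} {G : E n → ℂ}

/-- splitting the weighted sum -/
lemma Wk_le {γ : ℝ} (h0 : 0 < γ) (m : ℕ → ℝ≥0∞) {N : ℕ} (hN : 0 < N) :
    Wk γ m ≤ ∑ l ∈ Finset.range N, ENNReal.ofReal (((l : ℝ) + 1) ^ (-γ)) * m l +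
      ENNReal.ofReal ((N : ℝ) ^ (-γ)) * ∑' l, m l := by
  unfold Wk
  have h1 : ∑ l ∈ Finset.range N, ENNReal.ofReal (((l : ℝ) + 1) ^ (-γ)) * m l +
      ∑' l : ℕ, ENNReal.ofReal ((((l + N : ℕ) : ℝ) + 1) ^ (-γ)) * m (l + N) =
      ∑' l : ℕ, ENNReal.ofReal (((l : ℝ) + 1) ^ (-γ)) * m l :=
    Summable.sum_add_tsum_nat_add' (f := fun l : ℕ => ENNReal.ofReal (((l : ℝ) + 1) ^ (-γ)) * m l)
      ENNReal.summable
  rw [← h1]
  gcongr
  have hN0 : (0 : ℝ) < N := by positivity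
  rw [← ENNReal.tsum_mul_left]
  calc ∑' l : ℕ, ENNReal.ofReal ((((l + N : ℕ) : ℝ) + 1) ^ (-γ)) * m (l + N)
      ≤ ∑' l : ℕ, ENNReal.ofReal ((N : ℝ) ^ (-γ)) * m (l + N) := by
        refine ENNReal.tsum_le_tsum fun l => ?_
        have h3 : (0 : ℝ) ≤ l := l.cast_nonneg
        have h4 : (N : ℝ) ≤ ((l + N : ℕ) : ℝ) + 1 := by push_cast; linarith
        have h5 : (((l + N : ℕ) : ℝ) + 1) ^ (-γ) ≤ (N : ℝ) ^ (-γ) :=
          Real.rpow_le_rpow_of_nonpos hN0 h4 (neg_nonpos.2 h0.le)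
        exact mul_le_mul_left (ENNReal.ofReal_le_ofReal h5) _
    _ ≤ _ := ENNReal.tsum_comp_le_tsum_of_injective (add_left_injective N)
      (fun l => ENNReal.ofReal ((N : ℝ) ^ (-γ)) * m l)

lemma WW_le_one (x : E n) : WW x ≤ 1 := by
  unfold WW
  rw [← ENNReal.ofReal_one]
  refine ENNReal.ofReal_le_ofReal (Real.exp_le_one_iff.2 ?_)
  have := sq_nonneg ‖x‖
  linarith

lemma WW_ne_zero (x : E n) : WW x ≠ 0 := by
  unfold WW
  simp only [ne_eq, ENNReal.ofReal_eq_zero, not_le]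
  exact Real.exp_pos _

/-- the integral of the weighted sum -/
lemma lint_Wk {γ : ℝ} (h0 : 0 < γ) (h1 : γ < 1) {C : ℝ} (hC : 0 ≤ C) {e : ℝ≥0∞}
    {M : ℕ → E n → ℝ≥0∞} (hm : ∀ l, Measurable (M l)) (k : ℕ)
    (hM1 : ∀ l, ∫⁻ x, M l x ≤ ENNReal.ofReal C * e)
    (hM2 : ∫⁻ x, WW x * ∑' l, M l x ≤ ENNReal.ofReal (C * 2 ^ k) * e) :
    ∫⁻ x, WW x * Wk γ (fun l => M l x) ≤
      ENNReal.ofReal (C * (1 / (1 - γ) + 1) * (2 : ℝ) ^ (k * (1 - γ))) * e := by
  have hγ : 0 < 1 - γ := by linarith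
  have hN : 0 < 2 ^ k := by positivity
  have mS : Measurable fun x : E n => ∑' l, M l x := Measurable.tsum hm
  calc ∫⁻ x, WW x * Wk γ (fun l => M l x)
      ≤ ∫⁻ x, (∑ l ∈ Finset.range (2 ^ k), ENNReal.ofReal (((l : ℝ) + 1) ^ (-γ)) * M l x +
        ENNReal.ofReal (((2 ^ k : ℕ) : ℝ) ^ (-γ)) * (WW x * ∑' l, M l x)) := by
        refine lintegral_mono fun x => ?_
        refine (mul_le_mul_right (Wk_le h0 (fun l => M l x) hN) (WW x)).trans ?_
        rw [mul_add]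
        refine add_le_add ?_ (le_of_eq (by ring))
        calc WW x * ∑ l ∈ Finset.range (2 ^ k), ENNReal.ofReal (((l : ℝ) + 1) ^ (-γ)) * M l x
            ≤ 1 * ∑ l ∈ Finset.range (2 ^ k), ENNReal.ofReal (((l : ℝ) + 1) ^ (-γ)) * M l x :=
              mul_le_mul_left (WW_le_one x) _
          _ = _ := one_mul _
    _ = (∑ l ∈ Finset.range (2 ^ k), ENNReal.ofReal (((l : ℝ) + 1) ^ (-γ)) * ∫⁻ x, M l x) +
        ENNReal.ofReal (((2 ^ k : ℕ) : ℝ) ^ (-γ)) * ∫⁻ x, WW x * ∑' l, M l x := by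
        have mF : Measurable fun x : E n => ∑ l ∈ Finset.range (2 ^ k),
            ENNReal.ofReal (((l : ℝ) + 1) ^ (-γ)) * M l x :=
          Finset.measurable_sum _ fun l _ => (hm l).const_mul _
        have mWS : Measurable fun x : E n => WW x * ∑' l, M l x := measurable_WW.mul mS
        rw [lintegral_add_left mF, lintegral_const_mul _ mWS,
          lintegral_finsetSum _ fun l _ => (hm l).const_mul _]
        congr 1
        exact Finset.sum_congr rfl fun l _ => lintegral_const_mul _ (hm l)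
    _ ≤ (∑ l ∈ Finset.range (2 ^ k), ENNReal.ofReal (((l : ℝ) + 1) ^ (-γ)) *
          (ENNReal.ofReal C * e)) +
        ENNReal.ofReal (((2 ^ k : ℕ) : ℝ) ^ (-γ)) * (ENNReal.ofReal (C * 2 ^ k) * e) := by
        gcongr with l hl
        exact hM1 l
    _ = ENNReal.ofReal ((∑ l ∈ Finset.range (2 ^ k), ((l : ℝ) + 1) ^ (-γ)) * C +
          ((2 ^ k : ℕ) : ℝ) ^ (-γ) * (C * 2 ^ k)) * e := by
        rw [← Finset.sum_mul, ← ENNReal.ofReal_sum_of_nonneg fun l _ => by positivity,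
          ← mul_assoc, ← mul_assoc, ← ENNReal.ofReal_mul (Finset.sum_nonneg fun l _ => by positivity),
          ← ENNReal.ofReal_mul (by positivity), ← add_mul, ← ENNReal.ofReal_add
            (mul_nonneg (Finset.sum_nonneg fun l _ => by positivity) hC) (by positivity)]
    _ ≤ _ := by
        gcongr
        have h2 := sum_rpow45 h0 h1 (2 ^ k)
        have e1 : (((2 ^ k : ℕ) : ℝ)) ^ (1 - γ) = (2 : ℝ) ^ (k * (1 - γ)) := by
          push_cast
          rw [← Real.rpow_natCast, ← Real.rpow_mul (by norm_num)]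
        have e2 : ((2 ^ k : ℕ) : ℝ) ^ (-γ) * (C * 2 ^ k) = C * (2 : ℝ) ^ (k * (1 - γ)) := by
          push_cast
          rw [← Real.rpow_natCast, ← Real.rpow_mul (by norm_num)]
          have : (2 : ℝ) ^ (k * -γ) * (C * 2 ^ (k : ℝ)) = C * (2 ^ (k * -γ) * 2 ^ (k : ℝ)) := by
            ring
          rw [this, ← Real.rpow_add (by norm_num)]
          congr 2
          ring
        rw [e1] at h2
        rw [e2]
        calc (∑ l ∈ Finset.range (2 ^ k), ((l : ℝ) + 1) ^ (-γ)) * C + C * (2 : ℝ) ^ (k * (1 - γ))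
            ≤ (2 : ℝ) ^ (k * (1 - γ)) / (1 - γ) * C + C * (2 : ℝ) ^ (k * (1 - γ)) := by gcongr
          _ = _ := by ring

/-- **Almost every point has good majorants.** -/
theorem ae_majorants (hK : SpecK n) (hS : SpecS n) (hA : SpecA n) (hGm : Measurable G)
    (hG2 : MemLp G 2 volume) {s γ : ℝ} (hs : 0 ≤ s) (h0 : 0 < γ) (h1 : γ < 1)
    (h2 : 1 - 2 * s < γ)
    (hE : En (fun η : E n => ENNReal.ofReal ((1 + ‖(2 * Real.pi) • η‖ ^ 2) ^ s)) G < ⊤) :
    ∃ κ : ℝ, 0 < κ ∧ ∀ᵐ x : E n, ∃ M : ℕ → ℕ → ℝ≥0∞,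
      (∀ k l, ∀ t ∈ Il ((2 : ℝ) ^ k) l, ∀ a : ℝ, 0 ≤ a →
        ‖evo (Pc G (k + 1)) x t a‖ₑ ^ 2 ≤ M k l) ∧
      ∑' k, lam κ k * Wk γ (M k) ≠ ⊤ := by
  obtain ⟨C, hC, hcore⟩ := core hK hS hA
  choose M hM1 hM2 hM3 hM4 using fun k : ℕ =>
    hcore ((2 : ℝ) ^ k) (Pc G (k + 1)) (by positivity) (shell_Pc hGm hG2 k)
  set κ : ℝ := (γ + 2 * s - 1) / 2 with hκ
  have hκ0 : 0 < κ := by rw [hκ]; linarith
  set E0 : ℝ≥0∞ := En (fun η : E n => ENNReal.ofReal ((1 + ‖(2 * Real.pi) • η‖ ^ 2) ^ s)) G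
    with hE0
  set C' : ℝ := C * (1 / (1 - γ) + 1) with hC'
  have hγ : 0 < 1 - γ := by linarith
  have hC'0 : 0 ≤ C' := by positivity
  have mW : ∀ k, Measurable fun x : E n => Wk γ (fun l => M k l x) := fun k =>
    Measurable.tsum fun l => (hM1 k l).const_mul _
  have hk : ∀ k, ∫⁻ x, WW x * (lam κ k * Wk γ (fun l => M k l x)) ≤
      ENNReal.ofReal (C' * (2 : ℝ) ^ (-(k * κ))) * E0 := by
    intro k
    have h3 := lint_Wk h0 h1 hC (hM1 k) k (hM3 k) (hM4 k)
    have h4 := h3.trans (mul_le_mul_right (energy_Pc (G := G) hs k) _)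
    calc ∫⁻ x, WW x * (lam κ k * Wk γ (fun l => M k l x))
        = lam κ k * ∫⁻ x, WW x * Wk γ (fun l => M k l x) := by
          have m1 : Measurable fun x : E n => WW x * Wk γ (fun l => M k l x) :=
            measurable_WW.mul (mW k)
          rw [← lintegral_const_mul _ m1]
          refine lintegral_congr fun x => ?_
          ring
      _ ≤ lam κ k * (ENNReal.ofReal (C' * (2 : ℝ) ^ (k * (1 - γ))) *
          (ENNReal.ofReal ((2 : ℝ) ^ (-(k * (2 * s)))) * E0)) := by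
          gcongr
      _ = _ := by
          unfold lam
          rw [← mul_assoc, ← mul_assoc, ← ENNReal.ofReal_mul (by positivity),
            ← ENNReal.ofReal_mul (by positivity)]
          congr 2
          have : (2 : ℝ) ^ (k * κ) * (C' * 2 ^ (k * (1 - γ))) * 2 ^ (-(k * (2 * s))) =
              C' * (2 ^ (k * κ) * 2 ^ (k * (1 - γ)) * 2 ^ (-(k * (2 * s)))) := by ring
          rw [this, ← Real.rpow_add (by norm_num), ← Real.rpow_add (by norm_num)]
          congr 2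
          rw [hκ]
          ring
  have htot : ∫⁻ x, WW x * ∑' k, lam κ k * Wk γ (fun l => M k l x) ≠ ⊤ := by
    have e1 : ∀ x : E n, WW x * ∑' k, lam κ k * Wk γ (fun l => M k l x) =
        ∑' k, WW x * (lam κ k * Wk γ (fun l => M k l x)) := fun x => ENNReal.tsum_mul_left.symm
    simp_rw [e1]
    have m1 : ∀ k, Measurable fun x : E n => WW x * (lam κ k * Wk γ (fun l => M k l x)) :=
      fun k => measurable_WW.mul ((mW k).const_mul _)
    rw [lintegral_tsum fun k => (m1 k).aemeasurable]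
    refine ne_top_of_le_ne_top ?_ (ENNReal.tsum_le_tsum hk)
    rw [ENNReal.tsum_mul_right]
    refine ENNReal.mul_ne_top ?_ hE.ne
    rw [← ENNReal.ofReal_tsum_of_nonneg (fun k => by positivity) ((summable_neg hκ0).mul_left _)]
    exact ENNReal.ofReal_ne_top
  refine ⟨κ, hκ0, ?_⟩
  have mT : Measurable fun x : E n => WW x * ∑' k, lam κ k * Wk γ (fun l => M k l x) :=
    measurable_WW.mul (Measurable.tsum fun k => (mW k).const_mul _)
  filter_upwards [ae_lt_top mT htot] with x hx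
  refine ⟨fun k l => M k l x, fun k l t ht a ha => hM2 k l x t ht a ha, fun htop => ?_⟩
  rw [htop, ENNReal.mul_top (WW_ne_zero x)] at hx
  exact lt_irrefl _ hx

end Vale.Agent.P076.R2.H45
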