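import Vale.Agent.P076.R2.H45.Fm5

/-!
# Strong fractal means: the theorem in the original variables
-/

open MeasureTheory Complex FourierTransform Filter Topology Set
open scoped ENNReal NNReal

namespace Vale.Agent.P076.R2.H45

open Vale.Agent.P076 Vale.Agent.P076.H791 Vale.Agent.P076.R2.H64

variable {n : ℕ}

/-- the statement on the side of the Fourier transform `G` of `F` -/
theorem means_evo (hK : SpecK n) (hS : SpecS n) (hA : SpecA n) {s γ : ℝ} (hs : 0 < s)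
    (h0 : 0 < γ) (h1 : γ < 1) (h2 : 1 - 2 * s < γ) (F : Lp ℂ 2 (volume : Measure (E n)))
    (hE : En (fun η : E n => ENNReal.ofReal ((1 + ‖(2 * Real.pi) • η‖ ^ 2) ^ s))
      (fun η => (𝓕 F : Lp ℂ 2 (volume : Measure (E n))) η) < ⊤) :
    ∀ᵐ x : E n, ∃ u : ℝ → ℂ, Measurable u ∧ u 0 = F x ∧
      (∀ T : ℝ, 0 < T → ∀ μ : Measure ℝ, Frost γ T μ → ∀ᵐ t ∂μ,
        Tendsto (fun a => evo (fun η => (𝓕 F : Lp ℂ 2 (volume : Measure (E n))) η) x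
          (2 * Real.pi * t) a) (𝓝[>] 0) (𝓝 (u t))) ∧
      ∀ ε : ℝ, 0 < ε → ∃ T₀ : ℝ, 0 < T₀ ∧ ∀ T, 0 < T → T ≤ T₀ → ∀ μ : Measure ℝ,
        Frost γ T μ → ∫⁻ t, ‖u t - F x‖ₑ ^ 2 ∂μ ≤ ENNReal.ofReal ε := by
  set G : E n → ℂ := fun η => (𝓕 F : Lp ℂ 2 (volume : Measure (E n))) η with hG
  have hGm : Measurable G := (Lp.stronglyMeasurable _).measurable
  have hG2 : MemLp G 2 volume := Lp.memLp _
  obtain ⟨κ, hκ, hM⟩ := ae_majorants hK hS hA hGm hG2 hs.le h0 h1 h2 hE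
  have hP : Pieces (Pc G) (dl G s
      (En (fun η : E n => ENNReal.ofReal ((1 + ‖(2 * Real.pi) • η‖ ^ 2) ^ s)) G).toReal) :=
    pieces_Pc hG2 hs ENNReal.toReal_nonneg (ENNReal.ofReal_toReal hE.ne).ge
  obtain ⟨f, hf1, hf2⟩ := exists_f hP
  have hGf : ∀ᵐ η, (𝓕 f : Lp ℂ 2 (volume : Measure (E n))) η = G η := by
    filter_upwards [hf1] with η hη
    exact hη.unique (hasSum_Pc G η)
  have hfF : f = F := by
    have h1 : (𝓕 f : Lp ℂ 2 (volume : Measure (E n))) = 𝓕 F := Lp.ext hGf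
    exact (Lp.fourierTransformₗᵢ (E n) ℂ).injective h1
  subst hfF
  filter_upwards [hM, hf2] with x hx hx2
  obtain ⟨M, hM1, hM2⟩ := hx
  have hu0 : (∑' k, evo (Pc G k) x (2 * Real.pi * 0) 0) = f x := by
    simp_rw [mul_zero]
    exact hx2.tsum_eq
  refine ⟨fun t => ∑' k, evo (Pc G k) x (2 * Real.pi * t) 0, ?_, hu0, ?_, ?_⟩
  · refine Measurable.tsum fun k => ?_
    exact ((continuous_evo_s (hP.int k) x).comp (continuous_const.mul continuous_id :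
      Continuous fun t : ℝ => 2 * Real.pi * t)).measurable
  · intro T hT μ hμ
    filter_upwards [ae_good (κ := κ) (M := M) h0 hM2 hT hμ] with t ht
    exact tendsto_good hP (Eventually.of_forall (hasSum_Pc G)) hκ hM1 ht.1.1 ht.2
  · intro ε hε
    obtain ⟨T₀, hT₀, h⟩ := mean_bound hP h0 hκ hM1 hM2 hε
    refine ⟨T₀, hT₀, fun T hT hTT μ hμ => ?_⟩
    have h3 := h T hT hTT μ hμ
    rw [hu0] at h3
    exact h3

/-- **Strong fractal means.** -/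
theorem fractal_means (hK : SpecK n) (hS : SpecS n) (hA : SpecA n) {s γ : ℝ} (hs : 0 < s)
    (h0 : 0 < γ) (h2 : 1 - 2 * s < γ) {f g : (Fin n → ℝ) → ℂ} (hfg : IsFourierPair f g)
    (hf : Integrable fun ξ => (1 + nrm ξ ^ 2) ^ s * ‖g ξ‖ ^ 2) :
    ∀ᵐ x, ∃ u : ℝ → ℂ, Measurable u ∧ u 0 = f x ∧
      (∀ T : ℝ, 0 < T → ∀ μ : Measure ℝ, Frost γ T μ → ∀ᵐ t ∂μ,
        Tendsto (fun a => evolve g t a x) (𝓝[>] 0) (𝓝 (u t))) ∧
      ∀ ε : ℝ, 0 < ε → ∃ T₀ : ℝ, 0 < T₀ ∧ ∀ T, 0 < T → T ≤ T₀ → ∀ μ : Measure ℝ,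
        Frost γ T μ → ∫⁻ t, ‖u t - f x‖ₑ ^ 2 ∂μ ≤ ENNReal.ofReal ε := by
  -- reduction to an exponent below one
  obtain ⟨γ', g0, g1, g2, g3⟩ : ∃ γ' : ℝ, 0 < γ' ∧ γ' < 1 ∧ 1 - 2 * s < γ' ∧ γ' ≤ γ := by
    by_cases h : γ < 1
    · exact ⟨γ, h0, h, h2, le_rfl⟩
    · have hm : 0 < min s (1 / 2) := lt_min hs (by norm_num)
      have hm2 : min s (1 / 2) ≤ 1 / 2 := min_le_right _ _
      have hm3 : min s (1 / 2) ≤ s := min_le_left _ _
      exact ⟨1 - min s (1 / 2), by linarith, by linarith, by linarith, by linarith⟩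
  obtain ⟨F, hF, hg⟩ := exists_lp hfg
  have hE1 := (integrable_weight_iff s hfg.2.1).1 hf
  have hE2 : En (fun η : E n => ENNReal.ofReal ((1 + ‖(2 * Real.pi) • η‖ ^ 2) ^ s))
      (fun η => (𝓕 F : Lp ℂ 2 (volume : Measure (E n))) η) < ⊤ := by
    have h1 : ∫⁻ ξ, ENNReal.ofReal ((1 + nrm ξ ^ 2) ^ s) * ‖g ξ‖ₑ ^ 2 =
        ∫⁻ ξ, ENNReal.ofReal ((1 + nrm ξ ^ 2) ^ s) * ‖freq F ξ‖ₑ ^ 2 := by
      refine lintegral_congr_ae ?_
      filter_upwards [hg] with ξ hξ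
      rw [hξ]
    rw [h1, energy_freq] at hE1
    have h3 : En (H791.wt fun ξ : Fin n → ℝ => ENNReal.ofReal ((1 + nrm ξ ^ 2) ^ s))
        (fun η => (𝓕 F : Lp ℂ 2 (volume : Measure (E n))) η) < ⊤ := by
      by_contra hcon
      rw [not_lt, top_le_iff] at hcon
      rw [hcon, ENNReal.mul_top ofReal_pos_scale] at hE1
      exact lt_irrefl _ hE1
    refine lt_of_le_of_lt (le_of_eq ?_) h3
    congr 1
    funext η
    change ENNReal.ofReal ((1 + ‖(2 * Real.pi) • η‖ ^ 2) ^ s) =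
      ENNReal.ofReal ((1 + nrm (WithLp.ofLp ((2 * Real.pi) • η)) ^ 2) ^ s)
    rw [nrm_eq]
    rfl
  filter_upwards [ae_toE (means_evo hK hS hA hs g0 g1 g2 F hE2), hF] with x hx hx2
  obtain ⟨u, hu1, hu2, hu3, hu4⟩ := hx
  have hfx : f x = F (toE x) := hx2
  refine ⟨u, hu1, by rw [hu2, hfx], fun T hT μ hμ => ?_, fun ε hε => ?_⟩
  · filter_upwards [hu3 T hT μ (hμ.mono hT g3 g0.le)] with t ht
    have h2 : Tendsto (fun b : ℝ => 4 * Real.pi ^ 2 * b) (𝓝[>] 0) (𝓝[>] 0) := by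
      refine tendsto_nhdsWithin_iff.2 ⟨?_, ?_⟩
      · have : Tendsto (fun b : ℝ => 4 * Real.pi ^ 2 * b) (𝓝 0) (𝓝 (4 * Real.pi ^ 2 * 0)) :=
          (continuous_const.mul continuous_id).tendsto 0
        rw [mul_zero] at this
        exact this.mono_left nhdsWithin_le_nhds
      · filter_upwards [self_mem_nhdsWithin] with b hb
        have hb' : (0:ℝ) < b := hb
        exact Set.mem_Ioi.2 (by positivity)
    refine (ht.comp h2).congr fun a => ?_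
    rw [evolve_congr hg, evolve_freq, schrReg_eq_evo]
    rfl
  · obtain ⟨T₀, hT₀, h⟩ := hu4 ε hε
    refine ⟨T₀, hT₀, fun T hT hTT μ hμ => ?_⟩
    rw [hfx]
    exact h T hT hTT μ (hμ.mono hT g3 g0.le)

end Vale.Agent.P076.R2.H45
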