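import Vale.Agent.P076.R2.H45.Fm6

/-!
# Strong fractal means: Riesz means
-/

open MeasureTheory Complex FourierTransform Filter Topology Set
open scoped ENNReal NNReal

namespace Vale.Agent.P076.R2.H45

open Vale.Agent.P076 Vale.Agent.P076.H791 Vale.Agent.P076.R2.H64

/-- the density of the Riesz means of order `γ` on `[0, T]` -/
noncomputable def rz (γ T t : ℝ) : ℝ≥0∞ := ENNReal.ofReal (γ * T ^ (-γ) * (T - t) ^ (γ - 1))

lemma measurable_rz (γ T : ℝ) : Measurable (rz γ T) := by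
  unfold rz
  fun_prop

lemma lint_rz {γ T c d : ℝ} (h0 : 0 < γ) (hT : 0 < T) (hcd : c ≤ d) (hd : d ≤ T) :
    ∫⁻ t in Icc c d, rz γ T t = ENNReal.ofReal (T ^ (-γ) * ((T - c) ^ γ - (T - d) ^ γ)) := by
  rw [← setLIntegral_congr Ioc_ae_eq_Icc]
  have h1 : IntervalIntegrable (fun t : ℝ => (T - t) ^ (γ - 1)) volume c d := by
    have h2 := (intervalIntegral.intervalIntegrable_rpow' (a := T - c) (b := T - d)
      (by linarith : -1 < γ - 1)).comp_sub_left T
    simpa using h2
  have h3 : IntegrableOn (fun t : ℝ => γ * T ^ (-γ) * (T - t) ^ (γ - 1)) (Ioc c d) :=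
    ((intervalIntegrable_iff_integrableOn_Ioc_of_le hcd).1 h1).const_mul _
  unfold rz
  rw [← ofReal_integral_eq_lintegral_ofReal h3]
  · congr 1
    rw [← intervalIntegral.integral_of_le hcd, intervalIntegral.integral_const_mul,
      intervalIntegral.integral_comp_sub_left (fun x => x ^ (γ - 1)) T,
      integral_rpow (Or.inl (by linarith))]
    have e1 : γ - 1 + 1 = γ := by ring
    rw [e1]
    field_simp
  · refine (ae_restrict_iff' measurableSet_Ioc).2 (Eventually.of_forall fun t ht => ?_)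
    have h4 : 0 ≤ T - t := by linarith [ht.2]
    simp only [Pi.zero_apply]
    positivity

lemma sub_rpow {γ x y : ℝ} (h0 : 0 ≤ γ) (h1 : γ ≤ 1) (hx : 0 ≤ x) (hy : 0 ≤ y) :
    (x + y) ^ γ ≤ x ^ γ + y ^ γ := by
  have h := NNReal.rpow_add_le_add_rpow (⟨x, hx⟩ : ℝ≥0) ⟨y, hy⟩ h0 h1
  exact_mod_cast h

lemma frost_rz {γ T : ℝ} (h0 : 0 < γ) (h1 : γ ≤ 1) (hT : 0 < T) :
    Frost γ T ((volume.restrict (Ioo 0 T)).withDensity (rz γ T)) := by
  constructor
  · rw [withDensity_apply _ measurableSet_Icc.compl, Measure.restrict_restrict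
      measurableSet_Icc.compl]
    have e1 : (Icc 0 T)ᶜ ∩ Ioo 0 T = ∅ := by
      ext t
      simp only [mem_inter_iff, mem_compl_iff, mem_empty_iff_false, iff_false, not_and]
      intro h2 h3
      exact h2 ⟨h3.1.le, h3.2.le⟩
    rw [e1, Measure.restrict_empty, lintegral_zero_measure]
  · intro a r hr hrT
    rw [withDensity_apply _ measurableSet_Icc, Measure.restrict_restrict measurableSet_Icc]
    by_cases hcd : max a 0 ≤ min (a + r) T
    · have hsub : Icc a (a + r) ∩ Ioo 0 T ⊆ Icc (max a 0) (min (a + r) T) := fun t ht =>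
        ⟨max_le ht.1.1 ht.2.1.le, le_min ht.1.2 ht.2.2.le⟩
      refine (lintegral_mono_set hsub).trans ?_
      rw [lint_rz h0 hT hcd (min_le_right _ _)]
      refine ENNReal.ofReal_le_ofReal ?_
      set c : ℝ := max a 0 with hc
      set d : ℝ := min (a + r) T with hd
      have hd1 : d ≤ T := min_le_right _ _
      have h2 := sub_rpow (x := T - d) (y := d - c) h0.le h1 (by linarith) (by linarith)
      have e1 : T - d + (d - c) = T - c := by ring
      rw [e1] at h2
      have h3 : d - c ≤ r := by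
        have g1 : d ≤ a + r := min_le_left _ _
        have g2 : a ≤ c := le_max_left _ _
        linarith
      have h4 : (d - c) ^ γ ≤ r ^ γ := Real.rpow_le_rpow (by linarith) h3 h0.le
      rw [Real.div_rpow hr hT.le, Real.rpow_neg hT.le, div_eq_inv_mul]
      have h5 : 0 ≤ (T ^ γ)⁻¹ := by positivity
      exact mul_le_mul_of_nonneg_left (by linarith) h5
    · have e1 : Icc a (a + r) ∩ Ioo 0 T = ∅ := by
        ext t
        simp only [mem_inter_iff, mem_empty_iff_false, iff_false, not_and]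
        intro h2 h3
        exact hcd ((max_le h2.1 h3.1.le).trans (le_min h2.2 h3.2.le))
      rw [e1, Measure.restrict_empty, lintegral_zero_measure]
      exact bot_le

/-- Riesz means from fractal means -/
lemma riesz_of {γ : ℝ} (h0 : 0 < γ) (h1 : γ ≤ 1) {u : ℝ → ℂ} (hu : Measurable u) (z : ℂ)
    (h : ∀ ε : ℝ, 0 < ε → ∃ T₀ : ℝ, 0 < T₀ ∧ ∀ T, 0 < T → T ≤ T₀ → ∀ μ : Measure ℝ,
      Frost γ T μ → ∫⁻ t, ‖u t - z‖ₑ ^ 2 ∂μ ≤ ENNReal.ofReal ε) :
    Tendsto (fun T : ℝ => ∫⁻ t in Ioo 0 T,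
      ENNReal.ofReal (γ * T ^ (-γ) * (T - t) ^ (γ - 1)) * ‖u t - z‖ₑ ^ 2) (𝓝[>] 0) (𝓝 0) := by
  rw [ENNReal.tendsto_nhds_zero]
  intro ε hε
  by_cases htop : ε = ⊤
  · subst htop
    exact Eventually.of_forall fun _ => le_top
  have hε' : 0 < ε.toReal := ENNReal.toReal_pos hε.ne' htop
  obtain ⟨T₀, hT₀, hT⟩ := h ε.toReal hε'
  filter_upwards [Ioo_mem_nhdsGT hT₀] with T hTT
  have h2 := hT T hTT.1 hTT.2.le _ (frost_rz h0 h1 hTT.1)
  have mu : Measurable fun t => ‖u t - z‖ₑ ^ 2 := (hu.sub measurable_const).enorm.pow_const 2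
  rw [ENNReal.ofReal_toReal htop,
    lintegral_withDensity_eq_lintegral_mul _ (measurable_rz γ T) mu] at h2
  exact h2

end Vale.Agent.P076.R2.H45
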