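import Vale.Agent.P076.R2.H45.Fm7
import Vale.Agent.P076.R2.H909.Rate

/-!
# Strong fractal means: the rate
-/

open MeasureTheory Complex FourierTransform Filter Topology Set
open scoped ENNReal NNReal

namespace Vale.Agent.P076.R2.H45

open Vale.Agent.P076 Vale.Agent.P076.H791 Vale.Agent.P076.R2.H64

variable {n : ℕ} {P : ℕ → E n → ℂ} {δ : ℕ → ℝ} {G : E n → ℂ} {x : E n} {M : ℕ → ℕ → ℝ≥0∞}
  {M' : ℕ → ℝ≥0∞} {γ κ θ : ℝ}

/-- short times -/
lemma short_diff (h1 : Integrable G) {b : ℝ} (hb : ∀ η, G η ≠ 0 → ‖η‖ ≤ b) (x : E n) {m : ℝ≥0∞}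
    {k : ℕ} (hm : ∀ s ∈ Il ((2 : ℝ) ^ k) 0, ‖evo (dG G) x s 0‖ₑ ^ 2 ≤ m) {t T : ℝ} (ht : 0 ≤ t)
    (htT : t ≤ T) (hT : T ≤ 1 / 4 ^ k) (hT0 : 0 < T) :
    ‖evo G x (2 * Real.pi * t) 0 - evo G x (2 * Real.pi * 0) 0‖ₑ ^ 2 ≤
      ENNReal.ofReal ((2 * Real.pi * T) ^ 2) * m := by
  have hpi := Real.pi_pos
  by_cases hmt : m = ⊤
  · subst hmt
    rw [ENNReal.mul_top]
    · exact le_top
    · simp only [ne_eq, ENNReal.ofReal_eq_zero, not_le]
      positivity
  set c : ℝ := √m.toReal with hc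
  have hbd : ∀ s ∈ Icc 0 (2 * Real.pi * t), ‖evo (dG G) x s 0‖ ≤ c := by
    intro s hs
    have h2 : s / (2 * Real.pi) ∈ H64.cell (k, 0) := by
      have h3 : s / (2 * Real.pi) ≤ t := by
        rw [div_le_iff₀ (by positivity)]
        linarith [hs.2]
      constructor
      · simp only [Nat.cast_zero, zero_div]
        have := hs.1
        positivity
      · simp only [Nat.cast_zero, zero_add]
        linarith
    have h4 := mem_Il h2
    have e1 : 2 * Real.pi * (s / (2 * Real.pi)) = s := by field_simp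
    rw [e1] at h4
    have h5 := hm s h4
    rw [← ofReal_norm, ← ENNReal.ofReal_pow (norm_nonneg _), ENNReal.ofReal_le_iff_le_toReal hmt]
      at h5
    exact Real.le_sqrt_of_sq_le h5
  have hmv := Convex.norm_image_sub_le_of_norm_hasDerivWithin_le (f := fun s => evo G x s 0)
    (f' := fun s => evo (dG G) x s 0) (C := c) (s := Icc 0 (2 * Real.pi * t))
    (fun s _ => (H909.Rate.evo_deriv h1 hb x s).hasDerivWithinAt) hbd (convex_Icc _ _)
    (x := 0) (y := 2 * Real.pi * t) ⟨le_rfl, by positivity⟩ ⟨by positivity, le_rfl⟩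
  rw [sub_zero, Real.norm_eq_abs, abs_of_nonneg (by positivity)] at hmv
  rw [mul_zero, ← ofReal_norm, ← ENNReal.ofReal_pow (norm_nonneg _),
    ← ENNReal.ofReal_toReal hmt, ← ENNReal.ofReal_mul (by positivity)]
  refine ENNReal.ofReal_le_ofReal ?_
  have h6 : c ^ 2 = m.toReal := Real.sq_sqrt ENNReal.toReal_nonneg
  have h7 : ‖evo G x (2 * Real.pi * t) 0 - evo G x 0 0‖ ≤ c * (2 * Real.pi * T) := by
    refine hmv.trans ?_
    have : 0 ≤ c := Real.sqrt_nonneg _
    gcongr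
  calc ‖evo G x (2 * Real.pi * t) 0 - evo G x 0 0‖ ^ 2 ≤ (c * (2 * Real.pi * T)) ^ 2 := by gcongr
    _ = _ := by rw [mul_pow, h6]; ring

/-- the combined majorant of a shell -/
noncomputable def Vk (γ : ℝ) (M : ℕ → ℕ → ℝ≥0∞) (M' : ℕ → ℝ≥0∞) (k : ℕ) : ℝ≥0∞ :=
  Wk γ (M k) + ENNReal.ofReal ((16 ^ k)⁻¹) * M' k

/-- the constant -/
noncomputable def C0 (γ : ℝ) : ℝ := (2 * Real.pi) ^ 2 + 2 * (2 ^ γ + 1)

lemma C0_pos (γ : ℝ) : 0 < C0 γ := by unfold C0; positivity

/-- the mean of the difference of a piece -/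
lemma diff_int (h0 : 0 < γ) (hθ0 : 0 < θ) (hθ2 : θ ≤ 2)
    (hM : ∀ k l, ∀ s ∈ Il ((2 : ℝ) ^ k) l, ∀ a : ℝ, 0 ≤ a →
      ‖evo (P (k + 1)) x s a‖ₑ ^ 2 ≤ M k l)
    (hM' : ∀ k, ∀ s ∈ Il ((2 : ℝ) ^ k) 0, ‖evo (dG (P (k + 1))) x s 0‖ₑ ^ 2 ≤ M' k) {k : ℕ}
    (hPi : Integrable (P (k + 1))) {b : ℝ} (hb : ∀ η, P (k + 1) η ≠ 0 → ‖η‖ ≤ b)
    {T : ℝ} (hT : 0 < T) {μ : Measure ℝ} (h : Frost γ T μ) :
    ∫⁻ t, ‖evo (P (k + 1)) x (2 * Real.pi * t) 0 - evo (P (k + 1)) x (2 * Real.pi * 0) 0‖ₑ ^ 2 ∂μ ≤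
      ENNReal.ofReal (C0 γ * T ^ θ) * (ENNReal.ofReal ((2 : ℝ) ^ (k * (2 * θ))) * Vk γ M M' k) := by
  have hpi := Real.pi_pos
  have hae : ∀ᵐ t ∂μ, t ∈ Icc 0 T := by
    rw [ae_iff]
    exact h.1
  have h4 : (0 : ℝ) < 4 ^ k := by positivity
  have e4 : (2 : ℝ) ^ (k * (2 * θ)) = ((4 : ℝ) ^ k) ^ θ := by
    have : (4 : ℝ) = 2 ^ (2 : ℝ) := by norm_num
    rw [this, ← Real.rpow_natCast, ← Real.rpow_mul (by norm_num), ← Real.rpow_mul (by norm_num)]
    congr 1
    ring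
  have e5 : T ^ θ * (2 : ℝ) ^ (k * (2 * θ)) = (T * 4 ^ k) ^ θ := by
    rw [e4, Real.mul_rpow hT.le h4.le]
  by_cases hT4 : T ≤ 1 / 4 ^ k
  · calc ∫⁻ t, ‖evo (P (k + 1)) x (2 * Real.pi * t) 0 -
          evo (P (k + 1)) x (2 * Real.pi * 0) 0‖ₑ ^ 2 ∂μ
        ≤ ∫⁻ _, ENNReal.ofReal ((2 * Real.pi * T) ^ 2) * M' k ∂μ := by
          refine lintegral_mono_ae ?_
          filter_upwards [hae] with t ht
          exact short_diff hPi hb x (hM' k) ht.1 ht.2 hT4 hT
      _ ≤ ENNReal.ofReal ((2 * Real.pi * T) ^ 2) * M' k := by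
          rw [lintegral_const]
          exact mul_le_of_le_one_right' (h.total hT)
      _ ≤ ENNReal.ofReal (C0 γ * T ^ θ) * (ENNReal.ofReal ((2 : ℝ) ^ (k * (2 * θ))) *
          (ENNReal.ofReal ((16 ^ k)⁻¹) * M' k)) := by
          rw [← mul_assoc, ← mul_assoc, ← ENNReal.ofReal_mul (by
            have := C0_pos γ
            positivity), ← ENNReal.ofReal_mul (by
            have := C0_pos γ
            positivity)]
          gcongr
          have h5 : T * 4 ^ k ≤ 1 := by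
            rwa [le_div_iff₀ h4] at hT4
          have h6 : (T * 4 ^ k) ^ (2 : ℝ) ≤ (T * 4 ^ k) ^ θ :=
            Real.rpow_le_rpow_of_exponent_ge (by positivity) h5 hθ2
          rw [Real.rpow_two, mul_pow, ← pow_mul, mul_comm k 2, pow_mul] at h6
          norm_num at h6
          have h7 : T ^ 2 ≤ T ^ θ * (2 : ℝ) ^ (k * (2 * θ)) * (16 ^ k)⁻¹ := by
            rw [e5, ← div_eq_mul_inv, le_div_iff₀ (by positivity)]
            exact h6
          have h8 : (2 * Real.pi) ^ 2 ≤ C0 γ := by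
            unfold C0
            have : (0 : ℝ) < 2 * (2 ^ γ + 1) := by positivity
            linarith
          have h9 := (C0_pos γ).le
          calc (2 * Real.pi * T) ^ 2 = (2 * Real.pi) ^ 2 * T ^ 2 := by ring
            _ ≤ C0 γ * (T ^ θ * (2 : ℝ) ^ (k * (2 * θ)) * (16 ^ k)⁻¹) :=
                mul_le_mul h8 h7 (by positivity) h9
            _ = _ := by ring
      _ ≤ _ := by
          gcongr
          unfold Vk
          exact le_add_self
  · rw [not_le] at hT4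
    calc ∫⁻ t, ‖evo (P (k + 1)) x (2 * Real.pi * t) 0 -
          evo (P (k + 1)) x (2 * Real.pi * 0) 0‖ₑ ^ 2 ∂μ
        ≤ ∫⁻ t, 2 * (bb (M k) k t + M k 0) ∂μ := by
          refine lintegral_mono_ae ?_
          filter_upwards [hae] with t ht
          have g1 := (hM k _ _ (mem_Il (mem_cell ht.1 k)) 0 le_rfl).trans (le_bb (M k) k ht.1)
          have g2 := zero_le_Mk hM k
          refine (pow_le_pow_left' enorm_sub_le 2).trans ((sq_add_le _ _).trans ?_)
          gcongr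
      _ = 2 * (∫⁻ t, bb (M k) k t ∂μ + M k 0 * μ univ) := by
          have m1 : Measurable fun t => bb (M k) k t + M k 0 :=
            (measurable_bb (M k) k).add measurable_const
          rw [lintegral_const_mul _ m1, lintegral_add_right _ measurable_const, lintegral_const]
      _ ≤ 2 * (ENNReal.ofReal (2 ^ γ) * Wk γ (M k) + Wk γ (M k) * 1) := by
          gcongr
          · exact lint_bb h0 hT h (M k) k
          · exact le_Wk γ (M k)
          · exact h.total hT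
      _ = ENNReal.ofReal (2 * (2 ^ γ + 1)) * Wk γ (M k) := by
          rw [ENNReal.ofReal_mul (by norm_num), ENNReal.ofReal_add (by positivity) (by norm_num)]
          simp only [ENNReal.ofReal_ofNat, ENNReal.ofReal_one]
          ring
      _ ≤ ENNReal.ofReal (C0 γ * T ^ θ) * (ENNReal.ofReal ((2 : ℝ) ^ (k * (2 * θ))) *
          Wk γ (M k)) := by
          rw [← mul_assoc, ← ENNReal.ofReal_mul (by
            have := C0_pos γ
            positivity)]
          have h5 : 1 ≤ T * 4 ^ k := by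
            rw [div_lt_iff₀ h4] at hT4
            exact hT4.le
          have h6 : 1 ≤ (T * 4 ^ k) ^ θ := Real.one_le_rpow h5 hθ0.le
          refine mul_le_mul_left (ENNReal.ofReal_le_ofReal ?_) _
          rw [mul_assoc, e5]
          have h8 : 2 * (2 ^ γ + 1) ≤ C0 γ := by
            unfold C0
            have : (0 : ℝ) < (2 * Real.pi) ^ 2 := by positivity
            linarith
          calc 2 * (2 ^ γ + 1) = 2 * (2 ^ γ + 1) * 1 := by ring
            _ ≤ C0 γ * (T * 4 ^ k) ^ θ := mul_le_mul h8 h6 zero_le_one (C0_pos γ).le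
      _ ≤ _ := by
          gcongr
          unfold Vk
          exact le_self_add

end Vale.Agent.P076.R2.H45
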