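import Vale.Agent.P076.R2.H45.Fm8

/-!
# Strong fractal means: the rate at a fixed point
-/

open MeasureTheory Complex FourierTransform Filter Topology Set
open scoped ENNReal NNReal

namespace Vale.Agent.P076.R2.H45

open Vale.Agent.P076 Vale.Agent.P076.H791 Vale.Agent.P076.R2.H64

variable {n : ℕ} {P : ℕ → E n → ℂ} {δ : ℕ → ℝ} {G : E n → ℂ} {x : E n} {M : ℕ → ℕ → ℝ≥0∞}
  {M' : ℕ → ℝ≥0∞} {γ κ θ : ℝ}

lemma lam_mul (κ θ : ℝ) (k : ℕ) :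
    lam κ k * ENNReal.ofReal ((2 : ℝ) ^ (k * (2 * θ))) = lam (κ + 2 * θ) k := by
  unfold lam
  rw [← ENNReal.ofReal_mul (by positivity), ← Real.rpow_add (by norm_num)]
  congr 2
  ring

lemma lam_le (hθ : 0 < θ) (k : ℕ) : lam κ k ≤ lam (κ + 2 * θ) k := by
  unfold lam
  refine ENNReal.ofReal_le_ofReal (Real.rpow_le_rpow_of_exponent_le (by norm_num) ?_)
  have : (0 : ℝ) ≤ k := k.cast_nonneg
  nlinarith

lemma sum_W_of_V (hθ : 0 < θ) (hV : ∑' k, lam (κ + 2 * θ) k * Vk γ M M' k ≠ ⊤) :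
    ∑' k, lam κ k * Wk γ (M k) ≠ ⊤ := by
  refine ne_top_of_le_ne_top hV (ENNReal.tsum_le_tsum fun k => ?_)
  refine mul_le_mul' (lam_le hθ k) ?_
  unfold Vk
  exact le_self_add

/-- the first piece -/
lemma first_diff (hP : Pieces P δ) (hPc : ∀ k, ∃ b : ℝ, ∀ η, P k η ≠ 0 → ‖η‖ ≤ b) (x : E n)
    {t T : ℝ} (ht : 0 ≤ t) (htT : t ≤ T) :
    ‖evo (P 0) x (2 * Real.pi * t) 0 - evo (P 0) x (2 * Real.pi * 0) 0‖ₑ ^ 2 ≤
      ENNReal.ofReal ((2 * Real.pi * mom (P 0)) ^ 2 * T ^ 2) := by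
  obtain ⟨b, hb⟩ := hPc 0
  have h1 := evo_sub_le (hP.int 0) (H909.Rate.mom_int (hP.int 0) hb) x
    (s := 2 * Real.pi * t) (by positivity)
  have h2 : 0 ≤ mom (P 0) := by
    unfold mom
    have : 0 ≤ ∫ η, ‖η‖ ^ 2 * ‖P 0 η‖ := integral_nonneg fun η => by positivity
    positivity
  rw [mul_zero, ← ofReal_norm, ← ENNReal.ofReal_pow (norm_nonneg _)]
  refine ENNReal.ofReal_le_ofReal ?_
  have h3 : ‖evo (P 0) x (2 * Real.pi * t) 0 - evo (P 0) x 0 0‖ ≤ 2 * Real.pi * T * mom (P 0) :=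
    h1.trans (by gcongr)
  calc ‖evo (P 0) x (2 * Real.pi * t) 0 - evo (P 0) x 0 0‖ ^ 2
      ≤ (2 * Real.pi * T * mom (P 0)) ^ 2 := by gcongr
    _ = _ := by ring

/-- **the rate at a fixed point** -/
theorem rate_bound (hP : Pieces P δ) (hPc : ∀ k, ∃ b : ℝ, ∀ η, P k η ≠ 0 → ‖η‖ ≤ b)
    (h0 : 0 < γ) (hκ : 0 < κ) (hθ0 : 0 < θ) (hθ2 : θ ≤ 2)
    (hM : ∀ k l, ∀ s ∈ Il ((2 : ℝ) ^ k) l, ∀ a : ℝ, 0 ≤ a →
      ‖evo (P (k + 1)) x s a‖ₑ ^ 2 ≤ M k l)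
    (hM' : ∀ k, ∀ s ∈ Il ((2 : ℝ) ^ k) 0, ‖evo (dG (P (k + 1))) x s 0‖ₑ ^ 2 ≤ M' k)
    (hV : ∑' k, lam (κ + 2 * θ) k * Vk γ M M' k ≠ ⊤) :
    ∃ C : ℝ, ∀ T, 0 < T → T ≤ 1 → ∀ μ : Measure ℝ, Frost γ T μ →
      ∫⁻ t, ‖(∑' k, evo (P k) x (2 * Real.pi * t) 0) -
        ∑' k, evo (P k) x (2 * Real.pi * 0) 0‖ₑ ^ 2 ∂μ ≤ ENNReal.ofReal (C * T ^ θ) := by
  have hW := sum_W_of_V hθ0 hV
  set Λ : ℝ≥0∞ := ∑' k, (lam κ k)⁻¹ with hΛ
  have hΛt : Λ ≠ ⊤ := tsum_lam_inv hκ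
  set S : ℝ≥0∞ := ∑' k, lam (κ + 2 * θ) k * Vk γ M M' k with hS
  set c : ℝ := (2 * Real.pi * mom (P 0)) ^ 2 with hc
  refine ⟨2 * (c + Λ.toReal * (C0 γ * S.toReal)), fun T hT hT1 μ hμ => ?_⟩
  have hgood := ae_good (κ := κ) (M := M) h0 hW hT hμ
  set D : ℕ → ℝ → ℂ := fun k t =>
    evo (P k) x (2 * Real.pi * t) 0 - evo (P k) x (2 * Real.pi * 0) 0 with hD
  have mD : ∀ k, Measurable fun t => ‖D k t‖ₑ ^ 2 := fun k => by
    have h1 := (continuous_evo_s (hP.int k) x).comp (continuous_const.mul continuous_id :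
      Continuous fun t : ℝ => 2 * Real.pi * t)
    exact (h1.sub continuous_const).measurable.enorm.pow_const 2
  have hmain : ∀ᵐ t ∂μ, ‖(∑' k, evo (P k) x (2 * Real.pi * t) 0) -
      ∑' k, evo (P k) x (2 * Real.pi * 0) 0‖ₑ ^ 2 ≤
      2 * (‖D 0 t‖ₑ ^ 2 + Λ * ∑' k, lam κ k * ‖D (k + 1) t‖ₑ ^ 2) := by
    filter_upwards [hgood] with t ht
    have s1 := summable_good hκ hM ht.1.1 ht.2
    have s2 := summable_zero hκ hM hW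
    have e1 : (∑' k, evo (P k) x (2 * Real.pi * t) 0) -
        ∑' k, evo (P k) x (2 * Real.pi * 0) 0 = ∑' k, D k t := (s1.tsum_sub s2).symm
    rw [e1]
    have h2 : ‖∑' k, D k t‖ₑ ≤ ‖D 0 t‖ₑ + ∑' k, ‖D (k + 1) t‖ₑ := by
      refine enorm_tsum_le_tsum_enorm.trans ?_
      rw [tsum_eq_zero_add' (f := fun k => ‖D k t‖ₑ) ENNReal.summable]
    have h3 := cs_tsum (fun k => ‖D (k + 1) t‖ₑ) (fun k => lam κ k) (fun k => lam_ne_zero _ _)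
      fun k => lam_ne_top _ _
    calc ‖∑' k, D k t‖ₑ ^ 2 ≤ (‖D 0 t‖ₑ + ∑' k, ‖D (k + 1) t‖ₑ) ^ 2 := pow_le_pow_left' h2 2
      _ ≤ 2 * (‖D 0 t‖ₑ ^ 2 + (∑' k, ‖D (k + 1) t‖ₑ) ^ 2) := sq_add_le _ _
      _ ≤ _ := by gcongr
  refine (lintegral_mono_ae hmain).trans ?_
  have mS : Measurable fun t => ∑' k, lam κ k * ‖D (k + 1) t‖ₑ ^ 2 :=
    Measurable.tsum fun k => (mD (k + 1)).const_mul _
  have mS2 : Measurable fun t => ‖D 0 t‖ₑ ^ 2 + Λ * ∑' k, lam κ k * ‖D (k + 1) t‖ₑ ^ 2 :=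
    (mD 0).add (mS.const_mul _)
  rw [lintegral_const_mul _ mS2, lintegral_add_left (mD 0), lintegral_const_mul _ mS,
    lintegral_tsum fun k => ((mD (k + 1)).const_mul _).aemeasurable]
  have h4 : ∫⁻ t, ‖D 0 t‖ₑ ^ 2 ∂μ ≤ ENNReal.ofReal (c * T ^ θ) := by
    calc ∫⁻ t, ‖D 0 t‖ₑ ^ 2 ∂μ ≤ ∫⁻ _, ENNReal.ofReal (c * T ^ 2) ∂μ := by
          refine lintegral_mono_ae ?_
          filter_upwards [hgood] with t ht
          exact first_diff hP hPc x ht.1.1 ht.1.2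
      _ ≤ ENNReal.ofReal (c * T ^ 2) := by
          rw [lintegral_const]
          exact mul_le_of_le_one_right' (hμ.total hT)
      _ ≤ _ := by
          refine ENNReal.ofReal_le_ofReal ?_
          have h5 : T ^ (2 : ℝ) ≤ T ^ θ := Real.rpow_le_rpow_of_exponent_ge hT hT1 hθ2
          rw [Real.rpow_two] at h5
          exact mul_le_mul_of_nonneg_left h5 (sq_nonneg _)
  have h6 : ∑' k, ∫⁻ t, lam κ k * ‖D (k + 1) t‖ₑ ^ 2 ∂μ ≤ ENNReal.ofReal (C0 γ * T ^ θ) * S := by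
    rw [hS, ← ENNReal.tsum_mul_left]
    refine ENNReal.tsum_le_tsum fun k => ?_
    rw [lintegral_const_mul _ (mD (k + 1))]
    obtain ⟨b, hb⟩ := hPc (k + 1)
    have h7 := diff_int h0 hθ0 hθ2 hM hM' (hP.int (k + 1)) hb hT hμ
    calc lam κ k * ∫⁻ t, ‖D (k + 1) t‖ₑ ^ 2 ∂μ
        ≤ lam κ k * (ENNReal.ofReal (C0 γ * T ^ θ) *
          (ENNReal.ofReal ((2 : ℝ) ^ (k * (2 * θ))) * Vk γ M M' k)) := mul_le_mul_right h7 _
      _ = ENNReal.ofReal (C0 γ * T ^ θ) * ((lam κ k * ENNReal.ofReal ((2 : ℝ) ^ (k * (2 * θ)))) *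
          Vk γ M M' k) := by ring
      _ = _ := by rw [lam_mul]
  have hC := C0_pos γ
  calc 2 * (∫⁻ t, ‖D 0 t‖ₑ ^ 2 ∂μ + Λ * ∑' k, ∫⁻ t, lam κ k * ‖D (k + 1) t‖ₑ ^ 2 ∂μ)
      ≤ 2 * (ENNReal.ofReal (c * T ^ θ) + Λ * (ENNReal.ofReal (C0 γ * T ^ θ) * S)) := by gcongr
    _ = ENNReal.ofReal (2 * (c + Λ.toReal * (C0 γ * S.toReal)) * T ^ θ) := by
        have e2 : (2 : ℝ≥0∞) = ENNReal.ofReal 2 := by norm_num
        have hc0 : 0 ≤ c := sq_nonneg _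
        have hSt : 0 ≤ S.toReal := ENNReal.toReal_nonneg
        have hΛ0 : 0 ≤ Λ.toReal := ENNReal.toReal_nonneg
        have hT' : 0 ≤ T ^ θ := by positivity
        rw [← ENNReal.ofReal_toReal hΛt, ← ENNReal.ofReal_toReal hV, e2,
          ← ENNReal.ofReal_mul (by positivity), ← ENNReal.ofReal_mul (by positivity),
          ← ENNReal.ofReal_add (by positivity) (by positivity), ← ENNReal.ofReal_mul (by norm_num),
          ENNReal.toReal_ofReal hΛ0, ENNReal.toReal_ofReal hSt]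
        congr 1
        ring

end Vale.Agent.P076.R2.H45
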