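import Vale.Agent.P076.R2.H45.Tm5

/-!
# The maximal function of the Gaussian regularisation
-/

open MeasureTheory Complex FourierTransform Filter Topology Set
open scoped ENNReal NNReal

namespace Vale.Agent.P076.R2.H45

open Vale.Agent.P076 Vale.Agent.P076.H791

variable {n : ℕ} {w : E n → ℝ≥0∞} {G : E n → ℂ}

/-- the maximal principle for the regularisation -/
def MPA' (w : E n → ℝ≥0∞) : Prop :=
  ∀ (r : ℕ) (ε : ℝ), 0 < ε → ∃ δ : ℝ≥0∞, 0 < δ ∧ ∀ G : E n → ℂ, Nice w G → En w G ≤ δ →
    volume ({x | ∃ a ∈ Set.Icc (0:ℝ) 1, ε < ‖evo G x 0 a‖} ∩ Metric.ball 0 r) ≤ ENNReal.ofReal ε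

/-- the adjoint of the linearised operator -/
noncomputable def PhA (A : Set (E n)) (a : E n → ℝ) (h : E n → ℂ) (η : E n) : ℂ :=
  ∫ x in A, h x * ph x 0 (a x) η

/-- admissible linearisations -/
structure AdA (r : ℕ) (A : Set (E n)) (a : E n → ℝ) (h : E n → ℂ) : Prop where
  mA : MeasurableSet A
  sub : A ⊆ Metric.ball 0 r
  ma : Measurable a
  a0 : ∀ x, 0 ≤ a x
  mh : Measurable h
  bh : ∀ x, ‖h x‖ ≤ 1

lemma AdA.vol {r : ℕ} {A : Set (E n)} {a : E n → ℝ} {h : E n → ℂ} (d : AdA r A a h) :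
    volume A < ⊤ := (measure_mono d.sub).trans_lt measure_ball_lt_top

/-- the TT* estimate -/
def TTA (r : ℕ) (V : E n → ℝ≥0∞) (S : ℝ≥0∞) : Prop :=
  ∀ (A : Set (E n)) (a : E n → ℝ) (h : E n → ℂ), AdA r A a h →
    ∫⁻ η, V η * ‖PhA A a h η‖ₑ ^ 2 ≤ S * volume A

lemma continuous_phA : Continuous fun p : (E n × ℝ) × E n => ph p.1.1 0 p.1.2 p.2 := by
  unfold ph
  fun_prop

lemma measurable_kerA {a : E n → ℝ} {h : E n → ℂ} (ma : Measurable a) (mh : Measurable h) :
    Measurable fun p : E n × E n => h p.1 * ph p.1 0 (a p.1) p.2 := by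
  have h1 : Measurable fun p : E n × E n => h p.1 := mh.comp measurable_fst
  have h2 : Measurable fun p : E n × E n => (((p.1, a p.1), p.2) : (E n × ℝ) × E n) :=
    (measurable_fst.prodMk (ma.comp measurable_fst)).prodMk measurable_snd
  have h3 := Measurable.comp continuous_phA.measurable h2
  simp only [Function.comp_def] at h3
  exact h1.mul h3

lemma norm_kerA_le {a : E n → ℝ} {h : E n → ℂ} (a0 : ∀ x, 0 ≤ a x) (bh : ∀ x, ‖h x‖ ≤ 1)
    (x η : E n) : ‖h x * ph x 0 (a x) η‖ ≤ 1 := by
  rw [norm_mul]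
  exact mul_le_one₀ (bh x) (norm_nonneg _) (norm_ph_le x 0 (a0 x) η)

lemma measurable_PhA {A : Set (E n)} {a : E n → ℝ} {h : E n → ℂ} (ma : Measurable a)
    (mh : Measurable h) : Measurable (PhA A a h) := by
  have h1 : StronglyMeasurable fun p : E n × E n => h p.2 * ph p.2 0 (a p.2) p.1 :=
    ((measurable_kerA ma mh).comp measurable_swap).stronglyMeasurable
  exact (h1.integral_prod_right (ν := (volume : Measure (E n)).restrict A)).measurable

lemma continuous_evoA (hG : Integrable G) :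
    Continuous fun p : E n × ℝ => evo G p.1 0 (max p.2 0) := by
  simp_rw [evo_eq]
  refine continuous_of_dominated (bound := fun η => ‖G η‖) ?_ ?_ hG.norm ?_
  · exact fun p => (continuous_ph p.1 0 (max p.2 0)).aestronglyMeasurable.mul hG.aestronglyMeasurable
  · refine fun p => Eventually.of_forall fun η => ?_
    rw [norm_mul]
    exact mul_le_of_le_one_left (norm_nonneg _) (norm_ph_le p.1 0 (le_max_right _ _) η)
  · refine Eventually.of_forall fun η => ?_
    unfold ph
    fun_prop

lemma measurable_evoA (hG : Integrable G) {a : E n → ℝ} (ma : Measurable a) (a0 : ∀ x, 0 ≤ a x) :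
    Measurable fun x : E n => evo G x 0 (a x) := by
  have h2 : Measurable fun x : E n => ((x, a x) : E n × ℝ) := measurable_id.prodMk ma
  have h3 := Measurable.comp (continuous_evoA hG).measurable h2
  simp only [Function.comp_def] at h3
  have e : (fun x : E n => evo G x 0 (max (a x) 0)) = fun x => evo G x 0 (a x) := by
    funext x
    rw [max_eq_left (a0 x)]
  rwa [e] at h3

/-- the bad set for the regularisation -/
def aset (G : E n → ℂ) (ε : ℝ) : Set (E n) := {x | ∃ a ∈ Set.Icc (0:ℝ) 1, ε < ‖evo G x 0 a‖}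

/-- a measurable choice -/
lemma exists_a (hG : Integrable G) (ε : ℝ) :
    ∃ a : E n → ℝ, Measurable a ∧ (∀ x, 0 ≤ a x) ∧
      ∀ x ∈ aset G ε, ε < ‖evo G x 0 (a x)‖ := by
  classical
  obtain ⟨q, hq⟩ : ∃ q : ℕ → ℚ, Function.Surjective q := exists_surjective_nat ℚ
  set P : ℕ → E n → Prop := fun m x =>
    (q m : ℝ) ∈ Ioo (0 : ℝ) 1 ∧ ε < ‖evo G x 0 (max (q m : ℝ) 0)‖ with hP
  have hcov : ∀ x ∈ aset G ε, ∃ m : ℕ, P m x := by
    rintro x ⟨a, ha, hx⟩
    have hc : Continuous fun t : ℝ => ‖evo G x 0 (max t 0)‖ := by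
      have h2 : Continuous fun t : ℝ => ((x, t) : E n × ℝ) := by fun_prop
      have h3 := Continuous.comp (continuous_evoA hG) h2
      simp only [Function.comp_def] at h3
      exact h3.norm
    have ho : IsOpen {t : ℝ | ε < ‖evo G x 0 (max t 0)‖} := isOpen_lt continuous_const hc
    have hmem : a ∈ {t : ℝ | ε < ‖evo G x 0 (max t 0)‖} := by
      change ε < ‖evo G x 0 (max a 0)‖
      rw [max_eq_left ha.1]
      exact hx
    have hcl : a ∈ closure (Ioo (0 : ℝ) 1) := by
      rw [closure_Ioo (by norm_num)]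
      exact ha
    obtain ⟨b, hb1, hb2⟩ := mem_closure_iff.1 hcl _ ho hmem
    obtain ⟨t, ht⟩ := (Rat.denseRange_cast (𝕜 := ℝ)).exists_mem_open (ho.inter isOpen_Ioo)
      ⟨b, hb1, hb2⟩
    obtain ⟨m, rfl⟩ := hq t
    exact ⟨m, ht.2, ht.1⟩
  have hPm : ∀ m, MeasurableSet {x | P m x} := by
    intro m
    by_cases h : (q m : ℝ) ∈ Ioo (0 : ℝ) 1
    · have h1 : {x | P m x} = {x | ε < ‖evo G x 0 (max (q m : ℝ) 0)‖} := by
        ext x; exact ⟨fun hx => hx.2, fun hx => ⟨h, hx⟩⟩
      rw [h1]
      have h2 : Continuous fun x : E n => ((x, (q m : ℝ)) : E n × ℝ) := by fun_prop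
      have h3 := Continuous.comp (continuous_evoA hG) h2
      simp only [Function.comp_def] at h3
      exact (isOpen_lt continuous_const h3.norm).measurableSet
    · have : {x | P m x} = ∅ := by
        ext x; exact ⟨fun hx => h hx.1, fun hx => hx.elim⟩
      rw [this]
      exact MeasurableSet.empty
  set p : ℕ → E n → Prop := fun m x => match m with
    | 0 => ∀ m, ¬ P m x
    | m + 1 => P m x with hp
  set f : ℕ → E n → ℝ := fun m _ => match m with
    | 0 => 0
    | m + 1 => max (q m : ℝ) 0 with hf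
  have hex : ∀ x, ∃ m, p m x := by
    intro x
    by_cases h : ∃ m, P m x
    · obtain ⟨m, hm⟩ := h
      exact ⟨m + 1, hm⟩
    · exact ⟨0, fun m hm => h ⟨m, hm⟩⟩
  have hpm : ∀ m, MeasurableSet {x | p m x} := by
    intro m
    cases m with
    | zero =>
      have : {x | p 0 x} = ⋂ m, {x | P m x}ᶜ := by
        ext x
        simp only [hp, Set.mem_ofPred_eq, mem_iInter, mem_compl_iff]
      rw [this]
      exact MeasurableSet.iInter fun m => (hPm m).compl
    | succ m => exact hPm m
  have hfm : ∀ m, Measurable (f m) := fun m => measurable_const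
  have k1 : ∀ m x, 0 ≤ f m x := by
    intro m x
    cases m with
    | zero => simp [hf]
    | succ m => exact le_max_right _ _
  have k2 : ∀ m x, x ∈ aset G ε → p m x → ε < ‖evo G x 0 (f m x)‖ := by
    intro m x hx hm
    cases m with
    | zero =>
      obtain ⟨m, hm'⟩ := hcov x hx
      exact absurd hm' (hm m)
    | succ m =>
      have h2 : P m x := hm
      exact h2.2
  exact ⟨fun x => f (Nat.find (hex x)) x, Measurable.find hfm hpm hex,
    fun x => k1 _ x, fun x hx => k2 _ x hx (Nat.find_spec (hex x))⟩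

lemma isOpen_aset (hG : Integrable G) (ε : ℝ) : IsOpen (aset G ε) := by
  have h1 : aset G ε = ⋃ a ∈ Set.Icc (0:ℝ) 1, {x | ε < ‖evo G x 0 a‖} := by
    ext x
    simp only [aset, mem_iUnion, exists_prop, Set.mem_ofPred_eq]
  rw [h1]
  refine isOpen_biUnion fun a ha => ?_
  have h2 : Continuous fun x : E n => ((x, a) : E n × ℝ) := by fun_prop
  have h3 := Continuous.comp (continuous_evoA hG) h2
  simp only [Function.comp_def, max_eq_left ha.1] at h3
  exact isOpen_lt continuous_const h3.norm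

/-- duality -/
lemma dualityA (hG : Integrable G) (hGm : Measurable G) {A : Set (E n)} (hAf : volume A < ⊤)
    {a : E n → ℝ} (ma : Measurable a) (a0 : ∀ x, 0 ≤ a x) :
    ((∫ x in A, ‖evo G x 0 (a x)‖ : ℝ) : ℂ) =
      ∫ η, PhA A a (fun x => cph (evo G x 0 (a x))) η * G η := by
  have hzm : Measurable fun x => evo G x 0 (a x) := measurable_evoA hG ma a0
  set h : E n → ℂ := fun x => cph (evo G x 0 (a x)) with hh
  have hhm : Measurable h := measurable_cph.comp hzm
  have hhb : ∀ x, ‖h x‖ ≤ 1 := fun x => norm_cph_le _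
  have hfin : IsFiniteMeasure ((volume : Measure (E n)).restrict A) :=
    ⟨by rw [Measure.restrict_apply_univ]; exact hAf⟩
  rw [← integral_complex_ofReal]
  have h1 : ∀ x, ((‖evo G x 0 (a x)‖ : ℝ) : ℂ) = ∫ η, h x * ph x 0 (a x) η * G η := by
    intro x
    rw [← cph_mul, evo_eq, ← integral_const_mul]
    refine integral_congr_ae (Eventually.of_forall fun η => ?_)
    simp only [hh, evo_eq]
    ring
  have h2 : ∫ x in A, ((‖evo G x 0 (a x)‖ : ℝ) : ℂ) = ∫ x in A, ∫ η, h x * ph x 0 (a x) η * G η :=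
    integral_congr_ae (Eventually.of_forall fun x => h1 x)
  refine h2.trans ?_
  rw [integral_integral_swap]
  · refine integral_congr_ae (Eventually.of_forall fun η => ?_)
    simp only [PhA]
    rw [← integral_mul_const]
  · have h3 : Integrable (fun p : E n × E n => ‖G p.2‖)
        (((volume : Measure (E n)).restrict A).prod volume) := by
      have := (integrable_const (1 : ℝ) (μ := (volume : Measure (E n)).restrict A)).mul_prod hG.norm
      simpa using this
    refine Integrable.mono' h3 ?_ (Eventually.of_forall fun p => ?_)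
    · exact ((measurable_kerA ma hhm).mul (hGm.comp measurable_snd)).aestronglyMeasurable
    · simp only [Function.uncurry]
      rw [norm_mul]
      exact mul_le_of_le_one_left (norm_nonneg _) (norm_kerA_le a0 hhb _ _)

/-- **MPA from TT\*.** -/
theorem MPA_of_TT (hw : Measurable w) (hw1 : ∀ η, 1 ≤ w η)
    (hT : ∀ r : ℕ, ∃ S : ℝ≥0, TTA r (fun η => (w η)⁻¹) S) : MPA' w := by
  intro r ε hε
  obtain ⟨S, hS⟩ := hT r
  refine ⟨ENNReal.ofReal (ε ^ 3 / (S + 1)), by
    rw [ENNReal.ofReal_pos]; positivity, fun G hG hE => ?_⟩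
  have hGi := hG.integrable
  have hGm := hG.meas
  have hen := hG.en
  obtain ⟨a, ma, a0, hs⟩ := exists_a hGi ε
  change volume (aset G ε ∩ Metric.ball 0 r) ≤ ENNReal.ofReal ε
  have hAm : MeasurableSet (aset G ε ∩ Metric.ball 0 r) :=
    (isOpen_aset hGi _).measurableSet.inter Metric.isOpen_ball.measurableSet
  have hsub : aset G ε ∩ Metric.ball 0 r ⊆ Metric.ball 0 r := inter_subset_right
  have hs' : ∀ x ∈ aset G ε ∩ Metric.ball 0 r, ε < ‖evo G x 0 (a x)‖ := fun x hx => hs x hx.1
  generalize aset G ε ∩ Metric.ball 0 r = A at hAm hsub hs'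
  have hAf : volume A < ⊤ := (measure_mono hsub).trans_lt measure_ball_lt_top
  have hfin : IsFiniteMeasure ((volume : Measure (E n)).restrict A) :=
    ⟨by rw [Measure.restrict_apply_univ]; exact hAf⟩
  have hzm : Measurable fun x => evo G x 0 (a x) := measurable_evoA hGi ma a0
  set h : E n → ℂ := fun x => cph (evo G x 0 (a x)) with hh
  have hhm : Measurable h := measurable_cph.comp hzm
  have hb := hS A a h ⟨hAm, hsub, ma, a0, hhm, fun x => norm_cph_le _⟩
  have hPm := measurable_PhA (A := A) ma hhm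
  have hzi : IntegrableOn (fun x => ‖evo G x 0 (a x)‖) A := by
    refine Integrable.mono' (integrable_const (∫ η, ‖G η‖)) hzm.norm.aestronglyMeasurable
      (Eventually.of_forall fun x => ?_)
    rw [norm_norm]; exact norm_evo_le hGi x 0 (a0 x)
  have hlow : ε * (volume : Measure (E n)).real A ≤ ∫ x in A, ‖evo G x 0 (a x)‖ := by
    have h1 : ∫ _ in A, ε ≤ ∫ x in A, ‖evo G x 0 (a x)‖ :=
      setIntegral_mono_on (integrable_const _) hzi hAm fun x hx => (hs' x hx).le
    rw [setIntegral_const, smul_eq_mul, mul_comm] at h1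
    exact h1
  set l : ℝ := ε / (S + 1) with hl
  have hl0 : 0 < l := by positivity
  have hup : ENNReal.ofReal (∫ x in A, ‖evo G x 0 (a x)‖) ≤
      ENNReal.ofReal (l / 2) * (S * volume A) + ENNReal.ofReal (1 / (2 * l)) * En w G := by
    have h1 : ENNReal.ofReal (∫ x in A, ‖evo G x 0 (a x)‖) =
        ‖((∫ x in A, ‖evo G x 0 (a x)‖ : ℝ) : ℂ)‖ₑ := by
      rw [← ofReal_norm, Complex.norm_real, Real.norm_eq_abs,
        abs_of_nonneg (integral_nonneg fun x => norm_nonneg _)]
    rw [h1, dualityA hGi hGm hAf ma a0]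
    refine (enorm_integral_le_lintegral_enorm _).trans ?_
    refine (lintegral_mono (g := fun η => ENNReal.ofReal (l / 2) *
          ((w η)⁻¹ * ‖PhA A a h η‖ₑ ^ 2) +
          ENNReal.ofReal (1 / (2 * l)) * (w η * ‖G η‖ₑ ^ 2)) fun η => ?_).trans ?_
    · simp only
      rw [enorm_mul]
      exact young (hw1 η) hl0 enorm_ne_top enorm_ne_top
    · rw [lintegral_add_left, lintegral_const_mul, lintegral_const_mul]
      · unfold En
        gcongr
      · exact hw.mul (hGm.enorm.pow_const 2)
      · exact hw.inv.mul (hPm.enorm.pow_const 2)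
      · exact (hw.inv.mul (hPm.enorm.pow_const 2)).const_mul _
  set V : ℝ := (volume : Measure (E n)).real A with hV
  have hV0 : 0 ≤ V := measureReal_nonneg
  have hVA : volume A = ENNReal.ofReal V := (ofReal_measureReal hAf.ne).symm
  have hE' : En w G = ENNReal.ofReal (En w G).toReal := (ENNReal.ofReal_toReal hen.ne).symm
  have he0 : 0 ≤ (En w G).toReal := ENNReal.toReal_nonneg
  have hee : (En w G).toReal ≤ ε ^ 3 / (S + 1) := by
    have := ENNReal.toReal_mono ENNReal.ofReal_ne_top hE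
    rwa [ENNReal.toReal_ofReal (by positivity)] at this
  have hfinal : ε * V ≤ l / 2 * (S * V) + 1 / (2 * l) * (En w G).toReal := by
    have h1 := (ENNReal.ofReal_le_ofReal hlow).trans hup
    rw [hVA, hE', ← ENNReal.ofReal_coe_nnreal, ← ENNReal.ofReal_mul (by positivity),
      ← ENNReal.ofReal_mul (by positivity), ← ENNReal.ofReal_mul (by positivity),
      ← ENNReal.ofReal_add (by positivity) (by positivity)] at h1
    exact (ENNReal.ofReal_le_ofReal_iff (by positivity)).1 h1
  generalize (En w G).toReal = e at he0 hee hfinal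
  rw [hVA]
  refine ENNReal.ofReal_le_ofReal ?_
  have h3 : l / 2 * (S * V) ≤ ε / 2 * V := by
    have h4 : l * S ≤ ε := by
      rw [hl, div_mul_eq_mul_div, div_le_iff₀ (by positivity)]
      have : (0 : ℝ) ≤ S := S.coe_nonneg
      nlinarith
    nlinarith
  have h5 : ε / 2 * V ≤ 1 / (2 * l) * e := by linarith
  have h6 : 1 / (2 * l) * e ≤ ε ^ 2 / 2 := by
    rw [hl]
    calc 1 / (2 * (ε / (S + 1))) * e ≤ 1 / (2 * (ε / (S + 1))) * (ε ^ 3 / (S + 1)) := by gcongr
      _ = ε ^ 2 / 2 := by field_simp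
  nlinarith

end Vale.Agent.P076.R2.H45
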