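import Vale.Agent.P076.R2.H45.Ga1

/-!
# The maximal estimate for the Gaussian regularisation in `H^s`, `s > 0`
-/

open MeasureTheory Complex FourierTransform Filter Topology Set
open scoped ENNReal NNReal

namespace Vale.Agent.P076.R2.H45

open Vale.Agent.P076 Vale.Agent.P076.H791

variable {n : ℕ}

lemma phA_mul_conj (x y : E n) (a b : ℝ) (η : E n) :
    ph x 0 a η * starRingEnd ℂ (ph y 0 b η) = ph (x - y) 0 (a + b) η := by
  unfold ph
  rw [← Complex.exp_conj, ← Complex.exp_add]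
  congr 1
  simp only [map_sub, map_mul, Complex.conj_ofReal, Complex.conj_I, map_ofNat, inner_sub_left]
  push_cast
  ring

/-- the kernel with regularisation -/
noncomputable def KeA (G : E n → ℝ) (z : E n) (b : ℝ) : ℂ := ∫ η, (G η : ℂ) * ph z 0 b η

/-- **kernel bound implies TT\*.** -/
theorem TTA_of_kernel {r : ℕ} {G : E n → ℝ} (hG : Integrable G) (hGm : Measurable G)
    (hG0 : ∀ η, 0 ≤ G η) {B : E n → ℝ≥0∞} (hB : Measurable B) {N : Set (E n)}
    (hN : MeasurableSet N) (hN0 : volume N = 0)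
    (hK : ∀ z : E n, z ∉ N → ‖z‖ < 2 * r → ∀ b : ℝ, 0 ≤ b → ‖KeA G z b‖ₑ ≤ B z) {S : ℝ≥0∞}
    (hS : ∫⁻ z in Metric.ball 0 (2 * r), B z ≤ S) :
    TTA r (fun η => ENNReal.ofReal (G η)) S := by
  classical
  intro A s h a
  have hAf := a.vol
  have hfin : IsFiniteMeasure ((volume : Measure (E n)).restrict A) :=
    ⟨by rw [Measure.restrict_apply_univ]; exact hAf⟩
  have hPm := measurable_PhA (A := A) a.ma a.mh
  set μ : Measure (E n) := (volume : Measure (E n)).restrict A with hμ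
  set F : E n → E n × E n → ℂ := fun η p => (G η : ℂ) * ((h p.1 * ph p.1 0 (s p.1) η) *
      starRingEnd ℂ (h p.2 * ph p.2 0 (s p.2) η)) with hF
  have hkk : ∀ x y η : E n, ‖(h x * ph x 0 (s x) η) * starRingEnd ℂ (h y * ph y 0 (s y) η)‖ ≤ 1 := by
    intro x y η
    rw [norm_mul, RCLike.norm_conj]
    exact mul_le_one₀ (norm_kerA_le a.a0 a.bh _ _) (norm_nonneg _) (norm_kerA_le a.a0 a.bh _ _)
  have hFm : Measurable (Function.uncurry F) := by
    have k := measurable_kerA a.ma a.mh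
    have m1 : Measurable fun p : E n × (E n × E n) => ((p.2.1, p.1) : E n × E n) :=
      (measurable_fst.comp measurable_snd).prodMk measurable_fst
    have m2 : Measurable fun p : E n × (E n × E n) => ((p.2.2, p.1) : E n × E n) :=
      (measurable_snd.comp measurable_snd).prodMk measurable_fst
    have k1 := Measurable.comp k m1
    have k2 := Measurable.comp k m2
    simp only [Function.comp_def] at k1 k2
    have k3 : Measurable fun p : E n × (E n × E n) => (G p.1 : ℂ) :=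
      Complex.measurable_ofReal.comp (hGm.comp measurable_fst)
    have k4 := Measurable.comp Complex.continuous_conj.measurable k2
    simp only [Function.comp_def] at k4
    exact k3.mul (k1.mul k4)
  have hFi : Integrable (Function.uncurry F) ((volume : Measure (E n)).prod (μ.prod μ)) := by
    have h3 : Integrable (fun p : E n × (E n × E n) => ‖G p.1‖ * 1)
        ((volume : Measure (E n)).prod (μ.prod μ)) :=
      hG.norm.mul_prod (integrable_const (1 : ℝ) (μ := μ.prod μ))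
    refine Integrable.mono' h3 hFm.aestronglyMeasurable (Eventually.of_forall fun p => ?_)
    simp only [Function.uncurry, hF]
    rw [norm_mul, Complex.norm_real]
    exact mul_le_mul_of_nonneg_left (hkk _ _ _) (norm_nonneg _)
  have e1 : ∀ η, ∫ p, F η p ∂(μ.prod μ) = ((G η * ‖PhA A s h η‖ ^ 2 : ℝ) : ℂ) := by
    intro η
    simp only [hF]
    rw [integral_const_mul, integral_prod_mul (μ := μ) (ν := μ) (fun x => h x * ph x 0 (s x) η)
      (fun x => starRingEnd ℂ (h x * ph x 0 (s x) η)), integral_conj, Complex.mul_conj,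
      Complex.normSq_eq_norm_sq]
    push_cast
    rfl
  have e2 : ∀ p : E n × E n, ∫ η, F η p = h p.1 * starRingEnd ℂ (h p.2) *
      KeA G (p.1 - p.2) (s p.1 + s p.2) := by
    intro p
    rw [KeA, ← integral_const_mul]
    refine integral_congr_ae (Eventually.of_forall fun η => ?_)
    simp only [hF]
    rw [← phA_mul_conj, map_mul]
    ring
  have hi : Integrable (fun η => G η * ‖PhA A s h η‖ ^ 2) := by
    have h1 := hFi.integral_prod_left
    have h2 : (fun η => ∫ p, Function.uncurry F (η, p) ∂(μ.prod μ)) =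
        fun η => ((G η * ‖PhA A s h η‖ ^ 2 : ℝ) : ℂ) := by
      funext η; exact e1 η
    rw [h2] at h1
    have h3 := h1.re
    refine h3.congr (Eventually.of_forall fun η => ?_)
    simp only [RCLike.re_to_complex, Complex.ofReal_re]
  have e3 : ((∫ η, G η * ‖PhA A s h η‖ ^ 2 : ℝ) : ℂ) =
      ∫ p, h p.1 * starRingEnd ℂ (h p.2) * KeA G (p.1 - p.2) (s p.1 + s p.2) ∂(μ.prod μ) := by
    rw [← integral_complex_ofReal]
    have h1 : ∫ η, ((G η * ‖PhA A s h η‖ ^ 2 : ℝ) : ℂ) = ∫ η, ∫ p, F η p ∂(μ.prod μ) :=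
      integral_congr_ae (Eventually.of_forall fun η => (e1 η).symm)
    rw [h1, integral_integral_swap hFi]
    exact integral_congr_ae (Eventually.of_forall fun p => e2 p)
  have h0 : 0 ≤ ∫ η, G η * ‖PhA A s h η‖ ^ 2 :=
    integral_nonneg fun η => mul_nonneg (hG0 η) (by positivity)
  have e4 : ∫⁻ η, ENNReal.ofReal (G η) * ‖PhA A s h η‖ₑ ^ 2 =
      ‖((∫ η, G η * ‖PhA A s h η‖ ^ 2 : ℝ) : ℂ)‖ₑ := by
    rw [← ofReal_norm, Complex.norm_real, Real.norm_eq_abs, abs_of_nonneg h0,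
      ofReal_integral_eq_lintegral_ofReal hi
        (Eventually.of_forall fun η => mul_nonneg (hG0 η) (by positivity))]
    refine lintegral_congr fun η => ?_
    rw [ENNReal.ofReal_mul (hG0 η), ENNReal.ofReal_pow (norm_nonneg _), ofReal_norm]
  rw [e4, e3]
  refine (enorm_integral_le_lintegral_enorm _).trans ?_
  set B' : E n → ℝ≥0∞ := fun z => if z ∈ N then ⊤ else B z with hB'
  have hB'm : Measurable B' := Measurable.ite hN measurable_const hB
  have hS' : ∫⁻ z in Metric.ball 0 (2 * r), B' z ≤ S := by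
    refine le_trans (le_of_eq ?_) hS
    refine lintegral_congr_ae ?_
    have h1 : ∀ᵐ z ∂(volume : Measure (E n)), z ∉ N := by
      rw [ae_iff]
      simpa using hN0
    filter_upwards [ae_restrict_of_ae h1] with z hz
    simp [hB', hz]
  have h5 : ∀ᵐ p ∂(μ.prod μ), ‖h p.1 * starRingEnd ℂ (h p.2) *
      KeA G (p.1 - p.2) (s p.1 + s p.2)‖ₑ ≤ B' (p.1 - p.2) := by
    rw [hμ, Measure.prod_restrict]
    refine (ae_restrict_iff' (a.mA.prod a.mA)).2 (Eventually.of_forall fun p hp => ?_)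
    have hx' := a.sub hp.1
    have hy' := a.sub hp.2
    rw [mem_ball_zero_iff] at hx' hy'
    have hz : ‖p.1 - p.2‖ < 2 * r := by
      calc ‖p.1 - p.2‖ ≤ ‖p.1‖ + ‖p.2‖ := norm_sub_le _ _
          _ < r + r := add_lt_add hx' hy'
          _ = 2 * r := by ring
    by_cases hm : p.1 - p.2 ∈ N
    · simp [hB', hm]
    simp only [hB', hm, if_false]
    rw [enorm_mul, enorm_mul]
    have h1 : ‖h p.1‖ₑ ≤ 1 := by
      rw [← ofReal_norm, ← ENNReal.ofReal_one]
      exact ENNReal.ofReal_le_ofReal (a.bh _)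
    have h2 : ‖starRingEnd ℂ (h p.2)‖ₑ ≤ 1 := by
      rw [← ofReal_norm, RCLike.norm_conj, ← ENNReal.ofReal_one]
      exact ENNReal.ofReal_le_ofReal (a.bh _)
    calc ‖h p.1‖ₑ * ‖starRingEnd ℂ (h p.2)‖ₑ * ‖KeA G (p.1 - p.2) (s p.1 + s p.2)‖ₑ
        ≤ 1 * 1 * B (p.1 - p.2) := by
          gcongr
          exact hK _ hm hz _ (add_nonneg (a.a0 _) (a.a0 _))
      _ = B (p.1 - p.2) := by ring
  refine (lintegral_mono_ae h5).trans ((conv_le a.sub hB'm a.mA).trans ?_)
  gcongr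

/-! ### the profile -/

/-- the profile `|x|^(ε-1) exp(-x²/T²)` -/
noncomputable def prf (ε T x : ℝ) : ℝ := |x| ^ (-(1 - ε)) * Real.exp (-(T ^ 2)⁻¹ * x ^ 2)

lemma prf_nonneg (ε T x : ℝ) : 0 ≤ prf ε T x := by unfold prf; positivity

lemma measurable_prf (ε T : ℝ) : Measurable (prf ε T) := by
  unfold prf
  fun_prop

lemma integrable_prf {ε T : ℝ} (hε : 0 < ε) (hT : 0 < T) : Integrable (prf ε T) := by
  have hb : 0 < (T ^ 2)⁻¹ := by positivity
  have h := integrableOn_rpow_mul_exp_neg_mul_sq hb (s := -(1 - ε)) (by linarith)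
  have hpos : IntegrableOn (prf ε T) (Ioi 0) := by
    refine h.congr_fun (fun x hx => ?_) measurableSet_Ioi
    have hx0 : 0 < x := hx
    simp only [prf, abs_of_pos hx0]
  have hneg : IntegrableOn (prf ε T) (Iio 0) := by
    rw [← (Measure.measurePreserving_neg (volume : Measure ℝ)).integrableOn_comp_preimage
      (Homeomorph.neg ℝ).measurableEmbedding]
    simp only [neg_preimage, neg_Iio, neg_zero]
    refine hpos.congr_fun (fun x _ => ?_) measurableSet_Ioi
    simp only [Function.comp_def, prf, abs_neg, neg_sq]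
  rw [← integrableOn_univ, ← Iic_union_Ioi (a := (0 : ℝ)), integrableOn_union]
  refine ⟨?_, hpos⟩
  rw [integrableOn_Iic_iff_integrableOn_Iio]
  exact hneg

lemma prf_bound {ε T x : ℝ} (hT : 0 < T) (hx : |x| ≤ T) :
    |x| ^ (-(1 - ε)) ≤ Real.exp 1 * prf ε T x := by
  have h1 : 1 ≤ Real.exp 1 * Real.exp (-(T ^ 2)⁻¹ * x ^ 2) := by
    rw [← Real.exp_add]
    apply Real.one_le_exp
    have h2 : (T ^ 2)⁻¹ * x ^ 2 ≤ 1 := by
      rw [inv_mul_le_iff₀ (by positivity), mul_one, ← sq_abs x]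
      gcongr
    linarith
  unfold prf
  calc |x| ^ (-(1 - ε)) = |x| ^ (-(1 - ε)) * 1 := by ring
    _ ≤ |x| ^ (-(1 - ε)) * (Real.exp 1 * Real.exp (-(T ^ 2)⁻¹ * x ^ 2)) := by gcongr
    _ = _ := by ring

/-- the one dimensional kernel bound -/
lemma fac_a {β ε x : ℝ} {k : ℕ} (hβ : ((2 ^ k : ℝ) ^ 2)⁻¹ ≤ β) (hε : 0 < ε) (hε1 : ε ≤ 1)
    (hx : x ≠ 0) :
    (β ^ 2) ^ (-(1 / 4) : ℝ) * Real.exp (-(Real.pi * (x ^ 2 / β))) ≤
      ((2 : ℝ) ^ k) ^ ε * |x| ^ (-(1 - ε)) := by
  have hβ0 : 0 < β := lt_of_lt_of_le (by positivity) hβ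
  have hx0 : 0 < |x| := abs_pos.2 hx
  have hpi := Real.pi_pos
  set y : ℝ := x ^ 2 / β with hy
  have hy0 : 0 < y := by positivity
  have e1 : (β ^ 2) ^ (-(1 / 4) : ℝ) = β ^ (-(ε / 2)) * β ^ (-((1 - ε) / 2)) := by
    rw [← Real.rpow_natCast, ← Real.rpow_mul hβ0.le, ← Real.rpow_add hβ0]
    congr 1
    push_cast
    ring
  have e2 : |x| ^ (-(1 - ε)) = β ^ (-((1 - ε) / 2)) * y ^ (-((1 - ε) / 2)) := by
    rw [← Real.mul_rpow hβ0.le hy0.le]
    have : β * y = |x| ^ 2 := by rw [hy, sq_abs]; field_simp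
    rw [this, ← Real.rpow_natCast, ← Real.rpow_mul hx0.le]
    congr 1
    push_cast
    ring
  have e3 : β ^ (-(ε / 2)) ≤ ((2 : ℝ) ^ k) ^ ε := by
    have h1 : β ^ (-(ε / 2)) ≤ (((2 ^ k : ℝ) ^ 2)⁻¹) ^ (-(ε / 2)) :=
      Real.rpow_le_rpow_of_nonpos (by positivity) hβ (by linarith)
    have h2 : (((2 ^ k : ℝ) ^ 2)⁻¹) ^ (-(ε / 2)) = ((2 : ℝ) ^ k) ^ ε := by
      rw [Real.inv_rpow (by positivity), ← Real.rpow_neg (by positivity), ← Real.rpow_natCast,
        ← Real.rpow_mul (by positivity)]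
      congr 1
      push_cast
      ring
    rw [← h2]; exact h1
  have e4 : Real.exp (-(Real.pi * y)) ≤ y ^ (-((1 - ε) / 2)) := by
    rw [Real.rpow_neg hy0.le, ← one_div, le_div_iff₀ (by positivity)]
    have h1 : y ^ ((1 - ε) / 2) ≤ 1 + y := by
      rcases le_total y 1 with h | h
      · have := Real.rpow_le_one hy0.le h (by linarith : (0 : ℝ) ≤ (1 - ε) / 2)
        linarith
      · have := Real.rpow_le_rpow_of_exponent_le h (by linarith : (1 - ε) / 2 ≤ 1)
        rw [Real.rpow_one] at this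
        linarith
    have h2 : y ^ ((1 - ε) / 2) ≤ Real.exp y := by
      have := Real.add_one_le_exp y
      linarith
    calc Real.exp (-(Real.pi * y)) * y ^ ((1 - ε) / 2)
        ≤ Real.exp (-(Real.pi * y)) * Real.exp y := by gcongr
      _ = Real.exp (y - Real.pi * y) := by rw [← Real.exp_add]; ring_nf
      _ ≤ 1 := by
          rw [Real.exp_le_one_iff]
          nlinarith [Real.pi_gt_three]
  rw [e1, e2]
  calc β ^ (-(ε / 2)) * β ^ (-((1 - ε) / 2)) * Real.exp (-(Real.pi * y))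
      ≤ ((2 : ℝ) ^ k) ^ ε * β ^ (-((1 - ε) / 2)) * y ^ (-((1 - ε) / 2)) := by gcongr
    _ = _ := by ring

/-- the kernel of the isotropic Gaussian with regularisation -/
lemma ker_a (k : ℕ) {ε T : ℝ} (hε : 0 < ε) (hε1 : ε ≤ 1) (hT : 0 < T) {z : E n} (hz : z ∉ Zs n)
    (hzT : ‖z‖ ≤ T) {b : ℝ} (hb : 0 ≤ b) :
    ‖KeA (g0 k) z b‖ ≤ ∏ i : Fin n, (((2 : ℝ) ^ k) ^ ε * (Real.exp 1 * prf ε T (z i))) := by
  have hpi := Real.pi_pos
  set β : ℝ := ((2 ^ k : ℝ) ^ 2)⁻¹ + b / Real.pi with hβ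
  have hβ0 : 0 < β := by positivity
  have hβ1 : ((2 ^ k : ℝ) ^ 2)⁻¹ ≤ β := by
    have : 0 ≤ b / Real.pi := by positivity
    rw [hβ]; linarith
  have h1 := H305.norm_Ker_gauss (fun _ : Fin n => β) (fun _ => 0) (fun _ => hβ0) z 0
  have e1 : KeA (g0 k) z b =
      Ker (fun y : E n => Real.exp (-(Real.pi * ∑ i, (fun _ : Fin n => β) i *
        (y i - (fun _ => (0:ℝ)) i) ^ 2))) z 0 := by
    unfold KeA Ker
    refine integral_congr_ae (Eventually.of_forall fun η => ?_)
    simp only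
    have e2 : ∑ i : Fin n, β * (η i - 0) ^ 2 = β * ‖η‖ ^ 2 := by
      rw [EuclideanSpace.norm_sq_eq, Finset.mul_sum]
      refine Finset.sum_congr rfl fun i _ => ?_
      rw [Real.norm_eq_abs, sq_abs, sub_zero]
    rw [e2]
    unfold g0 ph
    rw [Complex.ofReal_exp, Complex.ofReal_exp, ← Complex.exp_add, ← Complex.exp_add]
    congr 1
    rw [hβ]
    push_cast
    have hpc : (Real.pi : ℂ) ≠ 0 := by exact_mod_cast Real.pi_ne_zero
    field_simp
    ring
  rw [e1, h1]
  refine Finset.prod_le_prod (fun i _ => by positivity) fun i _ => ?_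
  have hzi : z i ≠ 0 := fun h => hz (mem_iUnion.2 ⟨i, h⟩)
  have hle : |z i| ≤ T := by
    have := PiLp.norm_apply_le z i
    rw [Real.norm_eq_abs] at this
    exact this.trans hzT
  have h2 := fac_a (k := k) hβ1 hε hε1 hzi
  have e3 : β ^ 2 + 4 * (0 : ℝ) ^ 2 = β ^ 2 := by ring
  have e4 : β * (z i - 2 * 0 * 0) ^ 2 / β ^ 2 = (z i) ^ 2 / β := by
    field_simp
    ring
  rw [e3, e4]
  refine h2.trans ?_
  have h3 := prf_bound (ε := ε) hT hle
  gcongr

/-- the TT* bound for one Gaussian -/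
lemma TTA_g0 (r k : ℕ) {ε : ℝ} (hε : 0 < ε) (hε1 : ε ≤ 1) :
    TTA r (fun η : E n => ENNReal.ofReal (g0 k η))
      (ENNReal.ofReal ((((2 : ℝ) ^ k) ^ ε) ^ n * (Real.exp 1 * ∫ x, prf ε (2 * r + 1) x) ^ n)) := by
  have hr0 : (0 : ℝ) ≤ r := r.cast_nonneg
  have hT : (0 : ℝ) < 2 * r + 1 := by linarith
  set f : Fin n → ℝ → ℝ := fun _ x => ((2 : ℝ) ^ k) ^ ε * (Real.exp 1 * prf ε (2 * r + 1) x) with hf
  have f0 : ∀ i x, 0 ≤ f i x := fun i x => by
    have := prf_nonneg ε (2 * r + 1) x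
    simp only [hf]; positivity
  have fi : ∀ i, Integrable (f i) := fun i =>
    ((integrable_prf hε hT).const_mul _).const_mul _
  have fint : ∀ i, ∫ x, f i x = ((2 : ℝ) ^ k) ^ ε * (Real.exp 1 * ∫ x, prf ε (2 * r + 1) x) := by
    intro i
    simp only [hf]
    rw [integral_const_mul, integral_const_mul]
  have fm : Measurable fun z : E n => ENNReal.ofReal (∏ i, f i (z i)) := by
    refine ENNReal.measurable_ofReal.comp (Finset.measurable_prod _ fun i _ => ?_)
    simp only [hf]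
    have h1 : Measurable fun z : E n => z i := by fun_prop
    exact (((measurable_prf ε (2 * r + 1)).comp h1).const_mul _).const_mul _
  refine TTA_of_kernel (integrable_g0 k) (measurable_g0 k) (fun η => (Real.exp_pos _).le)
    (B := fun z => ENNReal.ofReal (∏ i, f i (z i))) fm measurableSet_Zs volume_Zs
    (fun z hz hzr b hb => ?_) ?_
  · rw [← ofReal_norm]
    exact ENNReal.ofReal_le_ofReal (ker_a k hε hε1 hT hz (by linarith) hb)
  · refine (setLIntegral_le_lintegral _ _).trans ?_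
    rw [lint_prod f f0 fi]
    refine ENNReal.ofReal_le_ofReal (le_of_eq ?_)
    rw [Finset.prod_congr rfl fun i _ => fint i, Finset.prod_const, Finset.card_univ,
      Fintype.card_fin, mul_pow]

/-- **the maximal principle for the regularisation in `H^s`** -/
theorem MPA_Hs (hn : 1 ≤ n) {s : ℝ} (hs : 0 < s) {w : E n → ℝ≥0∞} (hw : Measurable w)
    (hw1 : ∀ η, 1 ≤ w η)
    (hw2 : ∀ η, ENNReal.ofReal ((1 + ‖(2 * Real.pi) • η‖ ^ 2) ^ s) ≤ w η) : MPA' w := by
  refine MPA_of_TT hw hw1 fun r => ?_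
  have hn1 : (1 : ℝ) ≤ n := by exact_mod_cast hn
  have hn0 : (0 : ℝ) < n := by linarith
  set ε : ℝ := min 1 (s / n) with hε
  have hε0 : 0 < ε := lt_min one_pos (by positivity)
  have hε1 : ε ≤ 1 := min_le_left _ _
  have hεs : ε * n ≤ s := by
    have : ε ≤ s / n := min_le_right _ _
    rwa [le_div_iff₀ hn0] at this
  set c : ℝ := (Real.exp 1 * ∫ x, prf ε (2 * r + 1) x) ^ n with hc
  have hc0 : 0 ≤ c := by
    have : 0 ≤ ∫ x, prf ε (2 * r + 1) x := integral_nonneg fun x => prf_nonneg _ _ _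
    positivity
  set cf : ℕ → ℝ := fun k => Real.exp 1 * (2 : ℝ) ^ (-(2 * s * k)) with hcf
  have hcf0 : ∀ k, 0 ≤ cf k := fun k => by simp only [hcf]; positivity
  set Sf : ℕ → ℝ := fun k => (((2 : ℝ) ^ k) ^ ε) ^ n * c with hSf
  have hSf0 : ∀ k, 0 ≤ Sf k := fun k => by simp only [hSf]; positivity
  have hsum : Summable fun k => cf k * Sf k := by
    have hgeo : Summable fun k : ℕ => (Real.exp 1 * c) * ((2 : ℝ) ^ (-s)) ^ k := by
      refine Summable.mul_left _ (summable_geometric_of_lt_one (by positivity) ?_)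
      exact Real.rpow_lt_one_of_one_lt_of_neg (by norm_num) (by linarith)
    refine Summable.of_nonneg_of_le (fun k => mul_nonneg (hcf0 k) (hSf0 k)) (fun k => ?_) hgeo
    have h1 : (((2 : ℝ) ^ k) ^ ε) ^ n ≤ (2 : ℝ) ^ (s * k) := by
      rw [← Real.rpow_natCast, ← Real.rpow_mul (by positivity), ← Real.rpow_natCast,
        ← Real.rpow_mul (by norm_num)]
      refine Real.rpow_le_rpow_of_exponent_le (by norm_num) ?_
      have : (0 : ℝ) ≤ k := k.cast_nonneg
      nlinarith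
    simp only [hcf, hSf]
    calc Real.exp 1 * (2 : ℝ) ^ (-(2 * s * k)) * ((((2 : ℝ) ^ k) ^ ε) ^ n * c)
        ≤ Real.exp 1 * (2 : ℝ) ^ (-(2 * s * k)) * ((2 : ℝ) ^ (s * k) * c) := by gcongr
      _ = (Real.exp 1 * c) * ((2 : ℝ) ^ (-(2 * s * k)) * (2 : ℝ) ^ (s * k)) := by ring
      _ = (Real.exp 1 * c) * ((2 : ℝ) ^ (-s)) ^ k := by
          rw [← Real.rpow_add (by norm_num), ← Real.rpow_natCast ((2 : ℝ) ^ (-s)),
            ← Real.rpow_mul (by norm_num)]
          congr 2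
          ring
  set S : ℝ≥0∞ := ∑' k, ENNReal.ofReal (cf k * Sf k) with hS
  have hfin : S ≠ ⊤ := by
    rw [hS, ← ENNReal.ofReal_tsum_of_nonneg (fun k => mul_nonneg (hcf0 k) (hSf0 k)) hsum]
    exact ENNReal.ofReal_ne_top
  refine ⟨S.toNNReal, ?_⟩
  rw [ENNReal.coe_toNNReal hfin]
  intro A u h a
  have hPm := measurable_PhA (A := A) a.ma a.mh
  have hpi3 := Real.pi_gt_three
  have hpi4 := Real.pi_lt_d2
  have key : ∀ (k : ℕ) (η : E n), ‖(2 * Real.pi) • η‖ < 2 ^ (k + 1) → Real.exp (-1) ≤ g0 k η := by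
    intro k η hη
    rw [norm_smul, Real.norm_eq_abs, abs_of_pos (by positivity), pow_succ] at hη
    unfold g0
    apply Real.exp_le_exp.2
    have h0 : 0 ≤ ‖η‖ := norm_nonneg η
    have h2 : 3 * ‖η‖ ≤ 2 ^ k := by nlinarith
    have h3 : (3 * ‖η‖) ^ 2 ≤ (2 ^ k) ^ 2 := by gcongr
    have h4 : ((2 ^ k : ℝ) ^ 2)⁻¹ * ‖η‖ ^ 2 ≤ 1 / 9 := by
      rw [inv_mul_le_iff₀ (by positivity)]
      nlinarith
    nlinarith
  have hee : Real.exp 1 * Real.exp (-1) = 1 := by rw [← Real.exp_add]; simp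
  have hdom : ∀ η, (w η)⁻¹ ≤ ∑' k, ENNReal.ofReal (cf k) * ENNReal.ofReal (g0 k η) := by
    intro η
    by_cases hη : ‖(2 * Real.pi) • η‖ < 1
    · refine le_trans ?_ (ENNReal.le_tsum 0)
      rw [← ENNReal.ofReal_mul (hcf0 0)]
      refine (ENNReal.inv_le_one.2 (hw1 η)).trans ?_
      rw [ENNReal.one_le_ofReal]
      have h1 := key 0 η (by norm_num; linarith)
      simp only [hcf, Nat.cast_zero, mul_zero, neg_zero, Real.rpow_zero, mul_one]
      calc (1 : ℝ) = Real.exp 1 * Real.exp (-1) := hee.symm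
        _ ≤ Real.exp 1 * g0 0 η := by gcongr
    · rw [not_lt] at hη
      obtain ⟨k, hk1, hk2⟩ := exists_nat_pow_near hη (by norm_num : (1 : ℝ) < 2)
      refine le_trans ?_ (ENNReal.le_tsum k)
      have h3 := key k η hk2
      have hpos : (0 : ℝ) < (1 + ‖(2 * Real.pi) • η‖ ^ 2) ^ s := by positivity
      rw [← ENNReal.ofReal_mul (hcf0 k)]
      calc (w η)⁻¹ ≤ (ENNReal.ofReal ((1 + ‖(2 * Real.pi) • η‖ ^ 2) ^ s))⁻¹ :=
            ENNReal.inv_le_inv.2 (hw2 η)
        _ = ENNReal.ofReal (((1 + ‖(2 * Real.pi) • η‖ ^ 2) ^ s)⁻¹) :=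
            (ENNReal.ofReal_inv_of_pos hpos).symm
        _ ≤ _ := by
            refine ENNReal.ofReal_le_ofReal ?_
            have h4 : ((1 + ‖(2 * Real.pi) • η‖ ^ 2) ^ s)⁻¹ ≤ (2 : ℝ) ^ (-(2 * s * k)) := by
              have h5 : (2 : ℝ) ^ (-(2 * s * k)) = (((2 : ℝ) ^ k) ^ 2) ^ (-s) := by
                rw [← pow_mul, ← Real.rpow_natCast, ← Real.rpow_mul (by norm_num)]
                congr 1
                push_cast
                ring
              rw [h5, ← Real.rpow_neg (by positivity)]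
              refine Real.rpow_le_rpow_of_nonpos (by positivity) ?_ (by linarith)
              have h6 : ((2 : ℝ) ^ k) ^ 2 ≤ ‖(2 * Real.pi) • η‖ ^ 2 := by gcongr
              linarith
            refine h4.trans ?_
            simp only [hcf]
            calc (2 : ℝ) ^ (-(2 * s * k)) =
                  (Real.exp 1 * Real.exp (-1)) * (2 : ℝ) ^ (-(2 * s * k)) := by
                  rw [hee, one_mul]
              _ = (Real.exp 1 * (2 : ℝ) ^ (-(2 * s * k))) * Real.exp (-1) := by ring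
              _ ≤ _ := by gcongr
  calc ∫⁻ η, (w η)⁻¹ * ‖PhA A u h η‖ₑ ^ 2
      ≤ ∫⁻ η, ∑' k, ENNReal.ofReal (cf k) * (ENNReal.ofReal (g0 k η) * ‖PhA A u h η‖ₑ ^ 2) := by
        refine lintegral_mono fun η => ?_
        simp_rw [← mul_assoc]
        rw [ENNReal.tsum_mul_right]
        gcongr
        exact hdom η
    _ = ∑' k, ENNReal.ofReal (cf k) * ∫⁻ η, ENNReal.ofReal (g0 k η) * ‖PhA A u h η‖ₑ ^ 2 := by
        have hm1 : ∀ k, Measurable fun η : E n => ENNReal.ofReal (g0 k η) * ‖PhA A u h η‖ₑ ^ 2 :=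
          fun k => (ENNReal.measurable_ofReal.comp (measurable_g0 k)).mul (hPm.enorm.pow_const 2)
        rw [lintegral_tsum fun k => ((hm1 k).const_mul _).aemeasurable]
        refine tsum_congr fun k => ?_
        rw [lintegral_const_mul _ (hm1 k)]
    _ ≤ ∑' k, ENNReal.ofReal (cf k) * (ENNReal.ofReal (Sf k) * volume A) := by
        refine ENNReal.tsum_le_tsum fun k => ?_
        gcongr
        exact TTA_g0 r k hε0 hε1 A u h a
    _ = S * volume A := by
        rw [hS, ← ENNReal.tsum_mul_right]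
        refine tsum_congr fun k => ?_
        rw [ENNReal.ofReal_mul (hcf0 k), mul_assoc]

end Vale.Agent.P076.R2.H45
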