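import Vale.Agent.P076.R2.H45.Prof

/-!
# The TT* bound for one Gaussian
-/

open MeasureTheory Complex FourierTransform Filter Topology Set
open scoped ENNReal NNReal

namespace Vale.Agent.P076.R2.H45

open Vale.Agent.P076 Vale.Agent.P076.H791

variable {n : ℕ}

lemma measurable_prof (β : ℝ) : Measurable (prof β) := by
  unfold prof
  fun_prop

lemma lint_prod (f : Fin n → ℝ → ℝ) (h0 : ∀ i x, 0 ≤ f i x)
    (hi : ∀ i, Integrable (f i)) :
    ∫⁻ z : E n, ENNReal.ofReal (∏ i, f i (z i)) = ENNReal.ofReal (∏ i, ∫ x, f i x) := by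
  have h1 : Integrable fun x : Fin n → ℝ => ∏ i, f i (x i) := Integrable.fintype_prod hi
  have h2 : ∫ x : Fin n → ℝ, ∏ i, f i (x i) = ∏ i, ∫ x, f i x :=
    integral_fintype_prod_volume_eq_prod f
  rw [← h2, ofReal_integral_eq_lintegral_ofReal h1
    (Eventually.of_forall fun x => Finset.prod_nonneg fun i _ => h0 i _)]
  have h3 := (measurePreserving_toE (n := n)).lintegral_comp_emb measurableEmbedding_toE
    (fun z : E n => ENNReal.ofReal (∏ i, f i (z i)))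
  rw [← h3]
  rfl

/-- the kernel lemma with an exceptional null set -/
theorem TTr_of_kernel_ae {r : ℕ} {G : E n → ℝ} (hG : Integrable G) (hGm : Measurable G)
    (hG0 : ∀ η, 0 ≤ G η) {B : E n → ℝ≥0∞} (hB : Measurable B) {N : Set (E n)}
    (hN : MeasurableSet N) (hN0 : volume N = 0)
    (hK : ∀ z : E n, z ∉ N → ‖z‖ < 2 * r → ∀ t : ℝ, |t| ≤ 2 * r → ‖Ker G z t‖ₑ ≤ B z) {S : ℝ≥0∞}
    (hS : ∫⁻ z in Metric.ball 0 (2 * r), B z ≤ S) :
    TTr r (fun η => ENNReal.ofReal (G η)) S := by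
  classical
  refine TTr_of_kernel hG hGm hG0 (B := fun z => if z ∈ N then ⊤ else B z)
    (Measurable.ite hN measurable_const hB) ?_ ?_
  · intro z hz t ht
    by_cases h : z ∈ N
    · simp [h]
    · simp only [h, if_false]
      exact hK z h hz t ht
  · refine le_trans (le_of_eq ?_) hS
    refine lintegral_congr_ae ?_
    have h1 : ∀ᵐ z ∂(volume : Measure (E n)), z ∉ N := by
      rw [ae_iff]
      simpa using hN0
    filter_upwards [ae_restrict_of_ae h1] with z hz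
    simp [hz]

/-- the set where some coordinate vanishes -/
def Zs (n : ℕ) : Set (E n) := ⋃ i : Fin n, {z : E n | z i = 0}

lemma measurableSet_Zs : MeasurableSet (Zs n) := by
  refine MeasurableSet.iUnion fun i => ?_
  have h : Measurable fun z : E n => z i := by fun_prop
  exact h (measurableSet_singleton 0)

lemma volume_Zs : volume (Zs n) = 0 := by
  refine measure_iUnion_null fun i => ?_
  have h : Measurable fun z : E n => z i := by fun_prop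
  have h1 := (measurePreserving_toE (n := n)).measure_preimage
    (h (measurableSet_singleton 0)).nullMeasurableSet
  have h2 : (volume : Measure (E n)) {z : E n | z i = 0} =
      (volume : Measure (Fin n → ℝ)) {x : Fin n → ℝ | x i = 0} := h1.symm
  rw [h2]
  have h3 : {x : Fin n → ℝ | x i = 0} = (fun x : Fin n → ℝ => x i) ⁻¹' {0} := rfl
  rw [h3, volume_pi]
  exact Measure.pi_hyperplane (fun _ : Fin n => (volume : Measure ℝ)) i 0

lemma exp_one_prof {ρ x : ℝ} (hρ : 0 < ρ) (hx : |x| ≤ ρ) :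
    |x| ^ (-(1 / 2) : ℝ) ≤ Real.exp 1 * prof ((ρ ^ 2)⁻¹) x := by
  have h1 : 1 ≤ Real.exp 1 * Real.exp (-((ρ ^ 2)⁻¹ * x ^ 2)) := by
    rw [← Real.exp_add]
    apply Real.one_le_exp
    have h2 : (ρ ^ 2)⁻¹ * x ^ 2 ≤ 1 := by
      rw [inv_mul_le_iff₀ (by positivity), mul_one, ← sq_abs x]
      gcongr
    linarith
  unfold prof
  calc |x| ^ (-(1 / 2) : ℝ) = |x| ^ (-(1 / 2) : ℝ) * 1 := by ring
    _ ≤ |x| ^ (-(1 / 2) : ℝ) * (Real.exp 1 * Real.exp (-((ρ ^ 2)⁻¹ * x ^ 2))) := by gcongr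
    _ = _ := by ring

lemma one_le_prof {ρ x : ℝ} (hρ : 0 < ρ) (hx : |x| ≤ ρ) (hx0 : x ≠ 0) :
    1 ≤ ρ ^ ((1 / 2) : ℝ) * (Real.exp 1 * prof ((ρ ^ 2)⁻¹) x) := by
  have h0 : 0 < |x| := abs_pos.2 hx0
  refine le_trans ?_ (mul_le_mul_of_nonneg_left (exp_one_prof hρ hx) (by positivity))
  rw [Real.rpow_neg h0.le, ← div_eq_mul_inv, le_div_iff₀ (by positivity), one_mul]
  exact Real.rpow_le_rpow h0.le hx (by norm_num)

/-- parameters -/
noncomputable def aa (i0 : Fin n) (x y : ℝ) (i : Fin n) : ℝ := if i = i0 then x else y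

lemma prod_aa (i0 : Fin n) (x y : ℝ) : ∏ i, aa i0 x y i = x * y ^ (n - 1) := by
  classical
  rw [← Finset.mul_prod_erase Finset.univ _ (Finset.mem_univ i0)]
  congr 1
  · simp [aa]
  · rw [Finset.prod_congr rfl (g := fun _ => y)]
    · rw [Finset.prod_const, Finset.card_erase_of_mem (Finset.mem_univ _), Finset.card_univ,
        Fintype.card_fin]
    · intro i hi
      simp [aa, Finset.ne_of_mem_erase hi]

/-- the modulus of the kernel in one variable -/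
noncomputable def Fac (a c z t : ℝ) : ℝ :=
  (a ^ 2 + 4 * t ^ 2) ^ (-(1 / 4) : ℝ) *
    Real.exp (-(Real.pi * (a * (z - 2 * t * c) ^ 2 / (a ^ 2 + 4 * t ^ 2))))

lemma Fac_nonneg (a c z t : ℝ) : 0 ≤ Fac a c z t := by unfold Fac; positivity

/-- hypotheses on the parameters -/
structure Par (n : ℕ) (R L σ c K C0 : ℝ) : Prop where
  R1 : 1 ≤ R
  L1 : 1 ≤ L
  K1 : 1 ≤ K
  LK : L ^ 2 ≤ K * R
  Rs : √R ≤ σ
  c1 : R ≤ |c|
  c2 : |c| ≤ 3 * R
  ex : (√R) ^ n * Real.exp (-(Real.pi * (L ^ 2 / 18))) ≤ C0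

/-- the first bound -/
noncomputable def fA (i0 : Fin n) (R σ T Q : ℝ) (i : Fin n) (x : ℝ) : ℝ :=
  aa i0 ((6 * R) ^ ((1 / 2) : ℝ) * Real.exp 1) (((σ ^ 2)⁻¹) ^ (-(1 / 4) : ℝ)) i *
    prof (aa i0 ((T ^ 2)⁻¹) ((σ ^ 2)⁻¹ / (Q / R ^ 2)) i) x

/-- the second bound -/
noncomputable def fB (i0 : Fin n) (R L σ Q : ℝ) (i : Fin n) (x : ℝ) : ℝ :=
  aa i0 (R / L * ((L ^ 2 / R) ^ ((1 / 2) : ℝ) * Real.exp 1)) (((σ ^ 2)⁻¹) ^ (-(1 / 4) : ℝ)) i *
    prof (aa i0 (((L ^ 2 / R) ^ 2)⁻¹) ((σ ^ 2)⁻¹ / (Q / R ^ 2)) i) x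

lemma aa_nonneg {i0 : Fin n} {x y : ℝ} (hx : 0 ≤ x) (hy : 0 ≤ y) (i : Fin n) : 0 ≤ aa i0 x y i := by
  unfold aa; split_ifs <;> assumption

lemma aa_pos {i0 : Fin n} {x y : ℝ} (hx : 0 < x) (hy : 0 < y) (i : Fin n) : 0 < aa i0 x y i := by
  unfold aa; split_ifs <;> assumption

section
variable {R L σ c K C0 : ℝ}

lemma Par.R0 (h : Par n R L σ c K C0) : 0 < R := lt_of_lt_of_le one_pos h.R1
lemma Par.L0 (h : Par n R L σ c K C0) : 0 < L := lt_of_lt_of_le one_pos h.L1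
lemma Par.σ0 (h : Par n R L σ c K C0) : 0 < σ := lt_of_lt_of_le (Real.sqrt_pos.2 h.R0) h.Rs
lemma Par.b0 (h : Par n R L σ c K C0) : 0 < (σ ^ 2)⁻¹ := by have := h.σ0; positivity
lemma Par.bR (h : Par n R L σ c K C0) : (σ ^ 2)⁻¹ ≤ R⁻¹ := by
  have h1 : R ≤ σ ^ 2 := by
    have h2 := Real.sq_sqrt h.R0.le
    have h3 : √R ^ 2 ≤ σ ^ 2 := by
      gcongr
      exact h.Rs
    linarith
  exact inv_anti₀ h.R0 h1
lemma Par.b2 (h : Par n R L σ c K C0) : ((σ ^ 2)⁻¹) ^ 2 ≤ 1 / R ^ 2 := by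
  have h1 := h.bR
  have h2 := h.b0
  calc ((σ ^ 2)⁻¹) ^ 2 ≤ (R⁻¹) ^ 2 := by gcongr
    _ = 1 / R ^ 2 := by rw [inv_pow, one_div]

lemma prod_bound (h : Par n R L σ c K C0) (i0 : Fin n) {T : ℝ} (hT : 1 ≤ T) {z : Fin n → ℝ} {t : ℝ}
    (hz : ∀ i, z i ≠ 0) (hzT : |z i0| ≤ T) :
    ∏ i, Fac (aa i0 ((L / R) ^ 2) ((σ ^ 2)⁻¹) i) (aa i0 c 0 i) (z i) t ≤
      ∏ i, fA i0 R σ T (4 * T ^ 2 + K ^ 2) i (z i) + ∏ i, fB i0 R L σ (4 * T ^ 2 + K ^ 2) i (z i) +
        ∏ i, aa i0 (R / L * Real.exp (-(Real.pi * (L ^ 2 / 18)))) (((σ ^ 2)⁻¹) ^ (-(1 / 2) : ℝ)) i := by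
  have hR0 := h.R0
  have hL0 := h.L0
  have hσ0 := h.σ0
  have hb0 := h.b0
  have hb2 := h.b2
  have hK1 := h.K1
  have hQ : 0 < 4 * T ^ 2 + K ^ 2 := by positivity
  have nA : 0 ≤ ∏ i, fA i0 R σ T (4 * T ^ 2 + K ^ 2) i (z i) := Finset.prod_nonneg fun i _ =>
    mul_nonneg (aa_nonneg (by positivity) (by positivity) i) (prof_nonneg _ _)
  have nB : 0 ≤ ∏ i, fB i0 R L σ (4 * T ^ 2 + K ^ 2) i (z i) := Finset.prod_nonneg fun i _ =>
    mul_nonneg (aa_nonneg (by positivity) (by positivity) i) (prof_nonneg _ _)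
  have nC : 0 ≤ ∏ i, aa i0 (R / L * Real.exp (-(Real.pi * (L ^ 2 / 18))))
      (((σ ^ 2)⁻¹) ^ (-(1 / 2) : ℝ)) i := Finset.prod_nonneg fun i _ =>
    aa_nonneg (by positivity) (by positivity) i
  have side : ∀ i, i ≠ i0 → ((σ ^ 2)⁻¹) ^ 2 + 4 * t ^ 2 ≤ (4 * T ^ 2 + K ^ 2) / R ^ 2 →
      Fac (aa i0 ((L / R) ^ 2) ((σ ^ 2)⁻¹) i) (aa i0 c 0 i) (z i) t ≤
        ((σ ^ 2)⁻¹) ^ (-(1 / 4) : ℝ) * prof ((σ ^ 2)⁻¹ / ((4 * T ^ 2 + K ^ 2) / R ^ 2)) (z i) := by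
    intro i hi hU
    have h1 := psi_bound (D := ((σ ^ 2)⁻¹) ^ 2 + 4 * t ^ 2) (by positivity) hU hb0 (hz i)
    simp only [Fac, aa, hi, if_false, mul_zero, sub_zero]
    exact h1
  rcases one_dim_main (t := t) h.R1 h.L1 rfl h.c1 h.c2 (hz i0) with hA | hB | hC
  · have h1 : ∏ i, Fac (aa i0 ((L / R) ^ 2) ((σ ^ 2)⁻¹) i) (aa i0 c 0 i) (z i) t ≤
        ∏ i, fA i0 R σ T (4 * T ^ 2 + K ^ 2) i (z i) := by
      refine Finset.prod_le_prod (fun i _ => Fac_nonneg _ _ _ _) fun i _ => ?_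
      by_cases hi : i = i0
      · subst hi
        simp only [Fac, fA, aa, if_true]
        refine hA.1.trans ?_
        have h2 := exp_one_prof (by linarith : (0 : ℝ) < T) hzT
        calc (6 * R) ^ ((1 / 2) : ℝ) * |z i| ^ (-(1 / 2) : ℝ)
            ≤ (6 * R) ^ ((1 / 2) : ℝ) * (Real.exp 1 * prof ((T ^ 2)⁻¹) (z i)) := by gcongr
          _ = _ := by ring
      · simp only [fA]
        have h3 : aa i0 ((6 * R) ^ ((1 / 2) : ℝ) * Real.exp 1) (((σ ^ 2)⁻¹) ^ (-(1 / 4) : ℝ)) i =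
            ((σ ^ 2)⁻¹) ^ (-(1 / 4) : ℝ) := by simp [aa, hi]
        have h4 : aa i0 ((T ^ 2)⁻¹) ((σ ^ 2)⁻¹ / ((4 * T ^ 2 + K ^ 2) / R ^ 2)) i =
            (σ ^ 2)⁻¹ / ((4 * T ^ 2 + K ^ 2) / R ^ 2) := by simp only [aa, hi, if_false]
        rw [h3, h4]
        refine side i hi ?_
        have h5 : z i0 ^ 2 ≤ T ^ 2 := by
          rw [← sq_abs]; gcongr
        have h6 : 9 / 4 * (z i0 ^ 2 / R ^ 2) ≤ 9 / 4 * (T ^ 2 / R ^ 2) := by gcongr
        have h7 : 1 / R ^ 2 ≤ T ^ 2 / R ^ 2 := by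
          gcongr
          nlinarith
        have h8 : (4 * T ^ 2 + K ^ 2) / R ^ 2 = 4 * (T ^ 2 / R ^ 2) + K ^ 2 / R ^ 2 := by ring
        have h9 : 0 ≤ K ^ 2 / R ^ 2 := by positivity
        have h10 : 0 ≤ T ^ 2 / R ^ 2 := by positivity
        rw [h8]
        linarith [hA.2]
    linarith
  · have h1 : ∏ i, Fac (aa i0 ((L / R) ^ 2) ((σ ^ 2)⁻¹) i) (aa i0 c 0 i) (z i) t ≤
        ∏ i, fB i0 R L σ (4 * T ^ 2 + K ^ 2) i (z i) := by
      refine Finset.prod_le_prod (fun i _ => Fac_nonneg _ _ _ _) fun i _ => ?_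
      by_cases hi : i = i0
      · subst hi
        simp only [Fac, fB, aa, if_true]
        refine hB.1.trans ?_
        have h2 := one_le_prof (by positivity : (0 : ℝ) < L ^ 2 / R) hB.2.1 (hz i)
        calc R / L = R / L * 1 := by ring
          _ ≤ R / L * ((L ^ 2 / R) ^ ((1 / 2) : ℝ) *
              (Real.exp 1 * prof (((L ^ 2 / R) ^ 2)⁻¹) (z i))) := by gcongr
          _ = _ := by ring
      · simp only [fB]
        have h3 : aa i0 (R / L * ((L ^ 2 / R) ^ ((1 / 2) : ℝ) * Real.exp 1))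
            (((σ ^ 2)⁻¹) ^ (-(1 / 4) : ℝ)) i = ((σ ^ 2)⁻¹) ^ (-(1 / 4) : ℝ) := by simp [aa, hi]
        have h4 : aa i0 (((L ^ 2 / R) ^ 2)⁻¹) ((σ ^ 2)⁻¹ / ((4 * T ^ 2 + K ^ 2) / R ^ 2)) i =
            (σ ^ 2)⁻¹ / ((4 * T ^ 2 + K ^ 2) / R ^ 2) := by simp only [aa, hi, if_false]
        rw [h3, h4]
        refine side i hi ?_
        have h5 : ((L / R) ^ 2) ^ 2 ≤ K ^ 2 / R ^ 2 := by
          have e : ((L / R) ^ 2) ^ 2 = (L ^ 2) ^ 2 / R ^ 4 := by ring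
          have e2 : K ^ 2 / R ^ 2 = (K * R) ^ 2 / R ^ 4 := by field_simp
          rw [e, e2]
          have := h.LK
          gcongr
        have h7 : 1 / R ^ 2 ≤ T ^ 2 / R ^ 2 := by
          gcongr
          nlinarith
        have h8 : (4 * T ^ 2 + K ^ 2) / R ^ 2 = 4 * (T ^ 2 / R ^ 2) + K ^ 2 / R ^ 2 := by ring
        have h10 : 0 ≤ T ^ 2 / R ^ 2 := by positivity
        rw [h8]
        linarith [hB.2.2]
    linarith
  · have h1 : ∏ i, Fac (aa i0 ((L / R) ^ 2) ((σ ^ 2)⁻¹) i) (aa i0 c 0 i) (z i) t ≤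
        ∏ i, aa i0 (R / L * Real.exp (-(Real.pi * (L ^ 2 / 18)))) (((σ ^ 2)⁻¹) ^ (-(1 / 2) : ℝ)) i := by
      refine Finset.prod_le_prod (fun i _ => Fac_nonneg _ _ _ _) fun i _ => ?_
      by_cases hi : i = i0
      · subst hi
        simp only [Fac, aa, if_true]
        exact hC
      · simp only [Fac, aa, hi, if_false]
        exact psi_trivial hb0 (by nlinarith [sq_nonneg t]) (by positivity)
    linarith

lemma side_integral (h : Par n R L σ c K C0) {Q : ℝ} (hQ : 0 < Q) :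
    ((σ ^ 2)⁻¹) ^ (-(1 / 4) : ℝ) * (((σ ^ 2)⁻¹ / (Q / R ^ 2)) ^ (-(1 / 4) : ℝ) * gcon) =
      Q ^ ((1 / 4) : ℝ) * gcon * (σ / √R) := by
  have hR0 := h.R0
  have hσ0 := h.σ0
  have hb0 := h.b0
  have h1 : ((σ ^ 2)⁻¹ / (Q / R ^ 2)) ^ (-(1 / 4) : ℝ) =
      ((σ ^ 2)⁻¹) ^ (-(1 / 4) : ℝ) * (Q ^ ((1 / 4) : ℝ) * (√R)⁻¹) := by
    have e1 : (σ ^ 2)⁻¹ / (Q / R ^ 2) = (σ ^ 2)⁻¹ * (Q⁻¹ * R ^ 2) := by
      rw [div_eq_mul_inv, inv_div, div_eq_mul_inv]; ring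
    rw [e1, Real.mul_rpow hb0.le (by positivity), Real.mul_rpow (by positivity) (by positivity),
      Real.inv_rpow hQ.le, Real.rpow_neg hQ.le, inv_inv]
    have e2 : (R ^ 2) ^ (-(1 / 4) : ℝ) = (√R)⁻¹ := by
      rw [← Real.rpow_natCast, ← Real.rpow_mul hR0.le, Real.sqrt_eq_rpow, ← Real.rpow_neg hR0.le]
      norm_num
    rw [e2]
  have h2 : ((σ ^ 2)⁻¹) ^ (-(1 / 4) : ℝ) * ((σ ^ 2)⁻¹) ^ (-(1 / 4) : ℝ) = σ := by
    rw [← Real.rpow_add hb0, Real.inv_rpow (by positivity), ← Real.rpow_natCast,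
      ← Real.rpow_mul hσ0.le, ← Real.rpow_neg hσ0.le]
    norm_num
  rw [h1]
  calc ((σ ^ 2)⁻¹) ^ (-(1 / 4) : ℝ) * (((σ ^ 2)⁻¹) ^ (-(1 / 4) : ℝ) *
        (Q ^ ((1 / 4) : ℝ) * (√R)⁻¹) * gcon)
      = (((σ ^ 2)⁻¹) ^ (-(1 / 4) : ℝ) * ((σ ^ 2)⁻¹) ^ (-(1 / 4) : ℝ)) *
        (Q ^ ((1 / 4) : ℝ) * gcon) * (√R)⁻¹ := by ring
    _ = _ := by rw [h2, div_eq_mul_inv]; ring

lemma int_fA (h : Par n R L σ c K C0) (i0 : Fin n) {T Q : ℝ} (hT : 1 ≤ T) (hQ : 0 < Q) (i : Fin n) :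
    ∫ x, fA i0 R σ T Q i x = aa i0 (√6 * √R * Real.exp 1 * (√T * gcon))
      (Q ^ ((1 / 4) : ℝ) * gcon * (σ / √R)) i := by
  have hR0 := h.R0
  have hb0 := h.b0
  have hT0 : 0 < T := by linarith
  unfold fA
  rw [integral_const_mul, integral_prof (aa_pos (by positivity) (by positivity) i)]
  by_cases hi : i = i0
  · subst hi
    simp only [aa, if_true]
    have e1 : ((T ^ 2)⁻¹) ^ (-(1 / 4) : ℝ) = √T := by
      rw [Real.inv_rpow (by positivity), ← Real.rpow_natCast, ← Real.rpow_mul hT0.le,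
        ← Real.rpow_neg hT0.le, Real.sqrt_eq_rpow]
      norm_num
    have e2 : (6 * R) ^ ((1 / 2) : ℝ) = √6 * √R := by
      rw [Real.mul_rpow (by norm_num) hR0.le, ← Real.sqrt_eq_rpow, ← Real.sqrt_eq_rpow]
    rw [e1, e2]
  · simp only [aa, hi, if_false]
    exact side_integral h hQ

lemma int_fB (h : Par n R L σ c K C0) (i0 : Fin n) {Q : ℝ} (hQ : 0 < Q) (i : Fin n) :
    ∫ x, fB i0 R L σ Q i x = aa i0 (L * Real.exp 1 * gcon)
      (Q ^ ((1 / 4) : ℝ) * gcon * (σ / √R)) i := by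
  have hR0 := h.R0
  have hL0 := h.L0
  have hb0 := h.b0
  unfold fB
  rw [integral_const_mul, integral_prof (aa_pos (by positivity) (by positivity) i)]
  by_cases hi : i = i0
  · subst hi
    simp only [aa, if_true]
    have hρ : 0 < L ^ 2 / R := by positivity
    have e1 : (((L ^ 2 / R) ^ 2)⁻¹) ^ (-(1 / 4) : ℝ) = (L ^ 2 / R) ^ ((1 / 2) : ℝ) := by
      rw [Real.inv_rpow (by positivity), ← Real.rpow_natCast, ← Real.rpow_mul hρ.le,
        ← Real.rpow_neg hρ.le]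
      norm_num
    have e2 : (L ^ 2 / R) ^ ((1 / 2) : ℝ) * (L ^ 2 / R) ^ ((1 / 2) : ℝ) = L ^ 2 / R := by
      rw [← Real.rpow_add hρ]; norm_num
    rw [e1]
    calc R / L * ((L ^ 2 / R) ^ ((1 / 2) : ℝ) * Real.exp 1) *
          ((L ^ 2 / R) ^ ((1 / 2) : ℝ) * gcon)
        = R / L * ((L ^ 2 / R) ^ ((1 / 2) : ℝ) * (L ^ 2 / R) ^ ((1 / 2) : ℝ)) *
          (Real.exp 1 * gcon) := by ring
      _ = L * Real.exp 1 * gcon := by
          rw [e2]
          field_simp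
  · simp only [aa, hi, if_false]
    exact side_integral h hQ

lemma tail_bound (h : Par n R L σ c K C0) (i0 : Fin n) :
    ∏ i, aa i0 (R / L * Real.exp (-(Real.pi * (L ^ 2 / 18)))) (((σ ^ 2)⁻¹) ^ (-(1 / 2) : ℝ)) i ≤
      C0 * (√R * (σ / √R) ^ (n - 1)) := by
  have hR0 := h.R0
  have hL0 := h.L0
  have hσ0 := h.σ0
  have hs : 0 < √R := Real.sqrt_pos.2 hR0
  have hn : 1 ≤ n := Fin.pos i0
  have e1 : ((σ ^ 2)⁻¹) ^ (-(1 / 2) : ℝ) = σ := by
    rw [Real.inv_rpow (by positivity), ← Real.rpow_natCast, ← Real.rpow_mul hσ0.le,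
      ← Real.rpow_neg hσ0.le]
    norm_num
  rw [prod_aa, e1]
  set X : ℝ := Real.exp (-(Real.pi * (L ^ 2 / 18))) with hX
  have hX0 : 0 < X := Real.exp_pos _
  have h1 : R / L ≤ R := div_le_self hR0.le h.L1
  have e2 : R * σ ^ (n - 1) = √R ^ n * (√R * (σ / √R) ^ (n - 1)) := by
    obtain ⟨m, rfl⟩ : ∃ m, n = m + 1 := ⟨n - 1, by omega⟩
    simp only [Nat.add_sub_cancel]
    rw [div_pow, pow_succ]
    have h3 : √R * √R = R := Real.mul_self_sqrt hR0.le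
    field_simp
    rw [sq, h3]
  calc R / L * X * σ ^ (n - 1) ≤ R * X * σ ^ (n - 1) := by gcongr
    _ = (√R ^ n * X) * (√R * (σ / √R) ^ (n - 1)) := by
        rw [show R * X * σ ^ (n - 1) = X * (R * σ ^ (n - 1)) by ring, e2]; ring
    _ ≤ C0 * (√R * (σ / √R) ^ (n - 1)) := by
        have := h.ex
        gcongr

end

/-- the formula for the modulus of the kernel of a Gaussian -/
def KerG (n : ℕ) : Prop := ∀ (a c : Fin n → ℝ), (∀ i, 0 < a i) → ∀ (z : E n) (t : ℝ),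
  ‖Ker (fun y : E n => Real.exp (-(Real.pi * ∑ i, a i * (y i - c i) ^ 2))) z t‖ =
    ∏ i, ((a i ^ 2 + 4 * t ^ 2) ^ (-(1 / 4) : ℝ) *
      Real.exp (-(Real.pi * (a i * (z i - 2 * t * c i) ^ 2 / (a i ^ 2 + 4 * t ^ 2)))))

/-- integrability of Gaussians -/
def IntG (n : ℕ) : Prop := ∀ (a c : Fin n → ℝ), (∀ i, 0 < a i) →
  Integrable (fun y : E n => Real.exp (-(Real.pi * ∑ i, a i * (y i - c i) ^ 2)))

/-- the Gaussian in diagonal position -/
noncomputable def gd (i0 : Fin n) (R L σ c : ℝ) (y : E n) : ℝ :=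
  Real.exp (-(Real.pi * ∑ i, aa i0 ((L / R) ^ 2) ((σ ^ 2)⁻¹) i * (y i - aa i0 c 0 i) ^ 2))

lemma measurable_gd (i0 : Fin n) (R L σ c : ℝ) : Measurable (gd i0 R L σ c) := by
  unfold gd
  fun_prop

theorem TTr_diag (hKG : KerG n) (hIG : IntG n) (i0 : Fin n) (r : ℕ) {K C0 : ℝ} (hC0 : 0 ≤ C0) :
    ∃ C : ℝ, 0 ≤ C ∧ ∀ R L σ c : ℝ, Par n R L σ c K C0 →
      TTr r (fun y => ENNReal.ofReal (gd i0 R L σ c y))
        (ENNReal.ofReal (C * (√R * (σ / √R) ^ (n - 1)))) := by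
  set T : ℝ := 2 * r + 1 with hT
  have hT1 : 1 ≤ T := by
    have : (0 : ℝ) ≤ r := r.cast_nonneg
    linarith
  set Q : ℝ := 4 * T ^ 2 + K ^ 2 with hQd
  have hQ : 0 < Q := by positivity
  set v : ℝ := ((volume : Measure (E n)) (Metric.ball 0 (2 * r))).toReal with hv
  have hv0 : 0 ≤ v := ENNReal.toReal_nonneg
  have hg0 := gcon_nonneg
  set D1 : ℝ := Q ^ ((1 / 4) : ℝ) * gcon with hD1
  have hD10 : 0 ≤ D1 := by positivity
  refine ⟨√6 * Real.exp 1 * (√T * gcon) * D1 ^ (n - 1) + √K * Real.exp 1 * gcon * D1 ^ (n - 1) +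
    C0 * v, by positivity, fun R L σ c h => ?_⟩
  have hR0 := h.R0
  have hL0 := h.L0
  have hσ0 := h.σ0
  have hb0 := h.b0
  have hK1 := h.K1
  set M : ℝ := √R * (σ / √R) ^ (n - 1) with hM
  have hM0 : 0 ≤ M := by positivity
  have hapos : ∀ i, 0 < aa i0 ((L / R) ^ 2) ((σ ^ 2)⁻¹) i := fun i => aa_pos (by positivity) hb0 i
  set tl : ℝ := ∏ i, aa i0 (R / L * Real.exp (-(Real.pi * (L ^ 2 / 18))))
    (((σ ^ 2)⁻¹) ^ (-(1 / 2) : ℝ)) i with htl
  have htl0 : 0 ≤ tl := Finset.prod_nonneg fun i _ => aa_nonneg (by positivity) (by positivity) i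
  have nfA : ∀ i x, 0 ≤ fA i0 R σ T Q i x := fun i x =>
    mul_nonneg (aa_nonneg (by positivity) (by positivity) i) (prof_nonneg _ _)
  have nfB : ∀ i x, 0 ≤ fB i0 R L σ Q i x := fun i x =>
    mul_nonneg (aa_nonneg (by positivity) (by positivity) i) (prof_nonneg _ _)
  have ifA : ∀ i, Integrable (fA i0 R σ T Q i) := fun i =>
    (integrable_prof (aa_pos (by positivity) (by positivity) i)).const_mul _
  have ifB : ∀ i, Integrable (fB i0 R L σ Q i) := fun i =>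
    (integrable_prof (aa_pos (by positivity) (by positivity) i)).const_mul _
  have mfA : ∀ i, Measurable (fA i0 R σ T Q i) := fun i => (measurable_prof _).const_mul _
  have mfB : ∀ i, Measurable (fB i0 R L σ Q i) := fun i => (measurable_prof _).const_mul _
  have mA : Measurable fun z : E n => ENNReal.ofReal (∏ i, fA i0 R σ T Q i (z i)) := by
    refine ENNReal.measurable_ofReal.comp (Finset.measurable_prod _ fun i _ => ?_)
    exact (mfA i).comp (by fun_prop)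
  have mB : Measurable fun z : E n => ENNReal.ofReal (∏ i, fB i0 R L σ Q i (z i)) := by
    refine ENNReal.measurable_ofReal.comp (Finset.measurable_prod _ fun i _ => ?_)
    exact (mfB i).comp (by fun_prop)
  refine TTr_of_kernel_ae (N := Zs n) (B := fun z => ENNReal.ofReal (∏ i, fA i0 R σ T Q i (z i)) +
    (ENNReal.ofReal (∏ i, fB i0 R L σ Q i (z i)) + ENNReal.ofReal tl))
    (hIG _ _ hapos) (measurable_gd i0 R L σ c) (fun η => (Real.exp_pos _).le)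
    (mA.add (mB.add measurable_const)) measurableSet_Zs volume_Zs ?_ ?_
  · intro z hz hzr t _
    have hz' : ∀ i, z i ≠ 0 := by
      intro i hi
      exact hz (mem_iUnion.2 ⟨i, hi⟩)
    have hzT : |z i0| ≤ T := by
      have h1 : |z i0| ≤ ‖z‖ := by
        have := PiLp.norm_apply_le z i0
        rwa [Real.norm_eq_abs] at this
      rw [hT]
      linarith
    have h1 := hKG _ (aa i0 c 0) hapos z t
    have h2 := prod_bound (t := t) h i0 hT1 hz' hzT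
    rw [← ofReal_norm]
    have h3 : ‖Ker (gd i0 R L σ c) z t‖ ≤ ∏ i, fA i0 R σ T Q i (z i) +
        (∏ i, fB i0 R L σ Q i (z i) + tl) := by
      rw [← add_assoc]
      exact h1.le.trans h2
    refine (ENNReal.ofReal_le_ofReal h3).trans ?_
    rw [ENNReal.ofReal_add, ENNReal.ofReal_add]
    · exact Finset.prod_nonneg fun i _ => nfB i _
    · exact htl0
    · exact Finset.prod_nonneg fun i _ => nfA i _
    · exact add_nonneg (Finset.prod_nonneg fun i _ => nfB i _) htl0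
  · rw [lintegral_add_left mA, lintegral_add_left mB, lintegral_const]
    have h1 : ∫⁻ z in Metric.ball (0 : E n) (2 * r), ENNReal.ofReal (∏ i, fA i0 R σ T Q i (z i)) ≤
        ENNReal.ofReal (√6 * Real.exp 1 * (√T * gcon) * D1 ^ (n - 1) * M) := by
      refine (setLIntegral_le_lintegral _ _).trans ?_
      rw [lint_prod _ nfA ifA]
      refine ENNReal.ofReal_le_ofReal (le_of_eq ?_)
      rw [Finset.prod_congr rfl fun i _ => int_fA h i0 hT1 hQ i, prod_aa, ← hD1, mul_pow, hM]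
      ring
    have h2 : ∫⁻ z in Metric.ball (0 : E n) (2 * r), ENNReal.ofReal (∏ i, fB i0 R L σ Q i (z i)) ≤
        ENNReal.ofReal (√K * Real.exp 1 * gcon * D1 ^ (n - 1) * M) := by
      refine (setLIntegral_le_lintegral _ _).trans ?_
      rw [lint_prod _ nfB ifB]
      refine ENNReal.ofReal_le_ofReal ?_
      rw [Finset.prod_congr rfl fun i _ => int_fB h i0 hQ i, prod_aa, ← hD1, mul_pow, hM]
      have h3 : L ≤ √K * √R := by
        rw [← Real.sqrt_mul (by linarith)]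
        exact Real.le_sqrt_of_sq_le h.LK
      calc L * Real.exp 1 * gcon * (D1 ^ (n - 1) * (σ / √R) ^ (n - 1))
          ≤ (√K * √R) * Real.exp 1 * gcon * (D1 ^ (n - 1) * (σ / √R) ^ (n - 1)) := by gcongr
        _ = _ := by ring
    have h3 : ENNReal.ofReal tl * ((volume : Measure (E n)).restrict (Metric.ball 0 (2 * r))) univ ≤
        ENNReal.ofReal (C0 * v * M) := by
      rw [Measure.restrict_apply_univ, ← ENNReal.ofReal_toReal (measure_ball_lt_top (μ := (volume : Measure (E n))) (x := 0) (r := 2 * (r : ℝ))).ne,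
        ← ENNReal.ofReal_mul htl0]
      refine ENNReal.ofReal_le_ofReal ?_
      have h4 := tail_bound h i0
      calc tl * v ≤ (C0 * M) * v := by gcongr
        _ = _ := by ring
    calc _ ≤ ENNReal.ofReal (√6 * Real.exp 1 * (√T * gcon) * D1 ^ (n - 1) * M) +
          (ENNReal.ofReal (√K * Real.exp 1 * gcon * D1 ^ (n - 1) * M) +
            ENNReal.ofReal (C0 * v * M)) := add_le_add h1 (add_le_add h2 h3)
      _ = _ := by
        rw [← ENNReal.ofReal_add (by positivity) (by positivity),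
          ← ENNReal.ofReal_add (by positivity) (by positivity)]
        congr 1
        ring

end Vale.Agent.P076.R2.H45
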