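import Vale.Agent.P076.R2.H45.TT

/-!
# The kernel bound for the TT* estimate
-/

open MeasureTheory Complex FourierTransform Filter Topology Set
open scoped ENNReal NNReal

namespace Vale.Agent.P076.R2.H45

open Vale.Agent.P076 Vale.Agent.P076.H791

variable {n : ℕ}

lemma ph_mul_conj (x y : E n) (s t : ℝ) (η : E n) :
    ph x s 0 η * starRingEnd ℂ (ph y t 0 η) = ph (x - y) (s - t) 0 η := by
  unfold ph
  rw [← Complex.exp_conj, ← Complex.exp_add]
  congr 1
  simp only [map_sub, map_mul, Complex.conj_ofReal, Complex.conj_I, map_ofNat, inner_sub_left]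
  push_cast
  ring

/-- the kernel -/
noncomputable def Ker (G : E n → ℝ) (z : E n) (t : ℝ) : ℂ := ∫ η, (G η : ℂ) * ph z t 0 η

lemma inner_int (G : E n → ℝ) (h : E n → ℂ) (s : E n → ℝ) (x y : E n) :
    ∫ η, (G η : ℂ) * ((h x * ph x (s x) 0 η) * starRingEnd ℂ (h y * ph y (s y) 0 η)) =
      h x * starRingEnd ℂ (h y) * Ker G (x - y) (s x - s y) := by
  rw [Ker, ← integral_const_mul]
  refine integral_congr_ae (Eventually.of_forall fun η => ?_)
  simp only
  rw [← ph_mul_conj, map_mul]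
  ring

lemma kern_measurable {G : E n → ℝ} (hGm : Measurable G) {s : E n → ℝ} {h : E n → ℂ}
    (ms : Measurable s) (mh : Measurable h) :
    Measurable fun p : E n × (E n × E n) => (G p.1 : ℂ) * ((h p.2.1 * ph p.2.1 (s p.2.1) 0 p.1) *
      starRingEnd ℂ (h p.2.2 * ph p.2.2 (s p.2.2) 0 p.1)) := by
  have k := measurable_kern ms mh
  have m1 : Measurable fun p : E n × (E n × E n) => ((p.2.1, p.1) : E n × E n) :=
    (measurable_fst.comp measurable_snd).prodMk measurable_fst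
  have m2 : Measurable fun p : E n × (E n × E n) => ((p.2.2, p.1) : E n × E n) :=
    (measurable_snd.comp measurable_snd).prodMk measurable_fst
  have k1 := Measurable.comp k m1
  have k2 := Measurable.comp k m2
  simp only [Function.comp_def] at k1 k2
  have k3 : Measurable fun p : E n × (E n × E n) => (G p.1 : ℂ) :=
    Complex.measurable_ofReal.comp (hGm.comp measurable_fst)
  have k4 := Measurable.comp Complex.continuous_conj.measurable k2
  simp only [Function.comp_def] at k4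
  exact k3.mul (k1.mul k4)

lemma Phi_sq (A : Set (E n)) (s : E n → ℝ) (h : E n → ℂ) (η : E n) :
    ((‖Phi A s h η‖ ^ 2 : ℝ) : ℂ) =
      ∫ p, (h p.1 * ph p.1 (s p.1) 0 η) * starRingEnd ℂ (h p.2 * ph p.2 (s p.2) 0 η)
        ∂(((volume : Measure (E n)).restrict A).prod ((volume : Measure (E n)).restrict A)) := by
  rw [integral_prod_mul (μ := (volume : Measure (E n)).restrict A)
    (ν := (volume : Measure (E n)).restrict A) (fun x => h x * ph x (s x) 0 η)
    (fun x => starRingEnd ℂ (h x * ph x (s x) 0 η)), integral_conj]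
  rw [Complex.mul_conj, Complex.normSq_eq_norm_sq]
  rfl

lemma norm_kk_le {s : E n → ℝ} {h : E n → ℂ} (bh : ∀ x, ‖h x‖ ≤ 1) (x y η : E n) :
    ‖(h x * ph x (s x) 0 η) * starRingEnd ℂ (h y * ph y (s y) 0 η)‖ ≤ 1 := by
  rw [norm_mul, RCLike.norm_conj]
  exact mul_le_one₀ (norm_kern_le bh _ _) (norm_nonneg _) (norm_kern_le bh _ _)

lemma conv_le {A : Set (E n)} {r : ℕ} (hA : A ⊆ Metric.ball 0 r) {B : E n → ℝ≥0∞}
    (hB : Measurable B) (hAm : MeasurableSet A) :
    ∫⁻ p, B (p.1 - p.2) ∂(((volume : Measure (E n)).restrict A).prod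
      ((volume : Measure (E n)).restrict A)) ≤
      (∫⁻ z in Metric.ball 0 (2 * r), B z) * volume A := by
  have hm : Measurable fun p : E n × E n => B (p.1 - p.2) := hB.comp (measurable_fst.sub measurable_snd)
  rw [lintegral_prod _ hm.aemeasurable]
  have h1 : ∀ x ∈ A, ∫⁻ y in A, B (x - y) ≤ ∫⁻ z in Metric.ball 0 (2 * r), B z := by
    intro x hx
    have h2 : ∫⁻ y in A, B (x - y) ≤
        ∫⁻ y in A, (Metric.ball (0 : E n) (2 * r)).indicator B (x - y) := by
      refine setLIntegral_mono' hAm fun y hy => ?_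
      have h3 : x - y ∈ Metric.ball (0 : E n) (2 * r) := by
        have hx' := hA hx
        have hy' := hA hy
        rw [mem_ball_zero_iff] at hx' hy' ⊢
        calc ‖x - y‖ ≤ ‖x‖ + ‖y‖ := norm_sub_le _ _
          _ < r + r := add_lt_add hx' hy'
          _ = 2 * r := by ring
      rw [indicator_of_mem h3]
    refine h2.trans ((setLIntegral_le_lintegral _ _).trans ?_)
    rw [lintegral_sub_left_eq_self (fun z => (Metric.ball (0 : E n) (2 * r)).indicator B z) x,
      lintegral_indicator Metric.isOpen_ball.measurableSet]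
  calc ∫⁻ x in A, ∫⁻ y in A, B (x - y)
      ≤ ∫⁻ x in A, ∫⁻ z in Metric.ball 0 (2 * r), B z := setLIntegral_mono' hAm h1
    _ = (∫⁻ z in Metric.ball 0 (2 * r), B z) * volume A := by
        rw [setLIntegral_const]

/-- **kernel bound implies TT\*.** -/
theorem TTr_of_kernel {r : ℕ} {G : E n → ℝ} (hG : Integrable G) (hGm : Measurable G)
    (hG0 : ∀ η, 0 ≤ G η) {B : E n → ℝ≥0∞} (hB : Measurable B)
    (hK : ∀ z : E n, ‖z‖ < 2 * r → ∀ t : ℝ, |t| ≤ 2 * r → ‖Ker G z t‖ₑ ≤ B z) {S : ℝ≥0∞}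
    (hS : ∫⁻ z in Metric.ball 0 (2 * r), B z ≤ S) :
    TTr r (fun η => ENNReal.ofReal (G η)) S := by
  intro A s h a
  have hAf := a.vol
  have hfin : IsFiniteMeasure ((volume : Measure (E n)).restrict A) :=
    ⟨by rw [Measure.restrict_apply_univ]; exact hAf⟩
  have hPm := measurable_Phi (A := A) a.ms a.mh
  set μ : Measure (E n) := (volume : Measure (E n)).restrict A with hμ
  -- the integrand in `(η, (x, y))`
  set F : E n → E n × E n → ℂ := fun η p => (G η : ℂ) * ((h p.1 * ph p.1 (s p.1) 0 η) *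
      starRingEnd ℂ (h p.2 * ph p.2 (s p.2) 0 η)) with hF
  have hFi : Integrable (Function.uncurry F) ((volume : Measure (E n)).prod (μ.prod μ)) := by
    have h3 : Integrable (fun p : E n × (E n × E n) => ‖G p.1‖ * 1)
        ((volume : Measure (E n)).prod (μ.prod μ)) :=
      hG.norm.mul_prod (integrable_const (1 : ℝ) (μ := μ.prod μ))
    refine Integrable.mono' h3 ?_ (Eventually.of_forall fun p => ?_)
    · exact (kern_measurable hGm a.ms a.mh).aestronglyMeasurable
    · simp only [Function.uncurry, hF]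
      rw [norm_mul, Complex.norm_real]
      exact mul_le_mul_of_nonneg_left (norm_kk_le a.bh _ _ _) (norm_nonneg _)
  have e1 : ∀ η, ∫ p, F η p ∂(μ.prod μ) = ((G η * ‖Phi A s h η‖ ^ 2 : ℝ) : ℂ) := by
    intro η
    simp only [hF]
    rw [integral_const_mul, ← Phi_sq]
    push_cast
    ring
  have e2 : ∀ p : E n × E n, ∫ η, F η p = h p.1 * starRingEnd ℂ (h p.2) *
      Ker G (p.1 - p.2) (s p.1 - s p.2) := fun p => inner_int G h s p.1 p.2
  have hi : Integrable (fun η => G η * ‖Phi A s h η‖ ^ 2) := by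
    have h1 := hFi.integral_prod_left
    have h2 : (fun η => ∫ p, Function.uncurry F (η, p) ∂(μ.prod μ)) =
        fun η => ((G η * ‖Phi A s h η‖ ^ 2 : ℝ) : ℂ) := by
      funext η; exact e1 η
    rw [h2] at h1
    have h3 := h1.re
    refine h3.congr (Eventually.of_forall fun η => ?_)
    simp only [RCLike.re_to_complex, Complex.ofReal_re]
  have e3 : ((∫ η, G η * ‖Phi A s h η‖ ^ 2 : ℝ) : ℂ) =
      ∫ p, h p.1 * starRingEnd ℂ (h p.2) * Ker G (p.1 - p.2) (s p.1 - s p.2) ∂(μ.prod μ) := by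
    rw [← integral_complex_ofReal]
    have h1 : ∫ η, ((G η * ‖Phi A s h η‖ ^ 2 : ℝ) : ℂ) = ∫ η, ∫ p, F η p ∂(μ.prod μ) :=
      integral_congr_ae (Eventually.of_forall fun η => (e1 η).symm)
    rw [h1, integral_integral_swap hFi]
    exact integral_congr_ae (Eventually.of_forall fun p => e2 p)
  have h0 : 0 ≤ ∫ η, G η * ‖Phi A s h η‖ ^ 2 :=
    integral_nonneg fun η => mul_nonneg (hG0 η) (by positivity)
  have e4 : ∫⁻ η, ENNReal.ofReal (G η) * ‖Phi A s h η‖ₑ ^ 2 =
      ‖((∫ η, G η * ‖Phi A s h η‖ ^ 2 : ℝ) : ℂ)‖ₑ := by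
    rw [← ofReal_norm, Complex.norm_real, Real.norm_eq_abs, abs_of_nonneg h0,
      ofReal_integral_eq_lintegral_ofReal hi
        (Eventually.of_forall fun η => mul_nonneg (hG0 η) (by positivity))]
    refine lintegral_congr fun η => ?_
    rw [ENNReal.ofReal_mul (hG0 η), ENNReal.ofReal_pow (norm_nonneg _), ofReal_norm]
  rw [e4, e3]
  refine (enorm_integral_le_lintegral_enorm _).trans ?_
  have h5 : ∀ᵐ p ∂(μ.prod μ), ‖h p.1 * starRingEnd ℂ (h p.2) *
      Ker G (p.1 - p.2) (s p.1 - s p.2)‖ₑ ≤ B (p.1 - p.2) := by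
    rw [hμ, Measure.prod_restrict]
    refine (ae_restrict_iff' (a.mA.prod a.mA)).2 (Eventually.of_forall fun p hp => ?_)
    have hx' := a.sub hp.1
    have hy' := a.sub hp.2
    rw [mem_ball_zero_iff] at hx' hy'
    have hz : ‖p.1 - p.2‖ < 2 * r := by
      calc ‖p.1 - p.2‖ ≤ ‖p.1‖ + ‖p.2‖ := norm_sub_le _ _
          _ < r + r := add_lt_add hx' hy'
          _ = 2 * r := by ring
    have ht : |s p.1 - s p.2| ≤ 2 * r := by
      calc |s p.1 - s p.2| ≤ |s p.1| + |s p.2| := abs_sub _ _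
          _ ≤ r + r := add_le_add (a.bs _) (a.bs _)
          _ = 2 * r := by ring
    rw [enorm_mul, enorm_mul]
    have h1 : ‖h p.1‖ₑ ≤ 1 := by
      rw [← ofReal_norm, ← ENNReal.ofReal_one]
      exact ENNReal.ofReal_le_ofReal (a.bh _)
    have h2 : ‖starRingEnd ℂ (h p.2)‖ₑ ≤ 1 := by
      rw [← ofReal_norm, RCLike.norm_conj, ← ENNReal.ofReal_one]
      exact ENNReal.ofReal_le_ofReal (a.bh _)
    calc ‖h p.1‖ₑ * ‖starRingEnd ℂ (h p.2)‖ₑ * ‖Ker G (p.1 - p.2) (s p.1 - s p.2)‖ₑ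
        ≤ 1 * 1 * B (p.1 - p.2) := by
          gcongr
          exact hK _ hz _ ht
      _ = B (p.1 - p.2) := by ring
  refine (lintegral_mono_ae h5).trans ((conv_le a.sub hB a.mA).trans ?_)
  gcongr

/-! ### operations -/

lemma TTr.mono {r : ℕ} {V V' : E n → ℝ≥0∞} {S S' : ℝ≥0∞} (h : TTr r V S) (hV : ∀ η, V' η ≤ V η)
    (hS : S ≤ S') : TTr r V' S' := by
  intro A s g a
  refine (lintegral_mono fun η => ?_).trans ((h A s g a).trans ?_)
  · exact mul_le_mul_left (hV η) _
  · exact mul_le_mul_left hS _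

lemma TTr.tsum {r : ℕ} {ι : Type*} [Countable ι] {V : ι → E n → ℝ≥0∞} {S : ι → ℝ≥0∞}
    (hV : ∀ i, Measurable (V i)) (h : ∀ i, TTr r (V i) (S i)) :
    TTr r (fun η => ∑' i, V i η) (∑' i, S i) := by
  intro A s g a
  have hPm := measurable_Phi (A := A) a.ms a.mh
  calc ∫⁻ η, (∑' i, V i η) * ‖Phi A s g η‖ₑ ^ 2
      = ∫⁻ η, ∑' i, V i η * ‖Phi A s g η‖ₑ ^ 2 := by simp_rw [ENNReal.tsum_mul_right]
    _ = ∑' i, ∫⁻ η, V i η * ‖Phi A s g η‖ₑ ^ 2 :=
        lintegral_tsum fun i => ((hV i).mul (hPm.enorm.pow_const 2)).aemeasurable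
    _ ≤ ∑' i, S i * volume A := ENNReal.tsum_le_tsum fun i => h i A s g a
    _ = (∑' i, S i) * volume A := ENNReal.tsum_mul_right

lemma TTr.const_mul {r : ℕ} {V : E n → ℝ≥0∞} {S : ℝ≥0∞} (hV : Measurable V) (h : TTr r V S)
    (c : ℝ≥0∞) : TTr r (fun η => c * V η) (c * S) := by
  intro A s g a
  have hPm := measurable_Phi (A := A) a.ms a.mh
  have hm : Measurable fun η => V η * ‖Phi A s g η‖ₑ ^ 2 := hV.mul (hPm.enorm.pow_const 2)
  simp_rw [mul_assoc]
  rw [lintegral_const_mul _ hm]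
  exact mul_le_mul_right (h A s g a) _

lemma TTr.add {r : ℕ} {V V' : E n → ℝ≥0∞} {S S' : ℝ≥0∞} (hV : Measurable V)
    (h : TTr r V S) (h' : TTr r V' S') : TTr r (fun η => V η + V' η) (S + S') := by
  intro A s g a
  have hPm := measurable_Phi (A := A) a.ms a.mh
  have hm : Measurable fun η => V η * ‖Phi A s g η‖ₑ ^ 2 := hV.mul (hPm.enorm.pow_const 2)
  simp_rw [add_mul]
  rw [lintegral_add_left hm]
  exact add_le_add (h A s g a) (h' A s g a)

lemma TTr.sum {r : ℕ} {ι : Type*} (t : Finset ι) {V : ι → E n → ℝ≥0∞} {S : ι → ℝ≥0∞}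
    (hV : ∀ i, Measurable (V i)) (h : ∀ i, TTr r (V i) (S i)) :
    TTr r (fun η => ∑ i ∈ t, V i η) (∑ i ∈ t, S i) := by
  classical
  induction t using Finset.induction_on with
  | empty => intro A s g a; simp
  | insert i t hi ih =>
    simp_rw [Finset.sum_insert hi]
    exact (h i).add (hV i) ih

end Vale.Agent.P076.R2.H45
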