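import Vale.Agent.P076.R2.H45.Kern

/-!
# One dimensional bounds
-/

open MeasureTheory Complex FourierTransform Filter Topology Set
open scoped ENNReal NNReal

namespace Vale.Agent.P076.R2.H45

open Vale.Agent.P076 Vale.Agent.P076.H791

/-- the profile `|x|^(-1/2) exp(-β x^2)` -/
noncomputable def prof (β x : ℝ) : ℝ := |x| ^ (-(1 / 2) : ℝ) * Real.exp (-(β * x ^ 2))

lemma prof_nonneg (β x : ℝ) : 0 ≤ prof β x := by unfold prof; positivity

lemma abs_rpow_eq (x : ℝ) : |x| ^ (-(1 / 2) : ℝ) = x ^ (-(1 / 2) : ℝ) + (-x) ^ (-(1 / 2) : ℝ) := by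
  have key : ∀ y : ℝ, 0 < y → (-y) ^ (-(1 / 2) : ℝ) = 0 := by
    intro y hy
    rw [Real.rpow_def_of_neg (by linarith)]
    have : (-(1 / 2) : ℝ) * Real.pi = -(Real.pi / 2) := by ring
    rw [this, Real.cos_neg, Real.cos_pi_div_two, mul_zero]
  rcases lt_trichotomy x 0 with h | h | h
  · have h1 := key (-x) (by linarith)
    rw [neg_neg] at h1
    rw [abs_of_neg h, h1, zero_add]
  · subst h
    simp only [abs_zero, neg_zero]
    rw [Real.zero_rpow (by norm_num)]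
    simp
  · rw [abs_of_pos h, key x h, add_zero]

lemma integrable_prof {β : ℝ} (hβ : 0 < β) : Integrable (prof β) := by
  have h1 := integrable_rpow_mul_exp_neg_mul_sq hβ (s := -(1 / 2)) (by norm_num)
  have h2 := h1.comp_neg
  have h3 := h1.add h2
  refine h3.congr (Eventually.of_forall fun x => ?_)
  simp only [Pi.add_apply, prof]
  rw [abs_rpow_eq, neg_sq, neg_mul]
  ring

/-- the integral of the profile with `β = 1` -/
noncomputable def gcon : ℝ := ∫ x, prof 1 x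

lemma gcon_nonneg : 0 ≤ gcon := integral_nonneg fun _ => prof_nonneg _ _

lemma integral_prof {β : ℝ} (hβ : 0 < β) : ∫ x, prof β x = β ^ (-(1 / 4) : ℝ) * gcon := by
  have hs : 0 < Real.sqrt β := Real.sqrt_pos.2 hβ
  have h1 := Measure.integral_comp_mul_left (fun x => prof 1 x) (Real.sqrt β)
  have h2 : ∀ x, prof 1 (Real.sqrt β * x) = β ^ (-(1 / 4) : ℝ) * prof β x := by
    intro x
    unfold prof
    rw [abs_mul, abs_of_pos hs, Real.mul_rpow hs.le (abs_nonneg x), mul_pow, Real.sq_sqrt hβ.le,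
      one_mul, Real.sqrt_eq_rpow, ← Real.rpow_mul hβ.le]
    norm_num
    ring
  simp only [h2] at h1
  rw [integral_const_mul, abs_of_pos (inv_pos.2 hs), smul_eq_mul] at h1
  have h3 : (Real.sqrt β)⁻¹ = β ^ (-(1 / 4) : ℝ) * β ^ (-(1 / 4) : ℝ) := by
    rw [← Real.rpow_add hβ, Real.sqrt_eq_rpow, ← Real.rpow_neg hβ.le]
    norm_num
  rw [h3, mul_assoc] at h1
  have h4 : β ^ (-(1 / 4) : ℝ) ≠ 0 := (Real.rpow_pos_of_pos hβ _).ne'
  exact mul_left_cancel₀ h4 h1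

lemma psi_bound {D U b x : ℝ} (hD : 0 < D) (hDU : D ≤ U) (hb : 0 < b) (hx : x ≠ 0) :
    D ^ (-(1 / 4) : ℝ) * Real.exp (-(Real.pi * (b * x ^ 2 / D))) ≤
      b ^ (-(1 / 4) : ℝ) * prof (b / U) x := by
  have hx2 : 0 < x ^ 2 := by positivity
  set y : ℝ := b * x ^ 2 / D with hy
  have hy0 : 0 < y := by positivity
  have hDy : D = b * x ^ 2 * y⁻¹ := by rw [hy]; field_simp
  have h1 : D ^ (-(1 / 4) : ℝ) = b ^ (-(1 / 4) : ℝ) * |x| ^ (-(1 / 2) : ℝ) * y ^ ((1 / 4) : ℝ) := by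
    conv_lhs => rw [hDy]
    rw [Real.mul_rpow (by positivity) (by positivity), Real.mul_rpow hb.le (by positivity),
      ← sq_abs x, ← Real.rpow_natCast, ← Real.rpow_mul (abs_nonneg x), Real.inv_rpow hy0.le,
      Real.rpow_neg hy0.le, inv_inv]
    norm_num
  have h2 : y ^ ((1 / 4) : ℝ) ≤ Real.exp y := by
    have h3 : y ^ ((1 / 4) : ℝ) ≤ 1 + y := by
      rcases le_total y 1 with h | h
      · have := Real.rpow_le_one hy0.le h (by norm_num : (0 : ℝ) ≤ 1 / 4)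
        linarith
      · have := Real.rpow_le_rpow_of_exponent_le h (by norm_num : (1 / 4 : ℝ) ≤ 1)
        rw [Real.rpow_one] at this
        linarith
    have := Real.add_one_le_exp y
    linarith
  have h3 : y ^ ((1 / 4) : ℝ) * Real.exp (-(Real.pi * y)) ≤ Real.exp (-y) := by
    calc y ^ ((1 / 4) : ℝ) * Real.exp (-(Real.pi * y))
        ≤ Real.exp y * Real.exp (-(Real.pi * y)) := by gcongr
      _ = Real.exp (y - Real.pi * y) := by rw [← Real.exp_add]; ring_nf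
      _ ≤ Real.exp (-y) := by
          apply Real.exp_le_exp.2
          nlinarith [Real.pi_gt_three]
  have h4 : Real.exp (-y) ≤ Real.exp (-(b / U * x ^ 2)) := by
    apply Real.exp_le_exp.2
    have : b / U * x ^ 2 ≤ y := by
      rw [hy, div_mul_eq_mul_div]
      gcongr
    linarith
  unfold prof
  rw [h1]
  calc b ^ (-(1 / 4) : ℝ) * |x| ^ (-(1 / 2) : ℝ) * y ^ ((1 / 4) : ℝ) * Real.exp (-(Real.pi * y))
      = b ^ (-(1 / 4) : ℝ) * |x| ^ (-(1 / 2) : ℝ) *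
        (y ^ ((1 / 4) : ℝ) * Real.exp (-(Real.pi * y))) := by ring
    _ ≤ b ^ (-(1 / 4) : ℝ) * |x| ^ (-(1 / 2) : ℝ) * Real.exp (-(b / U * x ^ 2)) := by
        gcongr
        exact h3.trans h4
    _ = _ := by ring

lemma psi_trivial {D b y : ℝ} (hb : 0 < b) (hD : b ^ 2 ≤ D) (hy : 0 ≤ y) :
    D ^ (-(1 / 4) : ℝ) * Real.exp (-(Real.pi * y)) ≤ b ^ (-(1 / 2) : ℝ) := by
  have h1 : D ^ (-(1 / 4) : ℝ) ≤ (b ^ 2) ^ (-(1 / 4) : ℝ) :=
    Real.rpow_le_rpow_of_nonpos (by positivity) hD (by norm_num)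
  have h2 : (b ^ 2) ^ (-(1 / 4) : ℝ) = b ^ (-(1 / 2) : ℝ) := by
    rw [← Real.rpow_natCast, ← Real.rpow_mul hb.le]
    norm_num
  have h3 : Real.exp (-(Real.pi * y)) ≤ 1 := by
    rw [Real.exp_le_one_iff]
    have := Real.pi_pos
    nlinarith
  calc D ^ (-(1 / 4) : ℝ) * Real.exp (-(Real.pi * y)) ≤ (b ^ 2) ^ (-(1 / 4) : ℝ) * 1 := by
        gcongr
    _ = _ := by rw [h2, mul_one]

/-- the trichotomy for the main variable -/
lemma one_dim_main {R L a c Z t : ℝ} (hR : 1 ≤ R) (hL : 1 ≤ L) (ha : a = (L / R) ^ 2)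
    (hc1 : R ≤ |c|) (hc2 : |c| ≤ 3 * R) (hZ : Z ≠ 0) :
    ((a ^ 2 + 4 * t ^ 2) ^ (-(1 / 4) : ℝ) *
        Real.exp (-(Real.pi * (a * (Z - 2 * t * c) ^ 2 / (a ^ 2 + 4 * t ^ 2)))) ≤
        (6 * R) ^ ((1 / 2) : ℝ) * |Z| ^ (-(1 / 2) : ℝ) ∧ 4 * t ^ 2 ≤ 9 / 4 * (Z ^ 2 / R ^ 2)) ∨
    ((a ^ 2 + 4 * t ^ 2) ^ (-(1 / 4) : ℝ) *
        Real.exp (-(Real.pi * (a * (Z - 2 * t * c) ^ 2 / (a ^ 2 + 4 * t ^ 2)))) ≤ R / L ∧
        |Z| ≤ L ^ 2 / R ∧ 4 * t ^ 2 ≤ a ^ 2) ∨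
    ((a ^ 2 + 4 * t ^ 2) ^ (-(1 / 4) : ℝ) *
        Real.exp (-(Real.pi * (a * (Z - 2 * t * c) ^ 2 / (a ^ 2 + 4 * t ^ 2)))) ≤
        R / L * Real.exp (-(Real.pi * (L ^ 2 / 18)))) := by
  have hR0 : 0 < R := by linarith
  have hL0 : 0 < L := by linarith
  have ha0 : 0 < a := by rw [ha]; positivity
  have hpi := Real.pi_pos
  set D : ℝ := a ^ 2 + 4 * t ^ 2 with hD
  have hD0 : 0 < D := by positivity
  set W : ℝ := Z - 2 * t * c with hW
  have hq : 0 ≤ a * W ^ 2 / D := by positivity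
  have hexp : Real.exp (-(Real.pi * (a * W ^ 2 / D))) ≤ 1 := by
    rw [Real.exp_le_one_iff]
    nlinarith
  have hZ0 : 0 < |Z| := abs_pos.2 hZ
  have hDa : D ^ (-(1 / 4) : ℝ) ≤ R / L := by
    have h1 : D ^ (-(1 / 4) : ℝ) ≤ (a ^ 2) ^ (-(1 / 4) : ℝ) :=
      Real.rpow_le_rpow_of_nonpos (by positivity) (by rw [hD]; nlinarith [sq_nonneg t]) (by norm_num)
    have h2 : (a ^ 2) ^ (-(1 / 4) : ℝ) = R / L := by
      have h3 : a ^ 2 = (L / R) ^ (4 : ℝ) := by
        rw [ha, ← pow_mul, ← Real.rpow_natCast]; norm_num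
      rw [h3, ← Real.rpow_mul (by positivity), show (4 : ℝ) * (-(1 / 4)) = -1 by norm_num,
        Real.rpow_neg_one, inv_div]
    rw [← h2]; exact h1
  have htri : |2 * t * c| = 2 * |t| * |c| := by
    rw [abs_mul, abs_mul, abs_two]
  rcases lt_or_ge |W| (|Z| / 2) with hcase | hcase
  · left
    have h1 : |Z| / 2 < 2 * |t| * |c| := by
      rw [← htri]
      have : |Z| ≤ |W| + |2 * t * c| := by
        have h := abs_add_le W (2 * t * c)
        have e : W + 2 * t * c = Z := by rw [hW]; ring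
        rw [e] at h; exact h
      linarith
    have h2 : 2 * |t| * |c| < 3 / 2 * |Z| := by
      rw [← htri]
      have : |2 * t * c| ≤ |Z| + |W| := by
        have h := abs_sub Z W
        have e : Z - W = 2 * t * c := by rw [hW]; ring
        rw [e] at h; exact h
      linarith
    have ht0 : 0 ≤ |t| := abs_nonneg t
    have h3 : |Z| / (6 * R) ≤ 2 * |t| := by
      rw [div_le_iff₀ (by positivity)]
      nlinarith
    have h4 : 2 * |t| * R ≤ 3 / 2 * |Z| := by nlinarith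
    have ht1 : 0 < 2 * |t| := lt_of_lt_of_le (by positivity) h3
    constructor
    · have h5 : D ^ (-(1 / 4) : ℝ) ≤ ((2 * |t|) ^ 2) ^ (-(1 / 4) : ℝ) :=
        Real.rpow_le_rpow_of_nonpos (by positivity)
          (by rw [hD, mul_pow, sq_abs]; nlinarith [sq_nonneg a]) (by norm_num)
      have h6 : ((2 * |t|) ^ 2) ^ (-(1 / 4) : ℝ) = (2 * |t|) ^ (-(1 / 2) : ℝ) := by
        rw [← Real.rpow_natCast, ← Real.rpow_mul ht1.le]
        norm_num
      have h7 : (2 * |t|) ^ (-(1 / 2) : ℝ) ≤ (|Z| / (6 * R)) ^ (-(1 / 2) : ℝ) :=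
        Real.rpow_le_rpow_of_nonpos (by positivity) h3 (by norm_num)
      have h8 : (|Z| / (6 * R)) ^ (-(1 / 2) : ℝ) =
          (6 * R) ^ ((1 / 2) : ℝ) * |Z| ^ (-(1 / 2) : ℝ) := by
        rw [Real.div_rpow hZ0.le (by positivity), Real.rpow_neg (by positivity : 0 ≤ 6 * R),
          div_inv_eq_mul, mul_comm]
      calc D ^ (-(1 / 4) : ℝ) * Real.exp (-(Real.pi * (a * W ^ 2 / D)))
          ≤ D ^ (-(1 / 4) : ℝ) * 1 := by gcongr
        _ ≤ _ := by rw [mul_one, ← h8]; exact h5.trans (h6.le.trans h7)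
    · have h5 : (2 * |t| * R) ^ 2 ≤ (3 / 2 * |Z|) ^ 2 := by gcongr
      rw [mul_pow, mul_pow, mul_pow, sq_abs, sq_abs] at h5
      rw [← mul_div_assoc, le_div_iff₀ (by positivity)]
      nlinarith
  · right
    have h1 : 2 * |t| * |c| ≤ 3 * |W| := by
      rw [← htri]
      have : |2 * t * c| ≤ |Z| + |W| := by
        have h := abs_sub Z W
        have e : Z - W = 2 * t * c := by rw [hW]; ring
        rw [e] at h; exact h
      linarith
    have ht0 : 0 ≤ |t| := abs_nonneg t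
    have h2 : 2 * |t| * R ≤ 3 * |W| := by nlinarith
    have h3 : 4 * t ^ 2 * R ^ 2 ≤ 9 * W ^ 2 := by
      have h5 : (2 * |t| * R) ^ 2 ≤ (3 * |W|) ^ 2 := by gcongr
      rw [mul_pow, mul_pow, mul_pow, sq_abs, sq_abs] at h5
      linarith
    have h4 : Z ^ 2 ≤ 4 * W ^ 2 := by
      have h5 : (|Z| / 2) ^ 2 ≤ |W| ^ 2 := by gcongr
      rw [div_pow, sq_abs, sq_abs] at h5
      linarith
    have haR : a * R ^ 2 = L ^ 2 := by rw [ha]; field_simp
    have fin : L ^ 2 / 18 ≤ a * W ^ 2 / D → D ^ (-(1 / 4) : ℝ) *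
        Real.exp (-(Real.pi * (a * W ^ 2 / D))) ≤ R / L * Real.exp (-(Real.pi * (L ^ 2 / 18))) := by
      intro h
      gcongr
    rcases le_total (a ^ 2) (4 * t ^ 2) with hta | hta
    · right
      apply fin
      rw [le_div_iff₀ hD0]
      have h5 : D ≤ 8 * t ^ 2 := by rw [hD]; linarith
      have h6 : L ^ 2 / 18 * D ≤ L ^ 2 / 18 * (8 * t ^ 2) := by gcongr
      refine h6.trans ?_
      rw [← haR]
      have h7 : a * (4 * t ^ 2 * R ^ 2) ≤ a * (9 * W ^ 2) := by gcongr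
      nlinarith
    · rcases le_total |Z| (L ^ 2 / R) with hz | hz
      · left
        refine ⟨?_, hz, hta⟩
        calc D ^ (-(1 / 4) : ℝ) * Real.exp (-(Real.pi * (a * W ^ 2 / D)))
            ≤ D ^ (-(1 / 4) : ℝ) * 1 := by gcongr
          _ ≤ R / L := by rw [mul_one]; exact hDa
      · right
        apply fin
        rw [le_div_iff₀ hD0]
        have h5 : D ≤ 2 * a ^ 2 := by rw [hD]; linarith
        have h6 : L ^ 2 / 18 * D ≤ L ^ 2 / 18 * (2 * a ^ 2) := by gcongr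
        refine h6.trans ?_
        have h7 : (L ^ 2 / R) ^ 2 ≤ Z ^ 2 := by
          rw [← sq_abs Z]; gcongr
        have h8 : (L ^ 2 / R) ^ 2 = a * L ^ 2 := by rw [ha]; ring
        rw [h8] at h7
        have h9 : a * (a * L ^ 2) ≤ a * (4 * W ^ 2) :=
          mul_le_mul_of_nonneg_left (h7.trans h4) ha0.le
        nlinarith [mul_nonneg ha0.le (sq_nonneg W)]

end Vale.Agent.P076.R2.H45
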