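import Vale.Agent.P076.R2.H45.Gau
import Vale.Agent.P076.R2.H305.Gauss

/-!
# The TT* bound for one Gaussian in general position
-/

open MeasureTheory Complex FourierTransform Filter Topology Set
open scoped ENNReal NNReal

namespace Vale.Agent.P076.R2.H45

open Vale.Agent.P076 Vale.Agent.P076.H791

variable {n : ℕ}

lemma ph_rot (U : E n ≃ₗᵢ[ℝ] E n) (x : E n) (s : ℝ) (η : E n) :
    ph (U x) s 0 (U η) = ph x s 0 η := by
  unfold ph
  rw [U.inner_map_map, U.norm_map]

lemma TTr.rot {r : ℕ} {V : E n → ℝ≥0∞} {S : ℝ≥0∞} (h : TTr r V S) (U : E n ≃ₗᵢ[ℝ] E n) :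
    TTr r (fun η => V (U η)) S := by
  intro A s g a
  have hU : MeasurePreserving U volume volume := U.measurePreserving
  have hUe : MeasurableEmbedding U := U.toHomeomorph.measurableEmbedding
  have hUm : Measurable U.symm := U.symm.continuous.measurable
  set A' : Set (E n) := U.symm ⁻¹' A with hA'
  have hAA : U ⁻¹' A' = A := by
    ext x
    simp [hA']
  have hA'm : MeasurableSet A' := hUm a.mA
  have a' : Adm r A' (fun y => s (U.symm y)) (fun y => g (U.symm y)) := by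
    refine ⟨hA'm, fun y hy => ?_, a.ms.comp hUm, fun y => a.bs _, a.mh.comp hUm, fun y => a.bh _⟩
    have h1 := a.sub hy
    rw [mem_ball_zero_iff] at h1 ⊢
    rwa [U.symm.norm_map] at h1
  have e1 : ∀ η, Phi A s g η = Phi A' (fun y => s (U.symm y)) (fun y => g (U.symm y)) (U η) := by
    intro η
    unfold Phi
    rw [← hU.setIntegral_preimage_emb hUe _ A', hAA]
    refine integral_congr_ae (Eventually.of_forall fun x => ?_)
    simp only [LinearIsometryEquiv.symm_apply_apply]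
    rw [ph_rot]
  have e2 : volume A = volume A' := by
    rw [← hAA, hU.measure_preimage hA'm.nullMeasurableSet]
  have h1 := h A' _ _ a'
  rw [← e2] at h1
  refine le_trans (le_of_eq ?_) h1
  rw [← hU.lintegral_comp_emb hUe
    (fun η => V η * ‖Phi A' (fun y => s (U.symm y)) (fun y => g (U.symm y)) η‖ₑ ^ 2)]
  exact lintegral_congr fun η => by rw [e1]

lemma exists_rot {e : E n} (he : ‖e‖ = 1) (i0 : Fin n) :
    ∃ U : E n ≃ₗᵢ[ℝ] E n, ∀ η, (U η) i0 = inner ℝ η e := by
  have hv : Orthonormal ℝ (({i0} : Set (Fin n)).domRestrict fun _ : Fin n => e) := by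
    refine ⟨fun i => he, fun i j hij => ?_⟩
    exact absurd (Subsingleton.elim i j) hij
  obtain ⟨b, hb⟩ := hv.exists_orthonormalBasis_extension_of_card_eq
    (by simp : Module.finrank ℝ (E n) = Fintype.card (Fin n))
  refine ⟨b.repr, fun η => ?_⟩
  rw [b.repr_apply_apply, hb i0 rfl, real_inner_comm]

/-- the Gaussian at `c e` with width `R / L` along `e` and width `σ` across -/
noncomputable def gg (e : E n) (R L σ c : ℝ) (η : E n) : ℝ :=
  Real.exp (-(Real.pi * ((L / R) ^ 2 * (inner ℝ η e - c) ^ 2 +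
    (σ ^ 2)⁻¹ * (‖η‖ ^ 2 - (inner ℝ η e) ^ 2))))

lemma measurable_gg (e : E n) (R L σ c : ℝ) : Measurable (gg e R L σ c) := by
  unfold gg
  fun_prop

lemma gd_eq (i0 : Fin n) (R L σ c : ℝ) (y : E n) :
    gd i0 R L σ c y = Real.exp (-(Real.pi * ((L / R) ^ 2 * (y i0 - c) ^ 2 +
      (σ ^ 2)⁻¹ * (‖y‖ ^ 2 - (y i0) ^ 2)))) := by
  classical
  have h1 : ∑ i, aa i0 ((L / R) ^ 2) ((σ ^ 2)⁻¹) i * (y i - aa i0 c 0 i) ^ 2 =
      (L / R) ^ 2 * (y i0 - c) ^ 2 + (σ ^ 2)⁻¹ * (‖y‖ ^ 2 - (y i0) ^ 2) := by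
    rw [EuclideanSpace.norm_sq_eq, ← Finset.add_sum_erase Finset.univ _ (Finset.mem_univ i0),
      ← Finset.add_sum_erase Finset.univ (fun i => ‖y i‖ ^ 2) (Finset.mem_univ i0)]
    congr 1
    · simp [aa]
    · rw [Real.norm_eq_abs, sq_abs, add_sub_cancel_left, Finset.mul_sum]
      refine Finset.sum_congr rfl fun i hi => ?_
      have hi' := Finset.ne_of_mem_erase hi
      rw [Real.norm_eq_abs, sq_abs]
      simp [aa, hi']
  unfold gd
  rw [h1]

/-- **one Gaussian** -/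
theorem TTr_gg (hn : 1 ≤ n) (r : ℕ) {K C0 : ℝ} (hC0 : 0 ≤ C0) :
    ∃ C : ℝ, 0 ≤ C ∧ ∀ R L σ c : ℝ, Par n R L σ c K C0 → ∀ e : E n, ‖e‖ = 1 →
      TTr r (fun η => ENNReal.ofReal (gg e R L σ c η))
        (ENNReal.ofReal (C * (√R * (σ / √R) ^ (n - 1)))) := by
  obtain ⟨C, hC, h⟩ := TTr_diag (n := n) (fun a c ha z t => H305.norm_Ker_gauss a c ha z t)
    (fun a c ha => H305.integrable_gauss a c ha) ⟨0, hn⟩ r (K := K) hC0
  refine ⟨C, hC, fun R L σ c hP e he => ?_⟩
  obtain ⟨U, hU⟩ := exists_rot he ⟨0, hn⟩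
  refine ((h R L σ c hP).rot U).mono (fun η => le_of_eq ?_) le_rfl
  rw [gd_eq, hU, U.norm_map, gg]

/-- the trivial bound -/
theorem TTr_triv (r : ℕ) {V : E n → ℝ≥0∞} (hV : Measurable V) :
    TTr r V ((∫⁻ η, V η) * volume (Metric.ball (0 : E n) r)) := by
  intro A s g a
  have hAf := a.vol
  have hA : volume A ≤ volume (Metric.ball (0 : E n) r) := measure_mono a.sub
  have h1 : ∀ η, ‖Phi A s g η‖ₑ ≤ volume A := by
    intro η
    unfold Phi
    refine (enorm_integral_le_lintegral_enorm _).trans ?_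
    calc ∫⁻ x in A, ‖g x * ph x (s x) 0 η‖ₑ ≤ ∫⁻ x in A, 1 := by
          refine lintegral_mono fun x => ?_
          rw [← ofReal_norm, ← ENNReal.ofReal_one]
          exact ENNReal.ofReal_le_ofReal (norm_kern_le a.bh _ _)
      _ = volume A := by simp
  calc ∫⁻ η, V η * ‖Phi A s g η‖ₑ ^ 2
      ≤ ∫⁻ η, V η * (volume (Metric.ball (0 : E n) r) * volume A) := by
        refine lintegral_mono fun η => ?_
        rw [sq]
        gcongr
        · exact (h1 η).trans hA
        · exact h1 η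
    _ = (∫⁻ η, V η) * volume (Metric.ball (0 : E n) r) * volume A := by
        rw [lintegral_mul_const _ hV, mul_assoc]

end Vale.Agent.P076.R2.H45
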