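import Vale.Agent.P076.H791.Law

/-!
# The maximal principle from a TT* estimate
-/

open MeasureTheory Complex FourierTransform Filter Topology Set
open scoped ENNReal NNReal

namespace Vale.Agent.P076.R2.H45

open Vale.Agent.P076 Vale.Agent.P076.H791

variable {n : ℕ} {w : E n → ℝ≥0∞} {G : E n → ℂ}

/-- the adjoint of the linearised maximal operator -/
noncomputable def Phi (A : Set (E n)) (s : E n → ℝ) (h : E n → ℂ) (η : E n) : ℂ :=
  ∫ x in A, h x * ph x (s x) 0 η

/-- admissible linearisations in the ball of radius `r` -/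
structure Adm (r : ℕ) (A : Set (E n)) (s : E n → ℝ) (h : E n → ℂ) : Prop where
  mA : MeasurableSet A
  sub : A ⊆ Metric.ball 0 r
  ms : Measurable s
  bs : ∀ x, |s x| ≤ r
  mh : Measurable h
  bh : ∀ x, ‖h x‖ ≤ 1

/-- the TT* estimate for a density `V` on the frequency side -/
def TTr (r : ℕ) (V : E n → ℝ≥0∞) (S : ℝ≥0∞) : Prop :=
  ∀ (A : Set (E n)) (s : E n → ℝ) (h : E n → ℂ), Adm r A s h →
    ∫⁻ η, V η * ‖Phi A s h η‖ₑ ^ 2 ≤ S * volume A

lemma Adm.vol {r : ℕ} {A : Set (E n)} {s : E n → ℝ} {h : E n → ℂ} (a : Adm r A s h) :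
    volume A < ⊤ := (measure_mono a.sub).trans_lt measure_ball_lt_top

lemma continuous_ph2 : Continuous fun p : (E n × ℝ) × E n => ph p.1.1 p.1.2 0 p.2 := by
  unfold ph
  fun_prop

lemma measurable_evo_time (hG : Integrable G) {s : E n → ℝ} (hsm : Measurable s) :
    Measurable fun x : E n => evo G x (s x) 0 := by
  have h2 : Measurable fun x : E n => ((x, s x) : E n × ℝ) := measurable_id.prodMk hsm
  have h3 := Measurable.comp (continuous_evo hG).measurable h2
  simpa only [Function.comp_def] using h3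

lemma measurable_kern {s : E n → ℝ} {h : E n → ℂ} (ms : Measurable s) (mh : Measurable h) :
    Measurable fun p : E n × E n => h p.1 * ph p.1 (s p.1) 0 p.2 := by
  have h1 : Measurable fun p : E n × E n => h p.1 := mh.comp measurable_fst
  have h2 : Measurable fun p : E n × E n => (((p.1, s p.1), p.2) : (E n × ℝ) × E n) :=
    (measurable_fst.prodMk (ms.comp measurable_fst)).prodMk measurable_snd
  have h3 := Measurable.comp continuous_ph2.measurable h2
  simp only [Function.comp_def] at h3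
  exact h1.mul h3

lemma norm_ph_zero (x : E n) (t : ℝ) (η : E n) : ‖ph x t 0 η‖ = 1 := by
  rw [norm_ph]; simp

lemma norm_kern_le {s : E n → ℝ} {h : E n → ℂ} (bh : ∀ x, ‖h x‖ ≤ 1) (x η : E n) :
    ‖h x * ph x (s x) 0 η‖ ≤ 1 := by
  rw [norm_mul, norm_ph_zero, mul_one]
  exact bh x

lemma measurable_Phi {A : Set (E n)} {s : E n → ℝ} {h : E n → ℂ} (ms : Measurable s)
    (mh : Measurable h) : Measurable (Phi A s h) := by
  have h1 : StronglyMeasurable fun p : E n × E n => h p.2 * ph p.2 (s p.2) 0 p.1 :=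
    ((measurable_kern ms mh).comp measurable_swap).stronglyMeasurable
  exact (h1.integral_prod_right (ν := (volume : Measure (E n)).restrict A)).measurable

/-- a measurable choice of the time -/
lemma exists_time (hG : Integrable G) (r : ℕ) (ε : ℝ) :
    ∃ s : E n → ℝ, Measurable s ∧ (∀ x, |s x| ≤ r) ∧
      ∀ x ∈ mset G (Ioo (-(r : ℝ)) r) ε, ε < ‖evo G x (s x) 0‖ := by
  classical
  obtain ⟨q, hq⟩ : ∃ q : ℕ → ℚ, Function.Surjective q := exists_surjective_nat ℚ
  set P : ℕ → E n → Prop := fun m x =>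
    (q m : ℝ) ∈ Ioo (-(r : ℝ)) r ∧ ε < ‖evo G x (q m) 0‖ with hP
  have hcov : ∀ x ∈ mset G (Ioo (-(r : ℝ)) r) ε, ∃ m : ℕ, P m x := by
    rintro x ⟨s, hs, hx⟩
    have hc : Continuous fun t : ℝ => ‖evo G x t 0‖ := by
      have h1 := continuous_evo hG
      exact (h1.comp (continuous_const.prodMk continuous_id)).norm
    have ho : IsOpen (Ioo (-(r : ℝ)) r ∩ {t | ε < ‖evo G x t 0‖}) :=
      isOpen_Ioo.inter (isOpen_lt continuous_const hc)
    obtain ⟨t, ht⟩ := (Rat.denseRange_cast (𝕜 := ℝ)).exists_mem_open ho ⟨s, hs, hx⟩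
    obtain ⟨m, rfl⟩ := hq t
    exact ⟨m, ht.1, ht.2⟩
  have hPm : ∀ m, MeasurableSet {x | P m x} := by
    intro m
    by_cases h : (q m : ℝ) ∈ Ioo (-(r : ℝ)) r
    · have : {x | P m x} = {x | ε < ‖evo G x (q m) 0‖} := by
        ext x; exact ⟨fun hx => hx.2, fun hx => ⟨h, hx⟩⟩
      rw [this]
      exact (isOpen_lt continuous_const (continuous_evo_x hG _).norm).measurableSet
    · have : {x | P m x} = ∅ := by
        ext x; exact ⟨fun hx => h hx.1, fun hx => hx.elim⟩
      rw [this]
      exact MeasurableSet.empty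
  set p : ℕ → E n → Prop := fun m x => match m with
    | 0 => ∀ m, ¬ P m x
    | m + 1 => P m x with hp
  set f : ℕ → E n → ℝ := fun m _ => match m with
    | 0 => 0
    | m + 1 => (q m : ℝ) with hf
  have hex : ∀ x, ∃ m, p m x := by
    intro x
    by_cases h : ∃ m, P m x
    · obtain ⟨m, hm⟩ := h
      exact ⟨m + 1, hm⟩
    · exact ⟨0, fun m hm => h ⟨m, hm⟩⟩
  have hpm : ∀ m, MeasurableSet {x | p m x} := by
    intro m
    cases m with
    | zero =>
      have : {x | p 0 x} = ⋂ m, {x | P m x}ᶜ := by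
        ext x
        simp only [hp, Set.mem_ofPred_eq, mem_iInter, mem_compl_iff]
      rw [this]
      exact MeasurableSet.iInter fun m => (hPm m).compl
    | succ m => exact hPm m
  have hfm : ∀ m, Measurable (f m) := fun m => measurable_const
  have k1 : ∀ m x, p m x → |f m x| ≤ r := by
    intro m x hx
    cases m with
    | zero => simp [hf]
    | succ m =>
      have h2 : P m x := hx
      have h3 := h2.1
      rw [mem_Ioo] at h3
      exact (abs_lt.2 h3).le
  have k2 : ∀ m x, x ∈ mset G (Ioo (-(r : ℝ)) r) ε → p m x → ε < ‖evo G x (f m x) 0‖ := by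
    intro m x hx hm
    cases m with
    | zero =>
      obtain ⟨m, hm'⟩ := hcov x hx
      exact absurd hm' (hm m)
    | succ m =>
      have h2 : P m x := hm
      exact h2.2
  exact ⟨fun x => f (Nat.find (hex x)) x, Measurable.find hfm hpm hex,
    fun x => k1 _ x (Nat.find_spec (hex x)), fun x hx => k2 _ x hx (Nat.find_spec (hex x))⟩

lemma young {a b W : ℝ≥0∞} (hW : 1 ≤ W) {l : ℝ} (hl : 0 < l) (ha : a ≠ ⊤) (hb : b ≠ ⊤) :
    a * b ≤ ENNReal.ofReal (l / 2) * (W⁻¹ * a ^ 2) + ENNReal.ofReal (1 / (2 * l)) * (W * b ^ 2) := by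
  by_cases hWt : W = ⊤
  · subst hWt
    by_cases hb0 : b = 0
    · subst hb0; simp
    · have : ENNReal.ofReal (1 / (2 * l)) * (⊤ * b ^ 2) = ⊤ := by
        rw [ENNReal.top_mul (by positivity), ENNReal.mul_top]
        simp only [ne_eq, ENNReal.ofReal_eq_zero, not_le]
        positivity
      rw [this]
      simp
  · lift a to ℝ≥0 using ha
    lift b to ℝ≥0 using hb
    lift W to ℝ≥0 using hWt
    have hW0 : (0 : ℝ) < W := by
      have : (1 : ℝ≥0) ≤ W := by exact_mod_cast hW
      exact lt_of_lt_of_le one_pos (by exact_mod_cast this)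
    have hWn : W ≠ 0 := by
      intro h; rw [h] at hW0; simp at hW0
    rw [← ENNReal.coe_inv hWn]
    unfold ENNReal.ofReal
    norm_cast
    rw [← NNReal.coe_le_coe]
    push_cast
    rw [Real.coe_toNNReal _ (by positivity), Real.coe_toNNReal _ (by positivity)]
    have h1 : 0 ≤ (l * a - W * b) ^ 2 / (2 * l * W) := by positivity
    have h2 : l / 2 * ((W : ℝ)⁻¹ * (a : ℝ) ^ 2) + 1 / (2 * l) * (W * (b : ℝ) ^ 2) - a * b =
        (l * a - W * b) ^ 2 / (2 * l * W) := by
      field_simp
      ring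
    linarith

/-- the phase that makes `z` nonnegative -/
noncomputable def cph (z : ℂ) : ℂ := (starRingEnd ℂ z) / ‖z‖

lemma norm_cph_le (z : ℂ) : ‖cph z‖ ≤ 1 := by
  rw [cph, norm_div, RCLike.norm_conj, Complex.norm_real, norm_norm]
  exact div_self_le_one _

lemma cph_mul (z : ℂ) : cph z * z = (‖z‖ : ℂ) := by
  rw [cph]
  by_cases h0 : z = 0
  · simp [h0]
  · have h1 : (‖z‖ : ℂ) ≠ 0 := by
      rw [ne_eq, Complex.ofReal_eq_zero, norm_eq_zero]; exact h0
    rw [div_mul_eq_mul_div, div_eq_iff h1, mul_comm, Complex.mul_conj, Complex.normSq_eq_norm_sq]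
    push_cast
    ring

lemma measurable_cph : Measurable cph := by
  unfold cph
  exact Complex.continuous_conj.measurable.div (Complex.measurable_ofReal.comp measurable_norm)

/-- duality -/
lemma duality (hG : Integrable G) (hGm : Measurable G) {A : Set (E n)} (hAf : volume A < ⊤)
    {s : E n → ℝ} (hsm : Measurable s) :
    ((∫ x in A, ‖evo G x (s x) 0‖ : ℝ) : ℂ) =
      ∫ η, Phi A s (fun x => cph (evo G x (s x) 0)) η * G η := by
  have hzm : Measurable fun x => evo G x (s x) 0 := measurable_evo_time hG hsm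
  set h : E n → ℂ := fun x => cph (evo G x (s x) 0) with hh
  have hhm : Measurable h := measurable_cph.comp hzm
  have hhb : ∀ x, ‖h x‖ ≤ 1 := fun x => norm_cph_le _
  have hfin : IsFiniteMeasure ((volume : Measure (E n)).restrict A) :=
    ⟨by rw [Measure.restrict_apply_univ]; exact hAf⟩
  rw [← integral_complex_ofReal]
  have h1 : ∀ x, ((‖evo G x (s x) 0‖ : ℝ) : ℂ) = ∫ η, h x * ph x (s x) 0 η * G η := by
    intro x
    rw [← cph_mul, evo_eq, ← integral_const_mul]
    refine integral_congr_ae (Eventually.of_forall fun η => ?_)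
    simp only [hh, evo_eq]
    ring
  have h2 : ∫ x in A, ((‖evo G x (s x) 0‖ : ℝ) : ℂ) = ∫ x in A, ∫ η, h x * ph x (s x) 0 η * G η :=
    integral_congr_ae (Eventually.of_forall fun x => h1 x)
  refine h2.trans ?_
  rw [integral_integral_swap]
  · refine integral_congr_ae (Eventually.of_forall fun η => ?_)
    simp only [Phi]
    rw [← integral_mul_const]
  · have h3 : Integrable (fun p : E n × E n => ‖G p.2‖)
        (((volume : Measure (E n)).restrict A).prod volume) := by
      have := (integrable_const (1 : ℝ) (μ := (volume : Measure (E n)).restrict A)).mul_prod hG.norm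
      simpa using this
    refine Integrable.mono' h3 ?_ (Eventually.of_forall fun p => ?_)
    · exact ((measurable_kern hsm hhm).mul (hGm.comp measurable_snd)).aestronglyMeasurable
    · simp only [Function.uncurry]
      rw [norm_mul]
      exact mul_le_of_le_one_left (norm_nonneg _) (norm_kern_le hhb _ _)

lemma upper (hG : Integrable G) (hGm : Measurable G) (hw : Measurable w) (hw1 : ∀ η, 1 ≤ w η)
    {A : Set (E n)} (hAf : volume A < ⊤) {s : E n → ℝ} (hsm : Measurable s) {S : ℝ≥0∞}
    (hb : ∫⁻ η, (w η)⁻¹ * ‖Phi A s (fun x => cph (evo G x (s x) 0)) η‖ₑ ^ 2 ≤ S * volume A)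
    {l : ℝ} (hl0 : 0 < l) :
    ENNReal.ofReal (∫ x in A, ‖evo G x (s x) 0‖) ≤
      ENNReal.ofReal (l / 2) * (S * volume A) + ENNReal.ofReal (1 / (2 * l)) * En w G := by
  have hzm : Measurable fun x => evo G x (s x) 0 := measurable_evo_time hG hsm
  have hPm := measurable_Phi (A := A) hsm (measurable_cph.comp hzm)
  have h1 : ENNReal.ofReal (∫ x in A, ‖evo G x (s x) 0‖) =
      ‖((∫ x in A, ‖evo G x (s x) 0‖ : ℝ) : ℂ)‖ₑ := by
    rw [← ofReal_norm, Complex.norm_real, Real.norm_eq_abs,
      abs_of_nonneg (integral_nonneg fun x => norm_nonneg _)]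
  rw [h1, duality hG hGm hAf hsm]
  refine (enorm_integral_le_lintegral_enorm _).trans ?_
  refine (lintegral_mono (g := fun η => ENNReal.ofReal (l / 2) *
        ((w η)⁻¹ * ‖Phi A s (fun x => cph (evo G x (s x) 0)) η‖ₑ ^ 2) +
        ENNReal.ofReal (1 / (2 * l)) * (w η * ‖G η‖ₑ ^ 2)) fun η => ?_).trans ?_
  · simp only
    rw [enorm_mul]
    exact young (hw1 η) hl0 enorm_ne_top enorm_ne_top
  · rw [lintegral_add_left, lintegral_const_mul, lintegral_const_mul]
    · unfold En
      gcongr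
    · exact hw.mul (hGm.enorm.pow_const 2)
    · exact hw.inv.mul (hPm.enorm.pow_const 2)
    · exact (hw.inv.mul (hPm.enorm.pow_const 2)).const_mul _

lemma lower (hG : Integrable G) {A : Set (E n)} (hAm : MeasurableSet A) (hAf : volume A < ⊤)
    {s : E n → ℝ} (hsm : Measurable s) {ε : ℝ} (hs : ∀ x ∈ A, ε < ‖evo G x (s x) 0‖) :
    ε * (volume : Measure (E n)).real A ≤ ∫ x in A, ‖evo G x (s x) 0‖ := by
  have hzm : Measurable fun x => evo G x (s x) 0 := measurable_evo_time hG hsm
  have hfin : IsFiniteMeasure ((volume : Measure (E n)).restrict A) :=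
    ⟨by rw [Measure.restrict_apply_univ]; exact hAf⟩
  have hzi : IntegrableOn (fun x => ‖evo G x (s x) 0‖) A := by
    refine Integrable.mono' (integrable_const (∫ η, ‖G η‖)) hzm.norm.aestronglyMeasurable
      (Eventually.of_forall fun x => ?_)
    rw [norm_norm]; exact norm_evo_le hG x (s x) le_rfl
  have h1 : ∫ _ in A, ε ≤ ∫ x in A, ‖evo G x (s x) 0‖ :=
    setIntegral_mono_on (integrable_const _) hzi hAm fun x hx => (hs x hx).le
  rw [setIntegral_const, smul_eq_mul, mul_comm] at h1
  exact h1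

/-- **MP from TT*.** -/
theorem MP_of_TT (hw : Measurable w) (hw1 : ∀ η, 1 ≤ w η)
    (hT : ∀ r : ℕ, ∃ S : ℝ≥0, TTr r (fun η => (w η)⁻¹) S) : MP w := by
  intro r ε hε
  obtain ⟨S, hS⟩ := hT r
  refine ⟨ENNReal.ofReal (ε ^ 3 / (S + 1)), by
    rw [ENNReal.ofReal_pos]; positivity, fun G hG hE => ?_⟩
  have hGi := hG.integrable
  have hGm := hG.meas
  have hen := hG.en
  obtain ⟨s, hsm, hsb, hs⟩ := exists_time hGi r ε
  have hAm : MeasurableSet (mset G (Ioo (-(r : ℝ)) r) ε ∩ Metric.ball 0 r) :=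
    (isOpen_mset hGi _ _).measurableSet.inter Metric.isOpen_ball.measurableSet
  have hsub : mset G (Ioo (-(r : ℝ)) r) ε ∩ Metric.ball 0 r ⊆ Metric.ball 0 r := inter_subset_right
  have hs' : ∀ x ∈ mset G (Ioo (-(r : ℝ)) r) ε ∩ Metric.ball 0 r, ε < ‖evo G x (s x) 0‖ :=
    fun x hx => hs x hx.1
  generalize mset G (Ioo (-(r : ℝ)) r) ε ∩ Metric.ball 0 r = A at hAm hsub hs'
  have hAf : volume A < ⊤ := (measure_mono hsub).trans_lt measure_ball_lt_top
  have hzm : Measurable fun x => evo G x (s x) 0 := measurable_evo_time hGi hsm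
  have hb := hS A s (fun x => cph (evo G x (s x) 0))
    ⟨hAm, hsub, hsm, hsb, measurable_cph.comp hzm, fun x => norm_cph_le _⟩
  have hlow := lower hGi hAm hAf hsm hs'
  set l : ℝ := ε / (S + 1) with hl
  have hl0 : 0 < l := by positivity
  have hup := upper hGi hGm hw hw1 hAf hsm hb hl0
  set V : ℝ := (volume : Measure (E n)).real A with hV
  have hV0 : 0 ≤ V := measureReal_nonneg
  have hVA : volume A = ENNReal.ofReal V := (ofReal_measureReal hAf.ne).symm
  have hE' : En w G = ENNReal.ofReal (En w G).toReal := (ENNReal.ofReal_toReal hen.ne).symm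
  have he0 : 0 ≤ (En w G).toReal := ENNReal.toReal_nonneg
  have hee : (En w G).toReal ≤ ε ^ 3 / (S + 1) := by
    have := ENNReal.toReal_mono ENNReal.ofReal_ne_top hE
    rwa [ENNReal.toReal_ofReal (by positivity)] at this
  have hfinal : ε * V ≤ l / 2 * (S * V) + 1 / (2 * l) * (En w G).toReal := by
    have h1 := (ENNReal.ofReal_le_ofReal hlow).trans hup
    rw [hVA, hE', ← ENNReal.ofReal_coe_nnreal, ← ENNReal.ofReal_mul (by positivity),
      ← ENNReal.ofReal_mul (by positivity), ← ENNReal.ofReal_mul (by positivity),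
      ← ENNReal.ofReal_add (by positivity) (by positivity)] at h1
    exact (ENNReal.ofReal_le_ofReal_iff (by positivity)).1 h1
  generalize (En w G).toReal = e at he0 hee hfinal
  rw [hVA]
  refine ENNReal.ofReal_le_ofReal ?_
  have h3 : l / 2 * (S * V) ≤ ε / 2 * V := by
    have h4 : l * S ≤ ε := by
      rw [hl, div_mul_eq_mul_div, div_le_iff₀ (by positivity)]
      have : (0 : ℝ) ≤ S := S.coe_nonneg
      nlinarith
    nlinarith
  have h5 : ε / 2 * V ≤ 1 / (2 * l) * e := by linarith
  have h6 : 1 / (2 * l) * e ≤ ε ^ 2 / 2 := by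
    rw [hl]
    calc 1 / (2 * (ε / (S + 1))) * e ≤ 1 / (2 * (ε / (S + 1))) * (ε ^ 3 / (S + 1)) := by gcongr
      _ = ε ^ 2 / 2 := by field_simp
  nlinarith

end Vale.Agent.P076.R2.H45
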