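import Vale.Agent.P076.R2.H45.Kern

/-!
# The maximal principle along a set of times from a restricted TT* estimate
-/

open MeasureTheory Complex FourierTransform Filter Topology Set
open scoped ENNReal NNReal

namespace Vale.Agent.P076.R2.H45

open Vale.Agent.P076 Vale.Agent.P076.H791

variable {n : ℕ} {w : E n → ℝ≥0∞} {G : E n → ℂ}

/-- the maximal principle along the set of times `T` -/
def MPT (w : E n → ℝ≥0∞) (T : Set ℝ) : Prop :=
  ∀ (r : ℕ) (ε : ℝ), 0 < ε → ∃ δ : ℝ≥0∞, 0 < δ ∧ ∀ G : E n → ℂ, Nice w G → En w G ≤ δ →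
    volume (mset G (T ∩ Ioo (-(r : ℝ)) r) ε ∩ Metric.ball 0 r) ≤ ENNReal.ofReal ε

/-- the TT* estimate for times in `T` -/
def TTT (T : Set ℝ) (r : ℕ) (V : E n → ℝ≥0∞) (S : ℝ≥0∞) : Prop :=
  ∀ (A : Set (E n)) (s : E n → ℝ) (h : E n → ℂ), Adm r A s h → (∀ x ∈ A, s x ∈ T) →
    ∫⁻ η, V η * ‖Phi A s h η‖ₑ ^ 2 ≤ S * volume A

/-- a measurable choice of the time in a countable set -/
lemma exists_timeT (hG : Integrable G) {T : Set ℝ} (hT : T.Countable) (r : ℕ) (ε : ℝ) :
    ∃ s : E n → ℝ, Measurable s ∧ (∀ x, |s x| ≤ r) ∧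
      ∀ x ∈ mset G (T ∩ Ioo (-(r : ℝ)) r) ε, s x ∈ T ∧ ε < ‖evo G x (s x) 0‖ := by
  classical
  by_cases hne : (T ∩ Ioo (-(r : ℝ)) r).Nonempty
  · obtain ⟨q, hq⟩ := (hT.mono inter_subset_left : (T ∩ Ioo (-(r : ℝ)) r).Countable).exists_eq_range hne
    set P : ℕ → E n → Prop := fun m x => ε < ‖evo G x (q m) 0‖ with hP
    have hqm : ∀ m, q m ∈ T ∩ Ioo (-(r : ℝ)) r := fun m => hq ▸ mem_range_self m
    have hcov : ∀ x ∈ mset G (T ∩ Ioo (-(r : ℝ)) r) ε, ∃ m : ℕ, P m x := by
      rintro x ⟨s, hs, hx⟩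
      rw [hq] at hs
      obtain ⟨m, rfl⟩ := hs
      exact ⟨m, hx⟩
    have hPm : ∀ m, MeasurableSet {x | P m x} := fun m =>
      (isOpen_lt continuous_const (continuous_evo_x hG _).norm).measurableSet
    set p : ℕ → E n → Prop := fun m x => match m with
      | 0 => ∀ m, ¬ P m x
      | m + 1 => P m x with hp
    set f : ℕ → E n → ℝ := fun m _ => match m with
      | 0 => 0
      | m + 1 => q m with hf
    have hex : ∀ x, ∃ m, p m x := by
      intro x
      by_cases h : ∃ m, P m x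
      · obtain ⟨m, hm⟩ := h
        exact ⟨m + 1, hm⟩
      · exact ⟨0, fun m hm => h ⟨m, hm⟩⟩
    have hpm : ∀ m, MeasurableSet {x | p m x} := by
      intro m
      cases m with
      | zero =>
        have : {x | p 0 x} = ⋂ m, {x | P m x}ᶜ := by
          ext x
          simp only [hp, Set.mem_ofPred_eq, mem_iInter, mem_compl_iff]
        rw [this]
        exact MeasurableSet.iInter fun m => (hPm m).compl
      | succ m => exact hPm m
    have hfm : ∀ m, Measurable (f m) := fun m => measurable_const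
    have k1 : ∀ m x, p m x → |f m x| ≤ r := by
      intro m x _
      cases m with
      | zero => simp [hf]
      | succ m =>
        have h3 := (hqm m).2
        rw [mem_Ioo] at h3
        exact (abs_lt.2 h3).le
    have k2 : ∀ m x, x ∈ mset G (T ∩ Ioo (-(r : ℝ)) r) ε → p m x →
        f m x ∈ T ∧ ε < ‖evo G x (f m x) 0‖ := by
      intro m x hx hm
      cases m with
      | zero =>
        obtain ⟨m, hm'⟩ := hcov x hx
        exact absurd hm' (hm m)
      | succ m =>
        have h2 : P m x := hm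
        exact ⟨(hqm m).1, h2⟩
    exact ⟨fun x => f (Nat.find (hex x)) x, Measurable.find hfm hpm hex,
      fun x => k1 _ x (Nat.find_spec (hex x)), fun x hx => k2 _ x hx (Nat.find_spec (hex x))⟩
  · refine ⟨fun _ => 0, measurable_const, fun x => by simp, ?_⟩
    rintro x ⟨s, hs, _⟩
    exact absurd ⟨s, hs⟩ hne

/-- **MP along `T` from TT\*.** -/
theorem MPT_of_TT {T : Set ℝ} (hTc : T.Countable) (hw : Measurable w) (hw1 : ∀ η, 1 ≤ w η)
    (hT : ∀ r : ℕ, ∃ S : ℝ≥0, TTT T r (fun η => (w η)⁻¹) S) : MPT w T := by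
  intro r ε hε
  obtain ⟨S, hS⟩ := hT r
  refine ⟨ENNReal.ofReal (ε ^ 3 / (S + 1)), by
    rw [ENNReal.ofReal_pos]; positivity, fun G hG hE => ?_⟩
  have hGi := hG.integrable
  have hGm := hG.meas
  have hen := hG.en
  obtain ⟨s, hsm, hsb, hs⟩ := exists_timeT hGi hTc r ε
  have hAm : MeasurableSet (mset G (T ∩ Ioo (-(r : ℝ)) r) ε ∩ Metric.ball 0 r) :=
    (isOpen_mset hGi _ _).measurableSet.inter Metric.isOpen_ball.measurableSet
  have hsub : mset G (T ∩ Ioo (-(r : ℝ)) r) ε ∩ Metric.ball 0 r ⊆ Metric.ball 0 r :=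
    inter_subset_right
  have hs' : ∀ x ∈ mset G (T ∩ Ioo (-(r : ℝ)) r) ε ∩ Metric.ball 0 r, ε < ‖evo G x (s x) 0‖ :=
    fun x hx => (hs x hx.1).2
  have hsT : ∀ x ∈ mset G (T ∩ Ioo (-(r : ℝ)) r) ε ∩ Metric.ball 0 r, s x ∈ T :=
    fun x hx => (hs x hx.1).1
  generalize mset G (T ∩ Ioo (-(r : ℝ)) r) ε ∩ Metric.ball 0 r = A at hAm hsub hs' hsT
  have hAf : volume A < ⊤ := (measure_mono hsub).trans_lt measure_ball_lt_top
  have hzm : Measurable fun x => evo G x (s x) 0 := measurable_evo_time hGi hsm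
  have hb := hS A s (fun x => cph (evo G x (s x) 0))
    ⟨hAm, hsub, hsm, hsb, measurable_cph.comp hzm, fun x => norm_cph_le _⟩ hsT
  have hlow := lower hGi hAm hAf hsm hs'
  set l : ℝ := ε / (S + 1) with hl
  have hl0 : 0 < l := by positivity
  have hup := upper hGi hGm hw hw1 hAf hsm hb hl0
  set V : ℝ := (volume : Measure (E n)).real A with hV
  have hV0 : 0 ≤ V := measureReal_nonneg
  have hVA : volume A = ENNReal.ofReal V := (ofReal_measureReal hAf.ne).symm
  have hE' : En w G = ENNReal.ofReal (En w G).toReal := (ENNReal.ofReal_toReal hen.ne).symm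
  have he0 : 0 ≤ (En w G).toReal := ENNReal.toReal_nonneg
  have hee : (En w G).toReal ≤ ε ^ 3 / (S + 1) := by
    have := ENNReal.toReal_mono ENNReal.ofReal_ne_top hE
    rwa [ENNReal.toReal_ofReal (by positivity)] at this
  have hfinal : ε * V ≤ l / 2 * (S * V) + 1 / (2 * l) * (En w G).toReal := by
    have h1 := (ENNReal.ofReal_le_ofReal hlow).trans hup
    rw [hVA, hE', ← ENNReal.ofReal_coe_nnreal, ← ENNReal.ofReal_mul (by positivity),
      ← ENNReal.ofReal_mul (by positivity), ← ENNReal.ofReal_mul (by positivity),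
      ← ENNReal.ofReal_add (by positivity) (by positivity)] at h1
    exact (ENNReal.ofReal_le_ofReal_iff (by positivity)).1 h1
  generalize (En w G).toReal = e at he0 hee hfinal
  rw [hVA]
  refine ENNReal.ofReal_le_ofReal ?_
  have h3 : l / 2 * (S * V) ≤ ε / 2 * V := by
    have h4 : l * S ≤ ε := by
      rw [hl, div_mul_eq_mul_div, div_le_iff₀ (by positivity)]
      have : (0 : ℝ) ≤ S := S.coe_nonneg
      nlinarith
    nlinarith
  have h5 : ε / 2 * V ≤ 1 / (2 * l) * e := by linarith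
  have h6 : 1 / (2 * l) * e ≤ ε ^ 2 / 2 := by
    rw [hl]
    calc 1 / (2 * (ε / (S + 1))) * e ≤ 1 / (2 * (ε / (S + 1))) * (ε ^ 3 / (S + 1)) := by gcongr
      _ = ε ^ 2 / 2 := by field_simp
  nlinarith

end Vale.Agent.P076.R2.H45
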