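import Vale.Agent.P076.R2.H45.Kern

/-!
# The quadratic form of the TT* operator: kernels, far pairs, splitting
-/

open MeasureTheory Complex FourierTransform Filter Topology Set
open scoped ENNReal NNReal

namespace Vale.Agent.P076.R2.H45

open Vale.Agent.P076 Vale.Agent.P076.H791

variable {n : ℕ}

/-- the quadratic quantity -/
noncomputable def QQ (v : E n → ℝ) (A : Set (E n)) (s : E n → ℝ) (h : E n → ℂ) : ℝ :=
  ∫ η, v η * ‖Phi A s h η‖ ^ 2

/-- the bilinear quantity -/
noncomputable def BB (v : E n → ℝ) (A B : Set (E n)) (s : E n → ℝ) (h : E n → ℂ) : ℂ :=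
  ∫ η, (v η : ℂ) * (Phi A s h η * starRingEnd ℂ (Phi B s h η))

section
variable {v : E n → ℝ} {A B : Set (E n)} {s : E n → ℝ} {h : E n → ℂ}

lemma norm_Phi_le (bh : ∀ x, ‖h x‖ ≤ 1) (hA : volume A < ⊤) (η : E n) :
    ‖Phi A s h η‖ ≤ (volume : Measure (E n)).real A := by
  unfold Phi
  have h1 := norm_setIntegral_le_of_norm_le_const (μ := (volume : Measure (E n))) (s := A)
    (f := fun x => h x * ph x (s x) 0 η) (C := 1) hA fun x _ => norm_kern_le bh x η
  simpa using h1

lemma QQ_nonneg (hv0 : ∀ η, 0 ≤ v η) : 0 ≤ QQ v A s h :=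
  integral_nonneg fun η => mul_nonneg (hv0 η) (by positivity)

lemma integrable_QQ (hv : Integrable v) (ms : Measurable s) (mh : Measurable h)
    (bh : ∀ x, ‖h x‖ ≤ 1) (hA : volume A < ⊤) :
    Integrable fun η => v η * ‖Phi A s h η‖ ^ 2 := by
  refine hv.mul_bdd (c := ((volume : Measure (E n)).real A) ^ 2)
    ((measurable_Phi ms mh).norm.pow_const 2).aestronglyMeasurable
    (Eventually.of_forall fun η => ?_)
  rw [norm_pow, norm_norm]
  have := norm_Phi_le (A := A) (s := s) bh hA η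
  gcongr

lemma integrable_BB (hv : Integrable v) (ms : Measurable s) (mh : Measurable h)
    (bh : ∀ x, ‖h x‖ ≤ 1) (hA : volume A < ⊤) (hB : volume B < ⊤) :
    Integrable fun η => (v η : ℂ) * (Phi A s h η * starRingEnd ℂ (Phi B s h η)) := by
  have m1 : Measurable fun η => Phi A s h η * starRingEnd ℂ (Phi B s h η) :=
    (measurable_Phi ms mh).mul (Complex.continuous_conj.measurable.comp (measurable_Phi ms mh))
  refine hv.ofReal.mul_bdd (c := (volume : Measure (E n)).real A * (volume : Measure (E n)).real B)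
    m1.aestronglyMeasurable (Eventually.of_forall fun η => ?_)
  rw [norm_mul, RCLike.norm_conj]
  have h1 := norm_Phi_le (A := A) (s := s) bh hA η
  have h2 := norm_Phi_le (A := B) (s := s) bh hB η
  gcongr

lemma lint_QQ (hv : Integrable v) (hv0 : ∀ η, 0 ≤ v η) (ms : Measurable s) (mh : Measurable h)
    (bh : ∀ x, ‖h x‖ ≤ 1) (hA : volume A < ⊤) :
    ∫⁻ η, ENNReal.ofReal (v η) * ‖Phi A s h η‖ₑ ^ 2 = ENNReal.ofReal (QQ v A s h) := by
  rw [QQ, ofReal_integral_eq_lintegral_ofReal (integrable_QQ hv ms mh bh hA)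
    (Eventually.of_forall fun η => mul_nonneg (hv0 η) (by positivity))]
  refine lintegral_congr fun η => ?_
  rw [ENNReal.ofReal_mul (hv0 η), ENNReal.ofReal_pow (norm_nonneg _), ofReal_norm]

lemma Phi_union (ms : Measurable s) (mh : Measurable h) (bh : ∀ x, ‖h x‖ ≤ 1)
    (hAB : Disjoint A B) (hBm : MeasurableSet B) (hA : volume A < ⊤) (hB : volume B < ⊤) (η : E n) :
    Phi (A ∪ B) s h η = Phi A s h η + Phi B s h η := by
  have key : ∀ C : Set (E n), volume C < ⊤ → IntegrableOn (fun x => h x * ph x (s x) 0 η) C := by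
    intro C hC
    have hfin : IsFiniteMeasure ((volume : Measure (E n)).restrict C) :=
      ⟨by rw [Measure.restrict_apply_univ]; exact hC⟩
    have m1 : Measurable fun x => h x * ph x (s x) 0 η := by
      have m2 : Measurable fun x : E n => ((x, η) : E n × E n) :=
        measurable_id.prodMk measurable_const
      have := Measurable.comp (measurable_kern ms mh) m2
      simpa only [Function.comp_def] using this
    exact Integrable.mono' (integrable_const (1 : ℝ)) m1.aestronglyMeasurable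
      (Eventually.of_forall fun x => norm_kern_le bh x η)
  unfold Phi
  exact setIntegral_union hAB hBm (key A hA) (key B hB)

lemma QQ_union (hv : Integrable v) (ms : Measurable s) (mh : Measurable h)
    (bh : ∀ x, ‖h x‖ ≤ 1) (hAB : Disjoint A B) (hBm : MeasurableSet B) (hA : volume A < ⊤)
    (hB : volume B < ⊤) :
    QQ v (A ∪ B) s h = QQ v A s h + QQ v B s h + 2 * (BB v A B s h).re := by
  have e1 : ∀ η, v η * ‖Phi (A ∪ B) s h η‖ ^ 2 = (v η * ‖Phi A s h η‖ ^ 2 +
      v η * ‖Phi B s h η‖ ^ 2) +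
      2 * ((v η : ℂ) * (Phi A s h η * starRingEnd ℂ (Phi B s h η))).re := by
    intro η
    rw [Phi_union ms mh bh hAB hBm hA hB, Complex.re_ofReal_mul, ← Complex.normSq_eq_norm_sq,
      Complex.normSq_add, Complex.normSq_eq_norm_sq, Complex.normSq_eq_norm_sq]
    ring
  have i1 := integrable_QQ (v := v) hv ms mh bh hA
  have i2 := integrable_QQ (v := v) hv ms mh bh hB
  have i3 := integrable_BB (v := v) hv ms mh bh hA hB
  have i3' : Integrable fun η => ((v η : ℂ) * (Phi A s h η * starRingEnd ℂ (Phi B s h η))).re := i3.re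
  have e3 : ∫ η, ((v η : ℂ) * (Phi A s h η * starRingEnd ℂ (Phi B s h η))).re =
      (BB v A B s h).re := integral_re i3
  have i4 : Integrable fun η => v η * ‖Phi A s h η‖ ^ 2 + v η * ‖Phi B s h η‖ ^ 2 := i1.add i2
  unfold QQ
  simp_rw [e1]
  rw [integral_add i4 (i3'.const_mul 2), integral_add i1 i2, integral_const_mul, e3]

/-- the kernel representation -/
lemma BB_eq (hv : Integrable v) (hvm : Measurable v) (ms : Measurable s) (mh : Measurable h)
    (bh : ∀ x, ‖h x‖ ≤ 1) (hA : volume A < ⊤) (hB : volume B < ⊤) :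
    BB v A B s h = ∫ p, h p.1 * starRingEnd ℂ (h p.2) * Ker v (p.1 - p.2) (s p.1 - s p.2)
      ∂(((volume : Measure (E n)).restrict A).prod ((volume : Measure (E n)).restrict B)) := by
  have hfA : IsFiniteMeasure ((volume : Measure (E n)).restrict A) :=
    ⟨by rw [Measure.restrict_apply_univ]; exact hA⟩
  have hfB : IsFiniteMeasure ((volume : Measure (E n)).restrict B) :=
    ⟨by rw [Measure.restrict_apply_univ]; exact hB⟩
  set μ : Measure (E n) := (volume : Measure (E n)).restrict A with hμ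
  set ν : Measure (E n) := (volume : Measure (E n)).restrict B with hν
  set F : E n → E n × E n → ℂ := fun η p => (v η : ℂ) * ((h p.1 * ph p.1 (s p.1) 0 η) *
      starRingEnd ℂ (h p.2 * ph p.2 (s p.2) 0 η)) with hF
  have hFi : Integrable (Function.uncurry F) ((volume : Measure (E n)).prod (μ.prod ν)) := by
    have h3 : Integrable (fun p : E n × (E n × E n) => ‖v p.1‖ * 1)
        ((volume : Measure (E n)).prod (μ.prod ν)) :=
      hv.norm.mul_prod (integrable_const (1 : ℝ) (μ := μ.prod ν))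
    refine Integrable.mono' h3 ?_ (Eventually.of_forall fun p => ?_)
    · exact (kern_measurable hvm ms mh).aestronglyMeasurable
    · simp only [Function.uncurry, hF]
      rw [norm_mul, Complex.norm_real]
      exact mul_le_mul_of_nonneg_left (norm_kk_le bh _ _ _) (norm_nonneg _)
  have e1 : ∀ η, ∫ p, F η p ∂(μ.prod ν) =
      (v η : ℂ) * (Phi A s h η * starRingEnd ℂ (Phi B s h η)) := by
    intro η
    simp only [hF]
    rw [integral_const_mul, integral_prod_mul (μ := μ) (ν := ν) (fun x => h x * ph x (s x) 0 η)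
      (fun x => starRingEnd ℂ (h x * ph x (s x) 0 η)), integral_conj]
    rfl
  have e2 : ∀ p : E n × E n, ∫ η, F η p = h p.1 * starRingEnd ℂ (h p.2) *
      Ker v (p.1 - p.2) (s p.1 - s p.2) := fun p => inner_int v h s p.1 p.2
  have h1 : BB v A B s h = ∫ η, ∫ p, F η p ∂(μ.prod ν) :=
    integral_congr_ae (Eventually.of_forall fun η => (e1 η).symm)
  rw [h1, integral_integral_swap hFi]
  exact integral_congr_ae (Eventually.of_forall fun p => e2 p)

/-- far pairs -/
lemma BB_le (hv : Integrable v) (hvm : Measurable v) (ms : Measurable s) (mh : Measurable h)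
    (bh : ∀ x, ‖h x‖ ≤ 1) (hAm : MeasurableSet A) (hBm : MeasurableSet B) (hA : volume A < ⊤)
    (hB : volume B < ⊤) {κ : ℝ}
    (hκ : ∀ x ∈ A, ∀ y ∈ B, ‖Ker v (x - y) (s x - s y)‖ ≤ κ) :
    ‖BB v A B s h‖ ≤ κ * ((volume : Measure (E n)).real A * (volume : Measure (E n)).real B) := by
  rw [BB_eq hv hvm ms mh bh hA hB]
  have hfA : IsFiniteMeasure ((volume : Measure (E n)).restrict A) :=
    ⟨by rw [Measure.restrict_apply_univ]; exact hA⟩
  have hfB : IsFiniteMeasure ((volume : Measure (E n)).restrict B) :=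
    ⟨by rw [Measure.restrict_apply_univ]; exact hB⟩
  refine (norm_integral_le_of_norm_le_const (C := κ) ?_).trans (le_of_eq ?_)
  · rw [Measure.prod_restrict]
    refine (ae_restrict_iff' (hAm.prod hBm)).2 (Eventually.of_forall fun p hp => ?_)
    rw [norm_mul, norm_mul, RCLike.norm_conj]
    have h1 := hκ p.1 hp.1 p.2 hp.2
    calc ‖h p.1‖ * ‖h p.2‖ * ‖Ker v (p.1 - p.2) (s p.1 - s p.2)‖ ≤ 1 * 1 * κ := by
          gcongr
          · exact bh _
          · exact bh _
      _ = κ := by ring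
  · have h1 : (((volume : Measure (E n)).restrict A).prod ((volume : Measure (E n)).restrict B)) univ =
        volume A * volume B := by
      rw [← Set.univ_prod_univ, Measure.prod_prod, Measure.restrict_apply_univ,
        Measure.restrict_apply_univ]
    simp only [Measure.real]
    rw [h1, ENNReal.toReal_mul]

lemma QQ_union_far (hv : Integrable v) (hvm : Measurable v) (ms : Measurable s) (mh : Measurable h)
    (bh : ∀ x, ‖h x‖ ≤ 1) (hAB : Disjoint A B) (hAm : MeasurableSet A) (hBm : MeasurableSet B)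
    (hA : volume A < ⊤) (hB : volume B < ⊤) {κ : ℝ}
    (hκ : ∀ x ∈ A, ∀ y ∈ B, ‖Ker v (x - y) (s x - s y)‖ ≤ κ) :
    QQ v (A ∪ B) s h ≤ QQ v A s h + QQ v B s h +
      2 * (κ * ((volume : Measure (E n)).real A * (volume : Measure (E n)).real B)) := by
  rw [QQ_union hv ms mh bh hAB hBm hA hB]
  have h1 := BB_le hv hvm ms mh bh hAm hBm hA hB hκ
  have h2 := Complex.re_le_norm (BB v A B s h)
  linarith

/-- weighted triangle inequality -/
lemma QQ_union_le (hv : Integrable v) (hv0 : ∀ η, 0 ≤ v η) (ms : Measurable s) (mh : Measurable h)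
    (bh : ∀ x, ‖h x‖ ≤ 1) (hAB : Disjoint A B) (hBm : MeasurableSet B)
    (hA : volume A < ⊤) (hB : volume B < ⊤) {m : ℝ} (hm : 0 < m) :
    QQ v (A ∪ B) s h ≤ (1 + m) * QQ v A s h + (1 + 1 / m) * QQ v B s h := by
  have i1 := integrable_QQ (v := v) hv ms mh bh hA
  have i2 := integrable_QQ (v := v) hv ms mh bh hB
  have i3 := integrable_QQ (v := v) hv ms mh bh
    ((measure_union_le A B).trans_lt (ENNReal.add_lt_top.2 ⟨hA, hB⟩))
  unfold QQ
  rw [← integral_const_mul, ← integral_const_mul, ← integral_add (i1.const_mul _) (i2.const_mul _)]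
  refine integral_mono i3 ((i1.const_mul _).add (i2.const_mul _)) fun η => ?_
  simp only
  rw [Phi_union ms mh bh hAB hBm hA hB]
  set a : ℝ := ‖Phi A s h η‖ with ha
  set b : ℝ := ‖Phi B s h η‖ with hb
  have h1 : ‖Phi A s h η + Phi B s h η‖ ^ 2 ≤ (a + b) ^ 2 := by
    have := norm_add_le (Phi A s h η) (Phi B s h η)
    gcongr
  have h2 : (a + b) ^ 2 ≤ (1 + m) * a ^ 2 + (1 + 1 / m) * b ^ 2 := by
    have h3 : 0 ≤ (m * a - b) ^ 2 / m := by positivity
    have h4 : (1 + m) * a ^ 2 + (1 + 1 / m) * b ^ 2 - (a + b) ^ 2 = (m * a - b) ^ 2 / m := by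
      field_simp
      ring
    linarith
  have h5 := mul_le_mul_of_nonneg_left (h1.trans h2) (hv0 η)
  linarith

end

lemma QQ_empty (v : E n → ℝ) (s : E n → ℝ) (h : E n → ℂ) : QQ v ∅ s h = 0 := by
  simp [QQ, Phi]

/-- the kernel bound on the diagonal -/
theorem QQ_kernel {r : ℕ} {v : E n → ℝ} (hv : Integrable v) (hvm : Measurable v)
    {A : Set (E n)} {s : E n → ℝ} {h : E n → ℂ} (a : Adm r A s h)
    {B : E n → ℝ≥0∞} (hB : Measurable B)
    (hK : ∀ x ∈ A, ∀ y ∈ A, ‖Ker v (x - y) (s x - s y)‖ₑ ≤ B (x - y)) {S : ℝ} (hS0 : 0 ≤ S)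
    (hS : ∫⁻ z in Metric.ball 0 (2 * r), B z ≤ ENNReal.ofReal S) :
    QQ v A s h ≤ S * (volume : Measure (E n)).real A := by
  have hAf := a.vol
  have e0 : ((QQ v A s h : ℝ) : ℂ) = BB v A A s h := by
    rw [QQ, ← integral_complex_ofReal, BB]
    refine integral_congr_ae (Eventually.of_forall fun η => ?_)
    simp only
    rw [Complex.mul_conj, Complex.normSq_eq_norm_sq]
    push_cast
    ring
  have h1 : QQ v A s h ≤ ‖BB v A A s h‖ := by
    rw [← e0, Complex.norm_real, Real.norm_eq_abs]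
    exact le_abs_self _
  refine h1.trans ?_
  rw [BB_eq hv hvm a.ms a.mh a.bh hAf hAf]
  set μ : Measure (E n) := (volume : Measure (E n)).restrict A with hμ
  have h5 : ∀ᵐ p ∂(μ.prod μ), ‖h p.1 * starRingEnd ℂ (h p.2) *
      Ker v (p.1 - p.2) (s p.1 - s p.2)‖ₑ ≤ B (p.1 - p.2) := by
    rw [hμ, Measure.prod_restrict]
    refine (ae_restrict_iff' (a.mA.prod a.mA)).2 (Eventually.of_forall fun p hp => ?_)
    rw [enorm_mul, enorm_mul]
    have h1 : ‖h p.1‖ₑ ≤ 1 := by
      rw [← ofReal_norm, ← ENNReal.ofReal_one]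
      exact ENNReal.ofReal_le_ofReal (a.bh _)
    have h2 : ‖starRingEnd ℂ (h p.2)‖ₑ ≤ 1 := by
      rw [← ofReal_norm, RCLike.norm_conj, ← ENNReal.ofReal_one]
      exact ENNReal.ofReal_le_ofReal (a.bh _)
    calc ‖h p.1‖ₑ * ‖starRingEnd ℂ (h p.2)‖ₑ * ‖Ker v (p.1 - p.2) (s p.1 - s p.2)‖ₑ
        ≤ 1 * 1 * B (p.1 - p.2) := by
          gcongr
          exact hK _ hp.1 _ hp.2
      _ = B (p.1 - p.2) := by ring
  have h6 : ‖∫ p, h p.1 * starRingEnd ℂ (h p.2) * Ker v (p.1 - p.2) (s p.1 - s p.2) ∂(μ.prod μ)‖ₑ ≤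
      ENNReal.ofReal (S * (volume : Measure (E n)).real A) := by
    refine (enorm_integral_le_lintegral_enorm _).trans
      ((lintegral_mono_ae h5).trans ((conv_le a.sub hB a.mA).trans ?_))
    rw [ENNReal.ofReal_mul hS0, ofReal_measureReal hAf.ne]
    gcongr
  rw [← ofReal_norm] at h6
  exact (ENNReal.ofReal_le_ofReal_iff (by positivity)).1 h6

end Vale.Agent.P076.R2.H45
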