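import Vale.Agent.P076.R2.H45.Tm2

/-!
# Splitting of the times: short intervals, windows
-/

open MeasureTheory Complex FourierTransform Filter Topology Set
open scoped ENNReal NNReal

namespace Vale.Agent.P076.R2.H45

open Vale.Agent.P076 Vale.Agent.P076.H791

variable {n : ℕ} {v : E n → ℝ} {s : E n → ℝ} {h : E n → ℂ} {r : ℕ}

lemma Adm.subset {A A' : Set (E n)} (a : Adm r A s h) (hm : MeasurableSet A') (hs : A' ⊆ A) :
    Adm r A' s h := ⟨hm, hs.trans a.sub, a.ms, a.bs, a.mh, a.bh⟩

lemma real_union {A B : Set (E n)} (hAB : Disjoint A B) (hBm : MeasurableSet B)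
    (hA : volume A < ⊤) (hB : volume B < ⊤) :
    (volume : Measure (E n)).real (A ∪ B) =
      (volume : Measure (E n)).real A + (volume : Measure (E n)).real B :=
  measureReal_union hAB hBm hA.ne hB.ne

/-- covering of the times by short intervals -/
lemma QQ_cover (hv : Integrable v) (hv0 : ∀ η, 0 ≤ v η) {C h0 : ℝ}
    (hC : ∀ (A : Set (E n)) (b : ℝ), Adm r A s h → (∀ x ∈ A, |s x - b| ≤ h0) →
      QQ v A s h ≤ C * (volume : Measure (E n)).real A) (F : Finset ℝ) :
    ∀ A : Set (E n), Adm r A s h → (∀ x ∈ A, ∃ b ∈ F, |s x - b| ≤ h0) →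
      QQ v A s h ≤ F.card * (C * (volume : Measure (E n)).real A) := by
  classical
  induction F using Finset.induction_on with
  | empty =>
    intro A _ hA
    have : A = ∅ := by
      ext x
      constructor
      · intro hx
        obtain ⟨b, hb, _⟩ := hA x hx
        simp at hb
      · intro hx; exact absurd hx (by simp)
    rw [this, QQ_empty]
    simp
  | insert b F hb ih =>
    intro A a hA
    set P : Set (E n) := {x | |s x - b| ≤ h0} with hP
    have hPm : MeasurableSet P := measurableSet_le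
      (continuous_abs.measurable.comp (a.ms.sub_const b)) measurable_const
    have a1 : Adm r (A ∩ P) s h := a.subset (a.mA.inter hPm) inter_subset_left
    have a2 : Adm r (A \ P) s h := a.subset (a.mA.diff hPm) sdiff_subset
    have hdisj : Disjoint (A ∩ P) (A \ P) := by
      rw [Set.disjoint_left]
      rintro x ⟨_, hx⟩ ⟨_, hx'⟩
      exact hx' hx
    have hun : A ∩ P ∪ A \ P = A := inter_union_sdiff A P
    have h1 := hC (A ∩ P) b a1 fun x hx => hx.2
    have h2 := ih (A \ P) a2 fun x hx => by
      obtain ⟨b', hb', hx'⟩ := hA x hx.1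
      rcases Finset.mem_insert.1 hb' with rfl | h3
      · exact absurd hx' hx.2
      · exact ⟨b', h3, hx'⟩
    have hvol : (volume : Measure (E n)).real A =
        (volume : Measure (E n)).real (A ∩ P) + (volume : Measure (E n)).real (A \ P) := by
      rw [← real_union hdisj a2.mA a1.vol a2.vol, hun]
    rw [Finset.card_insert_of_notMem hb]
    by_cases hF : F = ∅
    · subst hF
      have h3 : A \ P = ∅ := by
        ext x
        constructor
        · intro hx
          obtain ⟨b', hb', hx'⟩ := hA x hx.1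
          simp only [insert_empty_eq, Finset.mem_singleton] at hb'
          subst hb'
          exact absurd hx' hx.2
        · intro hx; exact absurd hx (by simp)
      have h4 : A ∩ P = A := by rw [h3, union_empty] at hun; exact hun
      rw [h4] at h1
      simpa using h1
    · have hm : (0 : ℝ) < F.card := by
        have : 0 < F.card := Finset.card_pos.2 (Finset.nonempty_iff_ne_empty.2 hF)
        exact_mod_cast this
      have h3 := QQ_union_le hv hv0 a.ms a.mh a.bh hdisj a2.mA a1.vol a2.vol hm
      rw [hun] at h3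
      push_cast
      rw [hvol]
      set m : ℝ := (F.card : ℝ) with hmd
      have h4 : (1 + m) * QQ v (A ∩ P) s h ≤ (1 + m) * (C * (volume : Measure (E n)).real (A ∩ P)) := by
        gcongr
      have h5 : (1 + 1 / m) * QQ v (A \ P) s h ≤
          (1 + 1 / m) * (m * (C * (volume : Measure (E n)).real (A \ P))) := by
        gcongr
      have h6 : (1 + 1 / m) * (m * (C * (volume : Measure (E n)).real (A \ P))) =
          (m + 1) * (C * (volume : Measure (E n)).real (A \ P)) := by
        field_simp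
      have h7 : (m + 1) * (C * ((volume : Measure (E n)).real (A ∩ P) +
          (volume : Measure (E n)).real (A \ P))) =
          (1 + m) * (C * (volume : Measure (E n)).real (A ∩ P)) +
          (m + 1) * (C * (volume : Measure (E n)).real (A \ P)) := by ring
      linarith

lemma far_of_floor {W x y : ℝ} (hW : 0 < W) (h : ⌊y / W⌋ + 2 ≤ ⌊x / W⌋) : W ≤ |x - y| := by
  have h1 : (⌊x / W⌋ : ℝ) ≤ x / W := Int.floor_le _
  have h2 : y / W < ⌊y / W⌋ + 1 := Int.lt_floor_add_one _
  have h3 : ((⌊y / W⌋ + 2 : ℤ) : ℝ) ≤ (⌊x / W⌋ : ℝ) := by exact_mod_cast h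
  push_cast at h3
  have h4 : 1 ≤ x / W - y / W := by linarith
  rw [← sub_div, le_div_iff₀ hW, one_mul] at h4
  exact h4.trans (le_abs_self _)

/-- the part of `A` with window index in `t` -/
def Aw (A : Set (E n)) (s : E n → ℝ) (W : ℝ) (t : Set ℤ) : Set (E n) := A ∩ {x | ⌊s x / W⌋ ∈ t}

lemma measurableSet_Aw {A : Set (E n)} (hA : MeasurableSet A) (hs : Measurable s) (W : ℝ)
    (t : Set ℤ) : MeasurableSet (Aw A s W t) := by
  refine hA.inter ?_
  have h1 : Measurable fun x => ⌊s x / W⌋ := Int.measurable_floor.comp (hs.div_const W)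
  exact h1 (MeasurableSet.of_discrete (s := t))

/-- splitting into windows -/
lemma QQ_windows (hv : Integrable v) (hvm : Measurable v) {A : Set (E n)} (a : Adm r A s h)
    {W D κ : ℝ} (hW : 0 < W) (hκ0 : 0 ≤ κ)
    (hκ : ∀ z : E n, ‖z‖ < 2 * r → ∀ t : ℝ, W ≤ |t| → ‖Ker v z t‖ ≤ κ)
    (hD : ∀ i : ℤ, QQ v (Aw A s W {i}) s h ≤ D * (volume : Measure (E n)).real (Aw A s W {i}))
    (t : Finset ℤ) (ht : ∀ i ∈ t, ∀ j ∈ t, i < j → i + 2 ≤ j) :
    QQ v (Aw A s W t) s h ≤ D * (volume : Measure (E n)).real (Aw A s W t) +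
      κ * (volume : Measure (E n)).real (Aw A s W t) ^ 2 := by
  classical
  induction t using Finset.induction_on with
  | empty =>
    have h1 : Aw A s W ((∅ : Finset ℤ) : Set ℤ) = ∅ := by simp [Aw]
    rw [h1, QQ_empty]
    simp
  | insert i t hi ih =>
    have h1 := ih fun j hj k hk => ht j (Finset.mem_insert_of_mem hj) k (Finset.mem_insert_of_mem hk)
    have h2 := hD i
    have hun : Aw A s W ((insert i t : Finset ℤ) : Set ℤ) = Aw A s W {i} ∪ Aw A s W t := by
      ext x
      simp only [Aw, Finset.coe_insert, Set.mem_inter_iff, Set.mem_ofPred_eq, Set.mem_insert_iff,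
        Set.mem_union, Set.mem_singleton_iff]
      tauto
    have hdisj : Disjoint (Aw A s W {i}) (Aw A s W t) := by
      rw [Set.disjoint_left]
      rintro x ⟨_, hx⟩ ⟨_, hx'⟩
      simp only [Set.mem_ofPred_eq, Set.mem_singleton_iff] at hx hx'
      rw [hx] at hx'
      exact hi (by simpa using hx')
    have m1 := measurableSet_Aw a.mA a.ms W {i}
    have m2 := measurableSet_Aw a.mA a.ms W t
    have a1 : Adm r (Aw A s W {i}) s h := a.subset m1 inter_subset_left
    have a2 : Adm r (Aw A s W t) s h := a.subset m2 inter_subset_left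
    have h3 := QQ_union_far hv hvm a.ms a.mh a.bh hdisj m1 m2 a1.vol a2.vol (κ := κ) (by
      rintro x ⟨hxA, hx⟩ y ⟨hyA, hy⟩
      simp only [Set.mem_ofPred_eq, Set.mem_singleton_iff] at hx hy
      have hy' : ⌊s y / W⌋ ∈ t := by simpa using hy
      have hne : ⌊s x / W⌋ ≠ ⌊s y / W⌋ := by
        intro h
        rw [← h, hx] at hy'
        exact hi hy'
      have hxr := a.sub hxA
      have hyr := a.sub hyA
      rw [mem_ball_zero_iff] at hxr hyr
      refine hκ _ ?_ _ ?_
      · calc ‖x - y‖ ≤ ‖x‖ + ‖y‖ := norm_sub_le _ _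
          _ < r + r := add_lt_add hxr hyr
          _ = 2 * r := by ring
      · rcases lt_or_gt_of_ne hne with hlt | hlt
        · rw [abs_sub_comm]
          exact far_of_floor hW (ht _ (by rw [hx]; exact Finset.mem_insert_self i t) _
            (Finset.mem_insert_of_mem hy') hlt)
        · exact far_of_floor hW (ht _ (Finset.mem_insert_of_mem hy') _
            (by rw [hx]; exact Finset.mem_insert_self i t) hlt))
    rw [hun, real_union hdisj m2 a1.vol a2.vol]
    set x : ℝ := (volume : Measure (E n)).real (Aw A s W {i}) with hx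
    set y : ℝ := (volume : Measure (E n)).real (Aw A s W t) with hy
    have h4 : 0 ≤ κ * x ^ 2 := by positivity
    nlinarith

/-- all windows -/
lemma QQ_all (hv : Integrable v) (hv0 : ∀ η, 0 ≤ v η) (hvm : Measurable v) {A : Set (E n)}
    (a : Adm r A s h) {W D κ : ℝ} (hW : 0 < W) (hκ0 : 0 ≤ κ)
    (hκ : ∀ z : E n, ‖z‖ < 2 * r → ∀ t : ℝ, W ≤ |t| → ‖Ker v z t‖ ≤ κ)
    (hD : ∀ i : ℤ, QQ v (Aw A s W {i}) s h ≤ D * (volume : Measure (E n)).real (Aw A s W {i})) :
    QQ v A s h ≤ 2 * (D + κ * (volume : Measure (E n)).real (Metric.ball 0 r)) *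
      (volume : Measure (E n)).real A := by
  classical
  obtain ⟨I, hI⟩ : ∃ I : ℕ, ∀ x, -(I : ℤ) ≤ ⌊s x / W⌋ ∧ ⌊s x / W⌋ ≤ I := by
    obtain ⟨I, hI⟩ := exists_nat_ge ((r : ℝ) / W + 1)
    refine ⟨I, fun x => ?_⟩
    have hb := abs_le.1 (a.bs x)
    constructor
    · rw [Int.le_floor]
      push_cast
      have : -((r : ℝ) / W) ≤ s x / W := by
        rw [← neg_div]
        gcongr
        exact hb.1
      linarith
    · have h1 : (⌊s x / W⌋ : ℝ) ≤ I := by
        have h2 : (⌊s x / W⌋ : ℝ) ≤ s x / W := Int.floor_le _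
        have h3 : s x / W ≤ (r : ℝ) / W := by
          gcongr
          exact hb.2
        linarith
      exact_mod_cast h1
  set te : Finset ℤ := (Finset.Icc (-(I : ℤ)) I).filter fun i => Even i with hte
  set tod : Finset ℤ := (Finset.Icc (-(I : ℤ)) I).filter fun i => ¬ Even i with htod
  have he : ∀ i ∈ te, ∀ j ∈ te, i < j → i + 2 ≤ j := by
    intro i hi j hj hij
    have h1 := (Finset.mem_filter.1 hi).2
    have h2 := (Finset.mem_filter.1 hj).2
    obtain ⟨p, rfl⟩ := h1
    obtain ⟨q, rfl⟩ := h2
    omega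
  have ho : ∀ i ∈ tod, ∀ j ∈ tod, i < j → i + 2 ≤ j := by
    intro i hi j hj hij
    have h1 := (Finset.mem_filter.1 hi).2
    have h2 := (Finset.mem_filter.1 hj).2
    rw [Int.not_even_iff_odd] at h1 h2
    obtain ⟨p, rfl⟩ := h1
    obtain ⟨q, rfl⟩ := h2
    omega
  have q1 := QQ_windows hv hvm a hW hκ0 hκ hD te he
  have q2 := QQ_windows hv hvm a hW hκ0 hκ hD tod ho
  have hun : Aw A s W te ∪ Aw A s W tod = A := by
    ext x
    constructor
    · rintro (hx | hx)
      · exact hx.1
      · exact hx.1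
    · intro hx
      by_cases hev : Even ⌊s x / W⌋
      · left
        refine ⟨hx, ?_⟩
        simp only [Set.mem_ofPred_eq, hte, Finset.coe_filter, Finset.mem_Icc]
        exact ⟨hI x, hev⟩
      · right
        refine ⟨hx, ?_⟩
        simp only [Set.mem_ofPred_eq, htod, Finset.coe_filter, Finset.mem_Icc]
        exact ⟨hI x, hev⟩
  have hdisj : Disjoint (Aw A s W te) (Aw A s W tod) := by
    rw [Set.disjoint_left]
    rintro x ⟨_, hx⟩ ⟨_, hx'⟩
    simp only [Set.mem_ofPred_eq, hte, htod, Finset.coe_filter] at hx hx'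
    exact hx'.2 hx.2
  have m1 := measurableSet_Aw a.mA a.ms W te
  have m2 := measurableSet_Aw a.mA a.ms W tod
  have a1 : Adm r (Aw A s W te) s h := a.subset m1 inter_subset_left
  have a2 : Adm r (Aw A s W tod) s h := a.subset m2 inter_subset_left
  have h3 := QQ_union_le hv hv0 a.ms a.mh a.bh hdisj m2 a1.vol a2.vol one_pos
  rw [hun] at h3
  have hvol : (volume : Measure (E n)).real A = (volume : Measure (E n)).real (Aw A s W te) +
      (volume : Measure (E n)).real (Aw A s W tod) := by
    rw [← real_union hdisj m2 a1.vol a2.vol, hun]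
  have hball : (volume : Measure (E n)).real A ≤ (volume : Measure (E n)).real (Metric.ball 0 r) :=
    measureReal_mono a.sub measure_ball_lt_top.ne
  set x : ℝ := (volume : Measure (E n)).real (Aw A s W te) with hx
  set y : ℝ := (volume : Measure (E n)).real (Aw A s W tod) with hy
  set b : ℝ := (volume : Measure (E n)).real (Metric.ball 0 r) with hb
  have hx0 : 0 ≤ x := measureReal_nonneg
  have hy0 : 0 ≤ y := measureReal_nonneg
  rw [hvol] at hball ⊢
  have h5 : κ * x ^ 2 ≤ κ * (b * x) := by
    have : x ^ 2 ≤ b * x := by nlinarith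
    gcongr
  have h6 : κ * y ^ 2 ≤ κ * (b * y) := by
    have : y ^ 2 ≤ b * y := by nlinarith
    gcongr
  norm_num at h3
  nlinarith

end Vale.Agent.P076.R2.H45
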