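import Vale.Agent.P076.R2.H45.Rot
import Vale.Agent.P076.R2.H45.Tm2

/-!
# The shell function: bounds from above and below, far kernel, diagonal kernel
-/

open MeasureTheory Complex FourierTransform Filter Topology Set
open scoped ENNReal NNReal

namespace Vale.Agent.P076.R2.H45

open Vale.Agent.P076 Vale.Agent.P076.H791

variable {n : ℕ}

/-- theta sums -/
lemma theta_le (y : ℝ) (J : ℕ) :
    ∑ j ∈ Finset.range J, Real.exp (-(Real.pi / 2 * (y - j) ^ 2)) ≤ 4 := by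
  set f : ℝ → ℝ := fun x => Real.exp (-(Real.pi / 4) * (x - y) ^ 2) with hf
  have hfi : Integrable f := by
    have h1 := (integrable_exp_neg_mul_sq (b := Real.pi / 4) (by positivity)).comp_sub_right y
    simpa [hf] using h1
  have hfint : ∫ x, f x = 2 := by
    have h1 := integral_sub_right_eq_self (fun x : ℝ => Real.exp (-(Real.pi / 4) * x ^ 2)) y
      (μ := volume)
    simp only [hf]
    rw [h1, integral_gaussian]
    have h2 : Real.pi / (Real.pi / 4) = 2 ^ 2 := by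
      field_simp
      norm_num
    rw [h2, Real.sqrt_sq (by norm_num)]
  have hpi3 := Real.pi_gt_three
  have hpi4 := Real.pi_lt_d2
  have key : ∀ j : ℕ, Real.exp (-(Real.pi / 2 * (y - j) ^ 2)) ≤
      2 * ∫ x in ((j : ℝ) - 1 / 2)..(((j + 1 : ℕ) : ℝ) - 1 / 2), f x := by
    intro j
    have h1 : ∀ x ∈ Icc ((j : ℝ) - 1 / 2) (((j + 1 : ℕ) : ℝ) - 1 / 2),
        Real.exp (-(Real.pi / 2 * (y - j) ^ 2)) / 2 ≤ f x := by
      intro x hx
      rw [mem_Icc] at hx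
      push_cast at hx
      have h2 : Real.exp (-(1 / 2 : ℝ)) ≥ 1 / 2 := by
        have := Real.add_one_le_exp (-(1 / 2 : ℝ))
        linarith
      have h3 : -(1 / 2 : ℝ) + -(Real.pi / 2 * (y - j) ^ 2) ≤ -(Real.pi / 4) * (x - y) ^ 2 := by
        have h4 : (x - y) ^ 2 ≤ 2 * (y - j) ^ 2 + 2 * (x - j) ^ 2 := by
          nlinarith [sq_nonneg ((x - j) + (y - j))]
        have h5 : (x - j) ^ 2 ≤ 1 / 4 := by nlinarith
        nlinarith
      calc Real.exp (-(Real.pi / 2 * (y - j) ^ 2)) / 2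
          = 1 / 2 * Real.exp (-(Real.pi / 2 * (y - j) ^ 2)) := by ring
        _ ≤ Real.exp (-(1 / 2 : ℝ)) * Real.exp (-(Real.pi / 2 * (y - j) ^ 2)) := by gcongr
        _ = Real.exp (-(1 / 2 : ℝ) + -(Real.pi / 2 * (y - j) ^ 2)) := by rw [Real.exp_add]
        _ ≤ f x := Real.exp_le_exp.2 h3
    have h6 : ∫ x in ((j : ℝ) - 1 / 2)..(((j + 1 : ℕ) : ℝ) - 1 / 2),
        Real.exp (-(Real.pi / 2 * (y - j) ^ 2)) / 2 ≤
        ∫ x in ((j : ℝ) - 1 / 2)..(((j + 1 : ℕ) : ℝ) - 1 / 2), f x :=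
      intervalIntegral.integral_mono_on (by push_cast; linarith) (by simp)
        hfi.intervalIntegrable h1
    rw [intervalIntegral.integral_const, smul_eq_mul] at h6
    push_cast at h6 ⊢
    linarith
  calc ∑ j ∈ Finset.range J, Real.exp (-(Real.pi / 2 * (y - j) ^ 2))
      ≤ ∑ j ∈ Finset.range J, 2 * ∫ x in ((j : ℝ) - 1 / 2)..(((j + 1 : ℕ) : ℝ) - 1 / 2), f x :=
        Finset.sum_le_sum fun j _ => key j
    _ = 2 * ∫ x in (((0 : ℕ) : ℝ) - 1 / 2)..((J : ℝ) - 1 / 2), f x := by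
        rw [← Finset.mul_sum]
        congr 1
        exact intervalIntegral.sum_integral_adjacent_intervals (f := f)
          (a := fun j : ℕ => (j : ℝ) - 1 / 2) fun k _ => hfi.intervalIntegrable
    _ ≤ 2 * ∫ x, f x := by
        gcongr
        rw [intervalIntegral.integral_of_le (by
          have : (0 : ℝ) ≤ J := J.cast_nonneg
          push_cast
          linarith)]
        exact setIntegral_le_integral hfi (Eventually.of_forall fun x => (Real.exp_pos _).le)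
    _ = 4 := by rw [hfint]; norm_num

/-- radius -/
noncomputable def Rn (n k : ℕ) : ℝ := 2 ^ k / (8 * n)

/-- number of pieces -/
noncomputable def Ln (n k : ℕ) : ℝ := √(1 + 3 * n * Real.log (Rn n k))

/-- centres -/
noncomputable def cn (n k j : ℕ) : ℝ := Rn n k + j * (Rn n k / Ln n k)

/-- number of centres -/
noncomputable def Jn (n k : ℕ) : ℕ := ⌊3 * n * Ln n k⌋₊ + 1

section
variable {k : ℕ}

lemma Ln_ge (h1 : 1 ≤ Rn n k) : 1 ≤ Ln n k := by
  unfold Ln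
  rw [Real.one_le_sqrt]
  have := Real.log_nonneg h1
  have h2 : 0 ≤ 3 * (n : ℝ) * Real.log (Rn n k) := by positivity
  linarith

lemma Ln_sq (h1 : 1 ≤ Rn n k) : Ln n k ^ 2 = 1 + 3 * n * Real.log (Rn n k) := by
  unfold Ln
  rw [Real.sq_sqrt]
  have := Real.log_nonneg h1
  positivity

lemma Ln_le (hn : 1 ≤ n) (h1 : 1 ≤ Rn n k) : Ln n k ^ 2 ≤ 3 * n * Rn n k := by
  rw [Ln_sq h1]
  have hn1 : (1 : ℝ) ≤ n := by exact_mod_cast hn
  have h3 := Real.log_le_sub_one_of_pos (lt_of_lt_of_le one_pos h1)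
  have h4 : 3 * (n : ℝ) * Real.log (Rn n k) ≤ 3 * n * (Rn n k - 1) := by gcongr
  nlinarith

lemma cn_bounds (hn : 1 ≤ n) (h1 : 1 ≤ Rn n k) {j : ℕ} (hj : j ∈ Finset.range (Jn n k)) :
    Rn n k ≤ cn n k j ∧ cn n k j ≤ 4 * n * Rn n k := by
  have hn1 : (1 : ℝ) ≤ n := by exact_mod_cast hn
  have hR0 : 0 < Rn n k := lt_of_lt_of_le one_pos h1
  have hL1 := Ln_ge h1
  have hL0 : 0 < Ln n k := by linarith
  have h2 : (j : ℝ) ≤ 3 * n * Ln n k := by
    rw [Finset.mem_range, Jn, Nat.lt_succ_iff] at hj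
    exact (Nat.le_floor_iff (by positivity)).1 hj
  constructor
  · unfold cn
    have : 0 ≤ (j : ℝ) * (Rn n k / Ln n k) := by positivity
    linarith
  · unfold cn
    have h2 : (j : ℝ) * (Rn n k / Ln n k) ≤ 3 * n * Ln n k * (Rn n k / Ln n k) := by gcongr
    have h3 : 3 * n * Ln n k * (Rn n k / Ln n k) = 3 * n * Rn n k := by field_simp
    nlinarith

lemma exists_cn (hn : 1 ≤ n) (h1 : 1 ≤ Rn n k) {u : ℝ} (hu1 : Rn n k ≤ u)
    (hu2 : u ≤ 3 * n * Rn n k) :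
    ∃ j ∈ Finset.range (Jn n k), |u - cn n k j| ≤ Rn n k / Ln n k := by
  have hn1 : (1 : ℝ) ≤ n := by exact_mod_cast hn
  have hR0 : 0 < Rn n k := lt_of_lt_of_le one_pos h1
  have hL1 := Ln_ge h1
  have hL0 : 0 < Ln n k := by linarith
  have hρ : 0 < Rn n k / Ln n k := by positivity
  set y : ℝ := (u - Rn n k) / (Rn n k / Ln n k) with hy
  have hy0 : 0 ≤ y := div_nonneg (by linarith) hρ.le
  have hy2 : y ≤ 3 * n * Ln n k := by
    rw [hy, div_le_iff₀ hρ]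
    have h3 : 3 * n * Ln n k * (Rn n k / Ln n k) = 3 * n * Rn n k := by field_simp
    linarith
  have hu : u = Rn n k + y * (Rn n k / Ln n k) := by
    rw [hy, div_mul_cancel₀ _ hρ.ne']
    ring
  refine ⟨⌊y⌋₊, ?_, ?_⟩
  · rw [Finset.mem_range, Jn, Nat.lt_succ_iff]
    exact Nat.floor_le_floor hy2
  · have h3 := Nat.floor_le hy0
    have h4 := Nat.lt_floor_add_one y
    have h5 : u - cn n k ⌊y⌋₊ = (y - ⌊y⌋₊) * (Rn n k / Ln n k) := by
      rw [cn, hu]
      ring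
    rw [h5, abs_of_nonneg (mul_nonneg (by linarith) hρ.le)]
    calc (y - ⌊y⌋₊) * (Rn n k / Ln n k) ≤ 1 * (Rn n k / Ln n k) := by
          gcongr
          linarith
      _ = _ := one_mul _

end

/-- the shell function -/
noncomputable def vk (k : ℕ) (η : E n) : ℝ :=
  ∑ i : Fin n, ∑ j ∈ Finset.range (Jn n k),
    (gd i (Rn n k) (Ln n k) (2 ^ k) (cn n k j) η + gd i (Rn n k) (Ln n k) (2 ^ k) (-cn n k j) η)

lemma gd_nonneg (i : Fin n) (R L σ c : ℝ) (η : E n) : 0 ≤ gd i R L σ c η := (Real.exp_pos _).le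

lemma vk_nonneg (k : ℕ) (η : E n) : 0 ≤ vk k η :=
  Finset.sum_nonneg fun _ _ => Finset.sum_nonneg fun _ _ =>
    add_nonneg (gd_nonneg _ _ _ _ _ _) (gd_nonneg _ _ _ _ _ _)

lemma measurable_vk (k : ℕ) : Measurable (vk (n := n) k) := by
  unfold vk
  refine Finset.measurable_sum _ fun i _ => Finset.measurable_sum _ fun j _ => ?_
  exact (measurable_gd _ _ _ _ _).add (measurable_gd _ _ _ _ _)

/-- lower bound on the shell -/
lemma vk_ge {k : ℕ} (hn : 1 ≤ n) (h1 : 1 ≤ Rn n k) {η : E n}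
    (hk1 : 2 ^ k ≤ ‖(2 * Real.pi) • η‖) (hk2 : ‖(2 * Real.pi) • η‖ < 2 ^ (k + 1)) :
    Real.exp (-4) ≤ vk k η := by
  have hn1 : (1 : ℝ) ≤ n := by exact_mod_cast hn
  have hn0 : (0 : ℝ) < n := by linarith
  have hR0 : 0 < Rn n k := lt_of_lt_of_le one_pos h1
  have hL1 := Ln_ge h1
  have hL0 : 0 < Ln n k := by linarith
  have hpi3 := Real.pi_gt_three
  have hpi4 := Real.pi_lt_d2
  have hR8 : (2 : ℝ) ^ k = 8 * n * Rn n k := by
    unfold Rn
    field_simp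
  rw [norm_smul, Real.norm_eq_abs, abs_of_pos (by positivity)] at hk1 hk2
  rw [pow_succ] at hk2
  have hη0 : 0 ≤ ‖η‖ := norm_nonneg η
  obtain ⟨i, hi⟩ : ∃ i : Fin n, ‖η‖ ≤ n * |η i| := by
    by_contra hcon
    push Not at hcon
    have h2 : ∀ i : Fin n, n ^ 2 * (η i) ^ 2 < ‖η‖ ^ 2 := by
      intro i
      have h3 := hcon i
      have h4 : 0 ≤ (n : ℝ) * |η i| := by positivity
      calc (n : ℝ) ^ 2 * (η i) ^ 2 = (n * |η i|) ^ 2 := by rw [mul_pow, sq_abs]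
        _ < ‖η‖ ^ 2 := by gcongr
    have h3 : ∑ i : Fin n, (n : ℝ) ^ 2 * (η i) ^ 2 < ∑ _i : Fin n, ‖η‖ ^ 2 := by
      refine Finset.sum_lt_sum_of_nonempty ⟨⟨0, hn⟩, Finset.mem_univ _⟩ fun i _ => h2 i
    rw [← Finset.mul_sum, Finset.sum_const, Finset.card_univ, Fintype.card_fin, nsmul_eq_mul] at h3
    have h4 : ∑ i : Fin n, (η i) ^ 2 = ‖η‖ ^ 2 := by
      rw [EuclideanSpace.norm_sq_eq]
      exact Finset.sum_congr rfl fun i _ => by rw [Real.norm_eq_abs, sq_abs]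
    rw [h4] at h3
    have h5 : (n : ℝ) * ‖η‖ ^ 2 ≤ n ^ 2 * ‖η‖ ^ 2 := by
      have : (n : ℝ) ≤ n ^ 2 := by nlinarith
      gcongr
    linarith
  have hle : |η i| ≤ ‖η‖ := by
    have := PiLp.norm_apply_le η i
    rwa [Real.norm_eq_abs] at this
  have e6 : Rn n k ≤ |η i| := by
    have h2 : 8 * n * Rn n k ≤ 2 * Real.pi * (n * |η i|) := by
      rw [← hR8]
      exact hk1.trans (by gcongr)
    have h3 : 0 ≤ |η i| := abs_nonneg _
    have h4 : 2 * Real.pi * (n * |η i|) ≤ 8 * n * |η i| := by nlinarith [mul_nonneg hn0.le h3]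
    have h5 : 8 * n * Rn n k ≤ 8 * n * |η i| := h2.trans h4
    exact le_of_mul_le_mul_left h5 (by positivity)
  have e7 : |η i| ≤ 3 * n * Rn n k := by
    have h2 : 6 * |η i| ≤ 16 * n * Rn n k := by
      have : 2 * Real.pi * ‖η‖ < 8 * n * Rn n k * 2 := by rw [← hR8]; exact hk2
      nlinarith
    nlinarith [mul_pos hn0 hR0]
  have e8 : ((2 ^ k : ℝ) ^ 2)⁻¹ * (‖η‖ ^ 2 - (η i) ^ 2) ≤ 1 / 9 := by
    rw [inv_mul_le_iff₀ (by positivity)]
    have h2 : 3 * ‖η‖ ≤ 2 ^ k := by nlinarith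
    have h3 : (3 * ‖η‖) ^ 2 ≤ (2 ^ k) ^ 2 := by gcongr
    nlinarith [sq_nonneg (η i)]
  have key : ∀ c : ℝ, |η i - c| ≤ Rn n k / Ln n k →
      Real.exp (-4) ≤ gd i (Rn n k) (Ln n k) (2 ^ k) c η := by
    intro c hc
    rw [gd_eq]
    apply Real.exp_le_exp.2
    have h6 : (Ln n k / Rn n k) ^ 2 * (η i - c) ^ 2 ≤ 1 := by
      have h7 : (η i - c) ^ 2 ≤ (Rn n k / Ln n k) ^ 2 := by
        rw [← sq_abs]
        gcongr
      calc (Ln n k / Rn n k) ^ 2 * (η i - c) ^ 2 ≤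
            (Ln n k / Rn n k) ^ 2 * (Rn n k / Ln n k) ^ 2 := by gcongr
        _ = 1 := by field_simp
    nlinarith
  have nn : ∀ i : Fin n, ∀ j ∈ Finset.range (Jn n k),
      0 ≤ gd i (Rn n k) (Ln n k) (2 ^ k) (cn n k j) η +
      gd i (Rn n k) (Ln n k) (2 ^ k) (-cn n k j) η := fun i j _ =>
    add_nonneg (gd_nonneg _ _ _ _ _ _) (gd_nonneg _ _ _ _ _ _)
  unfold vk
  refine le_trans ?_ (Finset.single_le_sum (fun i _ => Finset.sum_nonneg (nn i)) (Finset.mem_univ i))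
  rcases le_total 0 (η i) with hu0 | hu0
  · rw [abs_of_nonneg hu0] at e6 e7
    obtain ⟨j, hj, hjc⟩ := exists_cn hn h1 e6 e7
    refine le_trans ?_ (Finset.single_le_sum (nn i) hj)
    have := key _ hjc
    have h9 := gd_nonneg i (Rn n k) (Ln n k) (2 ^ k) (-cn n k j) η
    linarith
  · rw [abs_of_nonpos hu0] at e6 e7
    obtain ⟨j, hj, hjc⟩ := exists_cn hn h1 e6 e7
    refine le_trans ?_ (Finset.single_le_sum (nn i) hj)
    have h10 : |η i - -cn n k j| ≤ Rn n k / Ln n k := by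
      rw [← abs_neg]
      rw [show -(η i - -cn n k j) = -η i - cn n k j by ring]
      exact hjc
    have := key _ h10
    have h9 := gd_nonneg i (Rn n k) (Ln n k) (2 ^ k) (cn n k j) η
    linarith

/-- the isotropic Gaussian -/
noncomputable def g0 (k : ℕ) (η : E n) : ℝ := Real.exp (-(Real.pi * (((2 ^ k : ℝ) ^ 2)⁻¹ * ‖η‖ ^ 2)))

lemma measurable_g0 (k : ℕ) : Measurable (g0 (n := n) k) := by
  unfold g0
  fun_prop

/-- one Gaussian from above -/
lemma gd_le {k : ℕ} (hn : 1 ≤ n) (h1 : 1 ≤ Rn n k) (i : Fin n) {c : ℝ}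
    (hc : |c| ≤ 4 * n * Rn n k) (η : E n) :
    gd i (Rn n k) (Ln n k) (2 ^ k) c η ≤ Real.exp (8 * Real.pi * n ^ 2) *
      Real.exp (-(Real.pi / 2 * ((Ln n k / Rn n k) * (η i - c)) ^ 2)) * g0 k η := by
  have hn1 : (1 : ℝ) ≤ n := by exact_mod_cast hn
  have hn0 : (0 : ℝ) < n := by linarith
  have hR0 : 0 < Rn n k := lt_of_lt_of_le one_pos h1
  have hL1 := Ln_ge h1
  have hL0 : 0 < Ln n k := by linarith
  have hpi := Real.pi_pos
  have hR8 : (2 : ℝ) ^ k = 8 * n * Rn n k := by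
    unfold Rn
    field_simp
  rw [gd_eq, g0, ← Real.exp_add, ← Real.exp_add]
  apply Real.exp_le_exp.2
  set u : ℝ := η i with hu
  have e1 : ((Ln n k / Rn n k) * (u - c)) ^ 2 = (Ln n k / Rn n k) ^ 2 * (u - c) ^ 2 := mul_pow _ _ _
  rw [e1]
  have hc2 : c ^ 2 ≤ (4 * n * Rn n k) ^ 2 := by
    rw [← sq_abs]
    gcongr
  have h2 : u ^ 2 / 2 - c ^ 2 ≤ (u - c) ^ 2 := by nlinarith [sq_nonneg (u - 2 * c)]
  have h3 : ((2 ^ k : ℝ) ^ 2)⁻¹ * u ^ 2 - 8 * n ^ 2 ≤ (Ln n k / Rn n k) ^ 2 * (u - c) ^ 2 / 2 := by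
    have h4 : 1 / (Rn n k) ^ 2 * (u ^ 2 / 2 - c ^ 2) ≤ (Ln n k / Rn n k) ^ 2 * (u - c) ^ 2 := by
      calc 1 / (Rn n k) ^ 2 * (u ^ 2 / 2 - c ^ 2) ≤ 1 / (Rn n k) ^ 2 * (u - c) ^ 2 := by gcongr
        _ ≤ (Ln n k / Rn n k) ^ 2 * (u - c) ^ 2 := by
            have : 1 / (Rn n k) ^ 2 ≤ (Ln n k / Rn n k) ^ 2 := by
              rw [div_pow]
              gcongr
              nlinarith
            gcongr
    have h5 : 1 / (Rn n k) ^ 2 * c ^ 2 ≤ 16 * n ^ 2 := by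
      rw [div_mul_eq_mul_div, one_mul, div_le_iff₀ (by positivity)]
      nlinarith
    have h6 : ((2 ^ k : ℝ) ^ 2)⁻¹ * u ^ 2 ≤ 1 / (Rn n k) ^ 2 * (u ^ 2 / 4) := by
      rw [hR8, inv_mul_eq_div, div_mul_div_comm, one_mul]
      have h7 : (Rn n k) ^ 2 * 4 ≤ (8 * n * Rn n k) ^ 2 := by
        have : (1 : ℝ) ≤ n ^ 2 := by nlinarith
        nlinarith [mul_nonneg (sub_nonneg.2 this) (sq_nonneg (Rn n k))]
      gcongr
    nlinarith
  nlinarith

/-- the shell function from above -/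
lemma vk_le {k : ℕ} (hn : 1 ≤ n) (h1 : 1 ≤ Rn n k) (η : E n) :
    vk k η ≤ (n * (8 * Real.exp (8 * Real.pi * n ^ 2))) * g0 k η := by
  have hR0 : 0 < Rn n k := lt_of_lt_of_le one_pos h1
  have hL1 := Ln_ge h1
  have hL0 : 0 < Ln n k := by linarith
  have hg0 : 0 ≤ g0 k η := (Real.exp_pos _).le
  have hX : 0 ≤ Real.exp (8 * Real.pi * n ^ 2) := (Real.exp_pos _).le
  have key : ∀ i : Fin n, ∑ j ∈ Finset.range (Jn n k),
      (gd i (Rn n k) (Ln n k) (2 ^ k) (cn n k j) η + gd i (Rn n k) (Ln n k) (2 ^ k) (-cn n k j) η) ≤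
      (8 * Real.exp (8 * Real.pi * n ^ 2)) * g0 k η := by
    intro i
    rw [Finset.sum_add_distrib]
    have t1 := theta_le ((Ln n k / Rn n k) * (η i - Rn n k)) (Jn n k)
    have t2 := theta_le ((Ln n k / Rn n k) * (-η i - Rn n k)) (Jn n k)
    have q1 : ∑ j ∈ Finset.range (Jn n k), gd i (Rn n k) (Ln n k) (2 ^ k) (cn n k j) η ≤
        Real.exp (8 * Real.pi * n ^ 2) * 4 * g0 k η := by
      calc ∑ j ∈ Finset.range (Jn n k), gd i (Rn n k) (Ln n k) (2 ^ k) (cn n k j) η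
          ≤ ∑ j ∈ Finset.range (Jn n k), Real.exp (8 * Real.pi * n ^ 2) *
            Real.exp (-(Real.pi / 2 * ((Ln n k / Rn n k) * (η i - Rn n k) - j) ^ 2)) * g0 k η := by
            refine Finset.sum_le_sum fun j hj => ?_
            obtain ⟨b1, b2⟩ := cn_bounds hn h1 hj
            refine (gd_le hn h1 i (by rw [abs_of_pos (lt_of_lt_of_le hR0 b1)]; exact b2) η).trans
              (le_of_eq ?_)
            congr 4
            rw [cn]
            field_simp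
            ring
        _ = Real.exp (8 * Real.pi * n ^ 2) * (∑ j ∈ Finset.range (Jn n k),
            Real.exp (-(Real.pi / 2 * ((Ln n k / Rn n k) * (η i - Rn n k) - j) ^ 2))) * g0 k η := by
            rw [Finset.mul_sum, Finset.sum_mul]
        _ ≤ _ := by gcongr
    have q2 : ∑ j ∈ Finset.range (Jn n k), gd i (Rn n k) (Ln n k) (2 ^ k) (-cn n k j) η ≤
        Real.exp (8 * Real.pi * n ^ 2) * 4 * g0 k η := by
      calc ∑ j ∈ Finset.range (Jn n k), gd i (Rn n k) (Ln n k) (2 ^ k) (-cn n k j) η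
          ≤ ∑ j ∈ Finset.range (Jn n k), Real.exp (8 * Real.pi * n ^ 2) *
            Real.exp (-(Real.pi / 2 * ((Ln n k / Rn n k) * (-η i - Rn n k) - j) ^ 2)) * g0 k η := by
            refine Finset.sum_le_sum fun j hj => ?_
            obtain ⟨b1, b2⟩ := cn_bounds hn h1 hj
            refine (gd_le hn h1 i (by rw [abs_neg, abs_of_pos (lt_of_lt_of_le hR0 b1)]; exact b2) η).trans
              (le_of_eq ?_)
            congr 3
            rw [cn]
            field_simp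
            ring
        _ = Real.exp (8 * Real.pi * n ^ 2) * (∑ j ∈ Finset.range (Jn n k),
            Real.exp (-(Real.pi / 2 * ((Ln n k / Rn n k) * (-η i - Rn n k) - j) ^ 2))) * g0 k η := by
            rw [Finset.mul_sum, Finset.sum_mul]
        _ ≤ _ := by gcongr
    linarith
  unfold vk
  calc _ ≤ ∑ _i : Fin n, (8 * Real.exp (8 * Real.pi * n ^ 2)) * g0 k η :=
        Finset.sum_le_sum fun i _ => key i
    _ = _ := by
        rw [Finset.sum_const, Finset.card_univ, Fintype.card_fin, nsmul_eq_mul]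
        ring

end Vale.Agent.P076.R2.H45
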