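import Vale.Agent.P076.R2.H45.Tm4
import Vale.Agent.P076.R2.H45.Tm3

/-!
# The kernels: far times, short times; the quadratic bound for the shell
-/

open MeasureTheory Complex FourierTransform Filter Topology Set
open scoped ENNReal NNReal

namespace Vale.Agent.P076.R2.H45

open Vale.Agent.P076 Vale.Agent.P076.H791

variable {n : ℕ}

/-- the main factor at far times -/
lemma fac_far {R L c Z t : ℝ} (hR : 0 < R) (hL : 1 ≤ L) (hc : R ≤ |c|)
    (hZ : |Z| ≤ |t| * R) (ht : 1 ≤ |t| * R) :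
    Fac ((L / R) ^ 2) c Z t ≤
      R / L * (Real.exp (-(Real.pi * (L ^ 2 / 8))) + Real.exp (-(Real.pi * (R ^ 2 / L ^ 2 / 2)))) := by
  have hL0 : 0 < L := by linarith
  have hpi := Real.pi_pos
  set a : ℝ := (L / R) ^ 2 with ha
  have ha0 : 0 < a := by positivity
  unfold Fac
  set D : ℝ := a ^ 2 + 4 * t ^ 2 with hD
  have hD0 : 0 < D := by positivity
  set W : ℝ := Z - 2 * t * c with hW
  have htri : |2 * t * c| = 2 * |t| * |c| := by rw [abs_mul, abs_mul, abs_two]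
  have ht0 : 0 < |t| := by
    by_contra hcon
    have : |t| = 0 := le_antisymm (not_lt.1 hcon) (abs_nonneg t)
    rw [this] at ht
    linarith
  have hW1 : |t| * R ≤ |W| := by
    have h1 : |2 * t * c| ≤ |Z| + |W| := by
      have h := abs_sub Z W
      have e : Z - W = 2 * t * c := by rw [hW]; ring
      rw [e] at h; exact h
    rw [htri] at h1
    have h2 : |t| * R ≤ |t| * |c| := by gcongr
    linarith
  have hW2 : t ^ 2 * R ^ 2 ≤ W ^ 2 := by
    have h5 : (|t| * R) ^ 2 ≤ |W| ^ 2 := by gcongr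
    rw [mul_pow, sq_abs, sq_abs] at h5
    exact h5
  have hDa : D ^ (-(1 / 4) : ℝ) ≤ R / L := by
    have h1 : D ^ (-(1 / 4) : ℝ) ≤ (a ^ 2) ^ (-(1 / 4) : ℝ) :=
      Real.rpow_le_rpow_of_nonpos (by positivity) (by rw [hD]; nlinarith [sq_nonneg t]) (by norm_num)
    have h2 : (a ^ 2) ^ (-(1 / 4) : ℝ) = R / L := by
      have h3 : a ^ 2 = (L / R) ^ (4 : ℝ) := by
        rw [ha, ← pow_mul, ← Real.rpow_natCast]; norm_num
      rw [h3, ← Real.rpow_mul (by positivity), show (4 : ℝ) * (-(1 / 4)) = -1 by norm_num,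
        Real.rpow_neg_one, inv_div]
    rw [← h2]; exact h1
  have haR : a * R ^ 2 = L ^ 2 := by rw [ha]; field_simp
  have e1 : Real.exp (-(Real.pi * (a * W ^ 2 / D))) ≤
      Real.exp (-(Real.pi * (L ^ 2 / 8))) + Real.exp (-(Real.pi * (R ^ 2 / L ^ 2 / 2))) := by
    rcases le_total (a ^ 2) (4 * t ^ 2) with hta | hta
    · have h1 : L ^ 2 / 8 ≤ a * W ^ 2 / D := by
        rw [le_div_iff₀ hD0]
        have h5 : D ≤ 8 * t ^ 2 := by rw [hD]; linarith
        have h6 : L ^ 2 / 8 * D ≤ L ^ 2 / 8 * (8 * t ^ 2) := by gcongr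
        refine h6.trans ?_
        rw [← haR]
        have h7 : a * (t ^ 2 * R ^ 2) ≤ a * W ^ 2 := by gcongr
        linarith
      have h2 : Real.exp (-(Real.pi * (a * W ^ 2 / D))) ≤ Real.exp (-(Real.pi * (L ^ 2 / 8))) := by
        gcongr
      have h3 := Real.exp_pos (-(Real.pi * (R ^ 2 / L ^ 2 / 2)))
      linarith
    · have h1 : R ^ 2 / L ^ 2 / 2 ≤ a * W ^ 2 / D := by
        rw [le_div_iff₀ hD0]
        have h5 : D ≤ 2 * a ^ 2 := by rw [hD]; linarith
        have h6 : R ^ 2 / L ^ 2 / 2 * D ≤ R ^ 2 / L ^ 2 / 2 * (2 * a ^ 2) := by gcongr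
        refine h6.trans ?_
        have h7 : (1 : ℝ) ≤ t ^ 2 * R ^ 2 := by
          have h8 : (1 : ℝ) ^ 2 ≤ (|t| * R) ^ 2 := by gcongr
          rw [mul_pow, sq_abs, one_pow] at h8
          exact h8
        have h8 : R ^ 2 / L ^ 2 / 2 * (2 * a ^ 2) = a := by
          rw [ha]; field_simp
        rw [h8]
        nlinarith
      have h2 : Real.exp (-(Real.pi * (a * W ^ 2 / D))) ≤
          Real.exp (-(Real.pi * (R ^ 2 / L ^ 2 / 2))) := by
        gcongr
      have h3 := Real.exp_pos (-(Real.pi * (L ^ 2 / 8)))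
      linarith
  gcongr

/-- the kernel of one Gaussian at far times -/
lemma ker_gd_far {R L σ c t : ℝ} (hR : 0 < R) (hL : 1 ≤ L) (hσ : 0 < σ) (hc : R ≤ |c|) (i : Fin n)
    {z : E n} (hZ : ‖z‖ ≤ |t| * R) (ht : 1 ≤ |t| * R) :
    ‖Ker (gd i R L σ c) z t‖ ≤
      R / L * (Real.exp (-(Real.pi * (L ^ 2 / 8))) + Real.exp (-(Real.pi * (R ^ 2 / L ^ 2 / 2)))) *
        σ ^ (n - 1) := by
  have hL0 : 0 < L := by linarith
  have hb0 : 0 < (σ ^ 2)⁻¹ := by positivity
  have h1 := H305.norm_Ker_gauss (aa i ((L / R) ^ 2) ((σ ^ 2)⁻¹)) (aa i c 0)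
    (fun j => aa_pos (by positivity) hb0 j) z t
  have h2 : ‖Ker (gd i R L σ c) z t‖ =
      ∏ j, Fac (aa i ((L / R) ^ 2) ((σ ^ 2)⁻¹) j) (aa i c 0 j) (z j) t := h1
  rw [h2, ← prod_aa i]
  refine Finset.prod_le_prod (fun j _ => Fac_nonneg _ _ _ _) fun j _ => ?_
  by_cases hj : j = i
  · subst hj
    simp only [aa, if_true]
    have hz : |z j| ≤ ‖z‖ := by
      have := PiLp.norm_apply_le z j
      rwa [Real.norm_eq_abs] at this
    exact fac_far hR hL hc (hz.trans hZ) ht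
  · simp only [Fac, aa, hj, if_false]
    have h3 := psi_trivial (D := ((σ ^ 2)⁻¹) ^ 2 + 4 * t ^ 2) (b := (σ ^ 2)⁻¹)
      (y := (σ ^ 2)⁻¹ * (z j - 2 * t * 0) ^ 2 / (((σ ^ 2)⁻¹) ^ 2 + 4 * t ^ 2)) hb0
      (by nlinarith [sq_nonneg t]) (by positivity)
    have e1 : ((σ ^ 2)⁻¹) ^ (-(1 / 2) : ℝ) = σ := by
      rw [Real.inv_rpow (by positivity), ← Real.rpow_natCast, ← Real.rpow_mul hσ.le,
        ← Real.rpow_neg hσ.le]
      norm_num
    rw [e1] at h3
    exact h3

lemma integrable_gd {R L σ c : ℝ} (hR : 0 < R) (hL : 0 < L) (hσ : 0 < σ) (i : Fin n) :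
    Integrable (gd i R L σ c) :=
  H305.integrable_gauss (aa i ((L / R) ^ 2) ((σ ^ 2)⁻¹)) (aa i c 0)
    (fun j => aa_pos (by positivity) (by positivity) j)

lemma integrable_Ker {G : E n → ℝ} (hG : Integrable G) (z : E n) (t : ℝ) :
    Integrable fun η => (G η : ℂ) * ph z t 0 η := by
  refine hG.ofReal.mul_bdd (c := 1) (continuous_ph z t 0).aestronglyMeasurable
    (Eventually.of_forall fun η => ?_)
  rw [norm_ph_zero]

lemma Ker_add {G H : E n → ℝ} (hG : Integrable G) (hH : Integrable H) (z : E n) (t : ℝ) :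
    Ker (fun η => G η + H η) z t = Ker G z t + Ker H z t := by
  unfold Ker
  rw [← integral_add (integrable_Ker hG z t) (integrable_Ker hH z t)]
  refine integral_congr_ae (Eventually.of_forall fun η => ?_)
  simp only
  push_cast
  ring

lemma Ker_sum {ι : Type*} (t : Finset ι) {G : ι → E n → ℝ} (hG : ∀ i, Integrable (G i)) (z : E n)
    (τ : ℝ) : Ker (fun η => ∑ i ∈ t, G i η) z τ = ∑ i ∈ t, Ker (G i) z τ := by
  unfold Ker
  rw [← integral_finsetSum _ fun i _ => integrable_Ker (hG i) z τ]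
  refine integral_congr_ae (Eventually.of_forall fun η => ?_)
  simp only
  push_cast
  rw [Finset.sum_mul]

lemma integrable_vk {k : ℕ} (h1 : 1 ≤ Rn n k) : Integrable (vk (n := n) k) := by
  have hR0 : 0 < Rn n k := lt_of_lt_of_le one_pos h1
  have hL0 : 0 < Ln n k := lt_of_lt_of_le one_pos (Ln_ge h1)
  unfold vk
  refine integrable_finsetSum _ fun i _ => integrable_finsetSum _ fun j _ => ?_
  exact (integrable_gd hR0 hL0 (by positivity) i).add (integrable_gd hR0 hL0 (by positivity) i)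

/-- the far constant -/
noncomputable def κn (n : ℕ) : ℝ :=
  8 * n ^ 2 * (8 * n) ^ (n - 1) * (1 + n.factorial * (6 * n / Real.pi) ^ n)

lemma κn_nonneg : 0 ≤ κn n := by
  have := Real.pi_pos
  unfold κn
  positivity

/-- the far kernel of the shell -/
lemma ker_vk_far {k : ℕ} (hn : 1 ≤ n) (h1 : 1 ≤ Rn n k) {z : E n} {t : ℝ}
    (hZ : ‖z‖ ≤ |t| * Rn n k) (ht : 1 ≤ |t| * Rn n k) : ‖Ker (vk k) z t‖ ≤ κn n := by
  have hn1 : (1 : ℝ) ≤ n := by exact_mod_cast hn
  have hn0 : (0 : ℝ) < n := by linarith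
  have hR0 : 0 < Rn n k := lt_of_lt_of_le one_pos h1
  have hL1 := Ln_ge h1
  have hL0 : 0 < Ln n k := by linarith
  have hpi := Real.pi_pos
  have hpi3 := Real.pi_gt_three
  have hR8 : (2 : ℝ) ^ k = 8 * n * Rn n k := by
    unfold Rn
    field_simp
  set R : ℝ := Rn n k with hR
  set L : ℝ := Ln n k with hL
  set X : ℝ := Real.exp (-(Real.pi * (L ^ 2 / 8))) + Real.exp (-(Real.pi * (R ^ 2 / L ^ 2 / 2)))
    with hX
  have hX0 : 0 ≤ X := by positivity
  have e1 : Ker (vk k) z t = ∑ i : Fin n, ∑ j ∈ Finset.range (Jn n k),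
      (Ker (gd i R L (2 ^ k) (cn n k j)) z t + Ker (gd i R L (2 ^ k) (-cn n k j)) z t) := by
    have i1 : ∀ i : Fin n, ∀ j : ℕ, Integrable fun η => gd i R L (2 ^ k) (cn n k j) η +
        gd i R L (2 ^ k) (-cn n k j) η := fun i j =>
      (integrable_gd hR0 hL0 (by positivity) i).add (integrable_gd hR0 hL0 (by positivity) i)
    have i2 : ∀ i : Fin n, Integrable fun η => ∑ j ∈ Finset.range (Jn n k),
        (gd i R L (2 ^ k) (cn n k j) η + gd i R L (2 ^ k) (-cn n k j) η) := fun i =>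
      integrable_finsetSum _ fun j _ => i1 i j
    have s1 := Ker_sum Finset.univ i2 z t
    have s2 : ∀ i : Fin n, Ker (fun η => ∑ j ∈ Finset.range (Jn n k),
        (gd i R L (2 ^ k) (cn n k j) η + gd i R L (2 ^ k) (-cn n k j) η)) z t =
        ∑ j ∈ Finset.range (Jn n k),
        (Ker (gd i R L (2 ^ k) (cn n k j)) z t + Ker (gd i R L (2 ^ k) (-cn n k j)) z t) := by
      intro i
      rw [Ker_sum _ (i1 i) z t]
      exact Finset.sum_congr rfl fun j _ =>
        Ker_add (integrable_gd hR0 hL0 (by positivity) i) (integrable_gd hR0 hL0 (by positivity) i) z t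
    simp_rw [s2] at s1
    exact s1
  have hJ : (Jn n k : ℝ) ≤ 4 * n * L := by
    have h2 : ((⌊3 * n * Ln n k⌋₊ : ℕ) : ℝ) ≤ 3 * n * Ln n k := Nat.floor_le (by positivity)
    unfold Jn
    push_cast
    rw [← hL] at h2 ⊢
    nlinarith
  have hone : ∀ i : Fin n, ∀ j ∈ Finset.range (Jn n k),
      ‖Ker (gd i R L (2 ^ k) (cn n k j)) z t + Ker (gd i R L (2 ^ k) (-cn n k j)) z t‖ ≤
        2 * (R / L * X * (2 ^ k) ^ (n - 1)) := by
    intro i j hj
    obtain ⟨b1, b2⟩ := cn_bounds hn h1 hj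
    have hc : |cn n k j| = cn n k j := abs_of_pos (lt_of_lt_of_le hR0 b1)
    have q1 := ker_gd_far (σ := 2 ^ k) (c := cn n k j) hR0 hL1 (by positivity) (by rw [hc]; exact b1) i hZ ht
    have q2 := ker_gd_far (σ := 2 ^ k) (c := -cn n k j) hR0 hL1 (by positivity)
      (by rw [abs_neg, hc]; exact b1) i hZ ht
    refine (norm_add_le _ _).trans ?_
    linarith
  have htot : ‖Ker (vk k) z t‖ ≤ n * (Jn n k * (2 * (R / L * X * (2 ^ k) ^ (n - 1)))) := by
    rw [e1]
    refine (norm_sum_le _ _).trans ?_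
    calc ∑ i : Fin n, ‖∑ j ∈ Finset.range (Jn n k),
        (Ker (gd i R L (2 ^ k) (cn n k j)) z t + Ker (gd i R L (2 ^ k) (-cn n k j)) z t)‖
        ≤ ∑ _i : Fin n, (Jn n k * (2 * (R / L * X * (2 ^ k) ^ (n - 1)))) := by
          refine Finset.sum_le_sum fun i _ => (norm_sum_le _ _).trans ?_
          refine (Finset.sum_le_sum (hone i)).trans ?_
          rw [Finset.sum_const, Finset.card_range, nsmul_eq_mul]
      _ = _ := by rw [Finset.sum_const, Finset.card_univ, Fintype.card_fin, nsmul_eq_mul]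
  have e2 : (n : ℝ) * (Jn n k * (2 * (R / L * X * (2 ^ k) ^ (n - 1)))) ≤
      8 * n ^ 2 * (8 * n) ^ (n - 1) * (R ^ n * X) := by
    calc (n : ℝ) * (Jn n k * (2 * (R / L * X * (2 ^ k) ^ (n - 1))))
        ≤ n * ((4 * n * L) * (2 * (R / L * X * (2 ^ k) ^ (n - 1)))) := by gcongr
      _ = 8 * n ^ 2 * (8 * n) ^ (n - 1) * (R ^ n * X) := by
          rw [hR8]
          obtain ⟨m, rfl⟩ : ∃ m, n = m + 1 := ⟨n - 1, by omega⟩
          simp only [Nat.add_sub_cancel]
          rw [mul_pow _ R, pow_succ R]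
          field_simp
          ring
  have e3 : R ^ n * X ≤ 1 + n.factorial * (6 * n / Real.pi) ^ n := by
    have hlog := Real.log_nonneg h1
    have a1 : R ^ n * Real.exp (-(Real.pi * (L ^ 2 / 8))) ≤ 1 := by
      have h4 : R ^ n = Real.exp (n * Real.log R) := by
        rw [Real.exp_nat_mul, Real.exp_log hR0]
      rw [h4, ← Real.exp_add, Real.exp_le_one_iff, hL, Ln_sq h1, ← hR]
      have h6 : 0 ≤ (n : ℝ) * Real.log R := by positivity
      nlinarith
    have a2 : R ^ n * Real.exp (-(Real.pi * (R ^ 2 / L ^ 2 / 2))) ≤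
        n.factorial * (6 * n / Real.pi) ^ n := by
      set x : ℝ := Real.pi * (R / (6 * n)) with hx
      have hx0 : 0 ≤ x := by positivity
      have h2 : x ≤ Real.pi * (R ^ 2 / L ^ 2 / 2) := by
        have h3 : R / (6 * n) ≤ R ^ 2 / L ^ 2 / 2 := by
          have h4 := Ln_le hn h1
          rw [← hL, ← hR] at h4
          rw [div_div, div_le_div_iff₀ (by positivity) (by positivity)]
          nlinarith
        rw [hx]
        gcongr
      have h3 : x ^ n / n.factorial ≤ Real.exp x := Real.pow_div_factorial_le_exp x hx0 n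
      have h4 : R ^ n = (6 * n / Real.pi) ^ n * x ^ n := by
        rw [← mul_pow, hx]
        congr 1
        field_simp
      have h5 : x ^ n ≤ n.factorial * Real.exp x := by
        rw [div_le_iff₀ (by positivity)] at h3
        linarith
      calc R ^ n * Real.exp (-(Real.pi * (R ^ 2 / L ^ 2 / 2)))
          ≤ R ^ n * Real.exp (-x) := by gcongr
        _ = (6 * n / Real.pi) ^ n * x ^ n * Real.exp (-x) := by rw [h4]
        _ ≤ (6 * n / Real.pi) ^ n * (n.factorial * Real.exp x) * Real.exp (-x) := by gcongr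
        _ = n.factorial * (6 * n / Real.pi) ^ n * (Real.exp x * Real.exp (-x)) := by ring
        _ = _ := by rw [← Real.exp_add]; simp
    rw [hX, mul_add]
    linarith
  refine htot.trans (e2.trans ?_)
  unfold κn
  gcongr

/-! ### short times -/

/-- the constant for short times -/
noncomputable def Qc : ℝ := 1 + 64 * Real.pi ^ 2

lemma g0_eq (k : ℕ) : g0 (n := n) k = fun y : E n =>
    Real.exp (-(Real.pi * ∑ i, (fun _ : Fin n => ((2 ^ k : ℝ) ^ 2)⁻¹) i * (y i - (fun _ => (0:ℝ)) i) ^ 2)) := by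
  funext y
  unfold g0
  congr 3
  rw [EuclideanSpace.norm_sq_eq, Finset.mul_sum]
  refine Finset.sum_congr rfl fun i _ => ?_
  rw [Real.norm_eq_abs, sq_abs, sub_zero]

lemma integrable_g0 (k : ℕ) : Integrable (g0 (n := n) k) := by
  rw [g0_eq]
  exact H305.integrable_gauss _ _ fun _ => by positivity

lemma ker_g0 (k : ℕ) {z : E n} {t : ℝ} (ht : |t| ≤ 4 * Real.pi / 4 ^ k) :
    ‖Ker (g0 k) z t‖ ≤ ∏ i : Fin n, ((2 : ℝ) ^ k *
      Real.exp (-(Real.pi / (Qc * ((2 ^ k : ℝ) ^ 2)⁻¹)) * (z i) ^ 2)) := by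
  have hpi := Real.pi_pos
  have hQ : 0 < Qc := by unfold Qc; positivity
  have h1 := H305.norm_Ker_gauss (fun _ : Fin n => ((2 ^ k : ℝ) ^ 2)⁻¹) (fun _ => 0)
    (fun _ => by positivity) z t
  rw [← g0_eq] at h1
  rw [h1]
  set a : ℝ := ((2 ^ k : ℝ) ^ 2)⁻¹ with ha
  have ha0 : 0 < a := by positivity
  have h4 : (4 : ℝ) ^ k = ((2 : ℝ) ^ k) ^ 2 := by
    rw [← pow_mul, mul_comm, pow_mul]; norm_num
  have ht2 : 4 * t ^ 2 ≤ 64 * Real.pi ^ 2 * a ^ 2 := by
    have h2 : |t| ≤ 4 * Real.pi * a := by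
      rw [ha, ← div_eq_mul_inv, ← h4]; exact ht
    have h3 : |t| ^ 2 ≤ (4 * Real.pi * a) ^ 2 := by gcongr
    rw [sq_abs] at h3
    nlinarith
  have hD : a ^ 2 + 4 * t ^ 2 ≤ Qc * a ^ 2 := by unfold Qc; linarith
  refine Finset.prod_le_prod (fun i _ => by positivity) fun i _ => ?_
  have e1 : (a ^ 2 + 4 * t ^ 2) ^ (-(1 / 4) : ℝ) ≤ 2 ^ k := by
    have h2 : (a ^ 2 + 4 * t ^ 2) ^ (-(1 / 4) : ℝ) ≤ (a ^ 2) ^ (-(1 / 4) : ℝ) :=
      Real.rpow_le_rpow_of_nonpos (by positivity) (by nlinarith [sq_nonneg t]) (by norm_num)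
    have h3 : (a ^ 2) ^ (-(1 / 4) : ℝ) = 2 ^ k := by
      rw [ha, ← inv_pow, ← pow_mul, ← Real.rpow_natCast, ← Real.rpow_mul (by positivity)]
      norm_num
      rw [Real.rpow_neg_one, inv_inv]
    rw [← h3]; exact h2
  have e2 : Real.exp (-(Real.pi * (a * (z i - 2 * t * 0) ^ 2 / (a ^ 2 + 4 * t ^ 2)))) ≤
      Real.exp (-(Real.pi / (Qc * a)) * (z i) ^ 2) := by
    apply Real.exp_le_exp.2
    have h5 : (z i) ^ 2 / (Qc * a) ≤ a * (z i - 2 * t * 0) ^ 2 / (a ^ 2 + 4 * t ^ 2) := by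
      rw [mul_zero, sub_zero, div_le_div_iff₀ (by positivity) (by positivity)]
      have h6 := mul_le_mul_of_nonneg_left hD (sq_nonneg (z i))
      nlinarith
    have h7 : -(Real.pi / (Qc * a)) * (z i) ^ 2 = -(Real.pi * ((z i) ^ 2 / (Qc * a))) := by ring
    rw [h7]
    have h8 := mul_le_mul_of_nonneg_left h5 hpi.le
    linarith
  gcongr

/-- short times -/
lemma QQ_short (k : ℕ) {r : ℕ} {A : Set (E n)} {s : E n → ℝ} {h : E n → ℂ}
    (a : Adm r A s h) {b : ℝ} (hb : ∀ x ∈ A, |s x - b| ≤ 2 * Real.pi / 4 ^ k) :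
    QQ (g0 k) A s h ≤ √Qc ^ n * (volume : Measure (E n)).real A := by
  have hpi := Real.pi_pos
  have hQ : 0 < Qc := by unfold Qc; positivity
  set f : Fin n → ℝ → ℝ := fun _ x => (2 : ℝ) ^ k *
    Real.exp (-(Real.pi / (Qc * ((2 ^ k : ℝ) ^ 2)⁻¹)) * x ^ 2) with hf
  have hc0 : 0 < Real.pi / (Qc * ((2 ^ k : ℝ) ^ 2)⁻¹) := by positivity
  have f0 : ∀ i x, 0 ≤ f i x := fun i x => by simp only [hf]; positivity
  have fi : ∀ i, Integrable (f i) := fun i => (integrable_exp_neg_mul_sq hc0).const_mul _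
  have fint : ∀ i, ∫ x, f i x = √Qc := by
    intro i
    simp only [hf]
    rw [integral_const_mul, integral_gaussian]
    have e1 : Real.pi / (Real.pi / (Qc * ((2 ^ k : ℝ) ^ 2)⁻¹)) = Qc / (2 ^ k) ^ 2 := by
      field_simp
    rw [e1, Real.sqrt_div hQ.le, Real.sqrt_sq (by positivity)]
    field_simp
  have fm : Measurable fun z : E n => ENNReal.ofReal (∏ i, f i (z i)) := by
    refine ENNReal.measurable_ofReal.comp (Finset.measurable_prod _ fun i _ => ?_)
    simp only [hf]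
    fun_prop
  refine QQ_kernel (integrable_g0 k) (measurable_g0 k) a (B := fun z => ENNReal.ofReal (∏ i, f i (z i)))
    fm (fun x hx y hy => ?_) (by positivity) ?_
  · rw [← ofReal_norm]
    refine ENNReal.ofReal_le_ofReal (ker_g0 k ?_)
    have h1 := hb x hx
    have h2 := hb y hy
    calc |s x - s y| = |(s x - b) - (s y - b)| := by ring_nf
      _ ≤ |s x - b| + |s y - b| := abs_sub _ _
      _ ≤ 2 * Real.pi / 4 ^ k + 2 * Real.pi / 4 ^ k := add_le_add h1 h2
      _ = _ := by ring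
  · refine (setLIntegral_le_lintegral _ _).trans ?_
    rw [lint_prod f f0 fi]
    refine ENNReal.ofReal_le_ofReal (le_of_eq ?_)
    rw [Finset.prod_congr rfl fun i _ => fint i, Finset.prod_const, Finset.card_univ,
      Fintype.card_fin]

end Vale.Agent.P076.R2.H45
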