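import Vale.Agent.P076.R2.H45.Tm5
import Vale.Agent.P076.R2.H45.Tm1

/-!
# The maximal principle along sparse sets of times
-/

open MeasureTheory Complex FourierTransform Filter Topology Set
open scoped ENNReal NNReal

namespace Vale.Agent.P076.R2.H45

open Vale.Agent.P076 Vale.Agent.P076.H791

variable {n : ℕ}

/-- `N k` intervals of length `2 / 4 ^ k` cover the part of `E` in any interval of length
`1 / 2 ^ k` -/
def Cov (E : Set ℝ) (N : ℕ → ℕ) : Prop :=
  ∀ (k : ℕ) (a : ℝ), ∃ F : Finset ℝ, F.card ≤ N k ∧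
    ∀ t ∈ E, a ≤ t → t ≤ a + 1 / 2 ^ k → ∃ b ∈ F, |t - b| ≤ 1 / 4 ^ k

lemma QQ_mono {v v' : E n → ℝ} {C : ℝ} (hv : Integrable v) (hv' : Integrable v')
    (h1 : ∀ η, v η ≤ C * v' η) {r : ℕ} {A : Set (E n)} {s : E n → ℝ} {h : E n → ℂ}
    (a : Adm r A s h) : QQ v A s h ≤ C * QQ v' A s h := by
  unfold QQ
  rw [← integral_const_mul]
  refine integral_mono (integrable_QQ hv a.ms a.mh a.bh a.vol)
    ((integrable_QQ hv' a.ms a.mh a.bh a.vol).const_mul C) fun η => ?_
  simp only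
  rw [← mul_assoc]
  exact mul_le_mul_of_nonneg_right (h1 η) (by positivity)

/-- the number of small windows in a window -/
def mm (n r : ℕ) : ℕ := 8 * n * (2 * r + 1)

/-- covering of a window -/
lemma window_cover {E0 : Set ℝ} {N : ℕ → ℕ} (hcov : Cov E0 N) (k m : ℕ) (hm : 0 < m) (i : ℤ) :
    ∃ F : Finset ℝ, F.card ≤ m * N k ∧ ∀ s ∈ (fun t => 2 * Real.pi * t) '' E0,
      ⌊s / (m * (2 * Real.pi / 2 ^ k))⌋ = i → ∃ b ∈ F, |s - b| ≤ 2 * Real.pi / 4 ^ k := by
  classical
  choose F hF1 hF2 using fun q : ℕ => hcov k ((i * m + q) / 2 ^ k)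
  refine ⟨(Finset.range m).biUnion fun q => (F q).image fun b => 2 * Real.pi * b, ?_, ?_⟩
  · refine Finset.card_biUnion_le.trans ?_
    calc ∑ q ∈ Finset.range m, ((F q).image fun b => 2 * Real.pi * b).card
        ≤ ∑ _q ∈ Finset.range m, N k :=
          Finset.sum_le_sum fun q _ => Finset.card_image_le.trans (hF1 q)
      _ = m * N k := by simp
  · rintro s ⟨t, ht, rfl⟩ hfl
    simp only at hfl ⊢
    have hpi := Real.pi_pos
    have hm0 : (0 : ℝ) < m := by exact_mod_cast hm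
    have e1 : 2 * Real.pi * t / (m * (2 * Real.pi / 2 ^ k)) = t * 2 ^ k / m := by
      field_simp
    rw [e1] at hfl
    rw [Int.floor_eq_iff] at hfl
    obtain ⟨h1, h2⟩ := hfl
    rw [le_div_iff₀ hm0] at h1
    rw [div_lt_iff₀ hm0] at h2
    set y : ℝ := t * 2 ^ k - i * m with hy
    have hy0 : 0 ≤ y := by rw [hy]; linarith
    have hym : y < m := by
      have : ((i : ℝ) + 1) * m = i * m + m := by ring
      rw [this] at h2
      rw [hy]; linarith
    obtain ⟨b, hb, hb2⟩ := hF2 ⌊y⌋₊ t ht (by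
      rw [div_le_iff₀ (by positivity)]
      have := Nat.floor_le hy0
      rw [hy] at this
      linarith) (by
      rw [← add_div, le_div_iff₀ (by positivity)]
      have := Nat.lt_floor_add_one y
      nth_rewrite 1 [hy] at this
      linarith)
    refine ⟨2 * Real.pi * b, ?_, ?_⟩
    · rw [Finset.mem_biUnion]
      exact ⟨⌊y⌋₊, Finset.mem_range.2 ((Nat.floor_lt hy0).2 hym), Finset.mem_image_of_mem _ hb⟩
    · rw [← mul_sub, abs_mul, abs_of_pos (by positivity), mul_div_assoc]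
      calc 2 * Real.pi * |t - b| ≤ 2 * Real.pi * (1 / 4 ^ k) := by gcongr
        _ = _ := by ring

/-- the constants -/
noncomputable def CV (n : ℕ) : ℝ := n * (8 * Real.exp (8 * Real.pi * n ^ 2))

lemma CV_nonneg : 0 ≤ CV n := by unfold CV; positivity

/-- the constant of a shell -/
noncomputable def Sk (n r : ℕ) (Nk : ℕ) : ℝ :=
  2 * (CV n * ((mm n r * Nk : ℕ) * √Qc ^ n) +
    κn n * (volume : Measure (E n)).real (Metric.ball 0 r))

/-- the quadratic bound for a shell -/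
lemma QQ_shell (hn : 1 ≤ n) {E0 : Set ℝ} {N : ℕ → ℕ} (hcov : Cov E0 N) {k : ℕ}
    (h1 : 1 ≤ Rn n k) {r : ℕ} {A : Set (E n)} {s : E n → ℝ} {h : E n → ℂ} (a : Adm r A s h)
    (hs : ∀ x ∈ A, s x ∈ (fun t => 2 * Real.pi * t) '' E0) :
    QQ (vk k) A s h ≤ Sk n r (N k) * (volume : Measure (E n)).real A := by
  have hpi := Real.pi_pos
  have hpi3 := Real.pi_gt_three
  have hn1 : (1 : ℝ) ≤ n := by exact_mod_cast hn
  have hn0 : (0 : ℝ) < n := by linarith
  have hR0 : 0 < Rn n k := lt_of_lt_of_le one_pos h1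
  have hm : 0 < mm n r := by unfold mm; positivity
  have hm0 : (0 : ℝ) < mm n r := by exact_mod_cast hm
  set W : ℝ := mm n r * (2 * Real.pi / 2 ^ k) with hW
  have hW0 : 0 < W := by positivity
  have hWR : (2 * r + 1 : ℝ) ≤ W * Rn n k := by
    have e1 : W * Rn n k = (2 * Real.pi) * (2 * r + 1) := by
      rw [hW, Rn, mm]
      push_cast
      field_simp
    rw [e1]
    have : (0 : ℝ) ≤ r := r.cast_nonneg
    nlinarith
  have hr0 : (0 : ℝ) ≤ r := r.cast_nonneg
  refine (QQ_all (W := W) (κ := κn n) (D := CV n * ((mm n r * N k : ℕ) * √Qc ^ n))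
    (integrable_vk h1) (vk_nonneg k) (measurable_vk k) a hW0 κn_nonneg ?_ ?_).trans
    (le_of_eq ?_)
  · intro z hz t ht
    have h2 : W * Rn n k ≤ |t| * Rn n k := by gcongr
    exact ker_vk_far hn h1 (by linarith) (by linarith)
  · intro i
    obtain ⟨F, hF1, hF2⟩ := window_cover hcov k (mm n r) hm i
    have a1 : Adm r (Aw A s W {i}) s h :=
      a.subset (measurableSet_Aw a.mA a.ms W {i}) inter_subset_left
    have q1 := QQ_mono (C := CV n) (integrable_vk h1) (integrable_g0 k) (vk_le hn h1) a1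
    have q2 := QQ_cover (h0 := 2 * Real.pi / 4 ^ k) (C := √Qc ^ n) (integrable_g0 k)
      (fun η => (Real.exp_pos _).le) (fun A' b a' hb => QQ_short k a' hb) F (Aw A s W {i}) a1
      fun x hx => hF2 (s x) (hs x hx.1) (by simpa using hx.2)
    have hvol : 0 ≤ (volume : Measure (E n)).real (Aw A s W {i}) := measureReal_nonneg
    have hF1' : (F.card : ℝ) ≤ (mm n r * N k : ℕ) := by exact_mod_cast hF1
    calc QQ (vk k) (Aw A s W {i}) s h ≤ CV n * QQ (g0 k) (Aw A s W {i}) s h := q1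
      _ ≤ CV n * (F.card * (√Qc ^ n * (volume : Measure (E n)).real (Aw A s W {i}))) :=
          mul_le_mul_of_nonneg_left q2 CV_nonneg
      _ ≤ CV n * ((mm n r * N k : ℕ) * (√Qc ^ n * (volume : Measure (E n)).real (Aw A s W {i}))) := by
          have := CV_nonneg (n := n)
          gcongr
      _ = _ := by ring
  · rw [Sk]

lemma Sk_nonneg (n r Nk : ℕ) : 0 ≤ Sk n r Nk := by
  have := CV_nonneg (n := n)
  have := κn_nonneg (n := n)
  have : 0 ≤ (volume : Measure (E n)).real (Metric.ball 0 r) := measureReal_nonneg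
  unfold Sk
  positivity

/-- the density of a shell -/
noncomputable def Vs (s : ℝ) (k : ℕ) (η : E n) : ℝ≥0∞ :=
  if 3 + n ≤ k then ENNReal.ofReal (Real.exp 4 * (2 : ℝ) ^ (-(2 * s * k))) *
    ENNReal.ofReal (vk k η) else 0

lemma measurable_Vs (s : ℝ) (k : ℕ) : Measurable (Vs (n := n) s k) := by
  unfold Vs
  split_ifs
  · exact (ENNReal.measurable_ofReal.comp (measurable_vk k)).const_mul _
  · exact measurable_const

lemma Rn_ge {k : ℕ} (hn : 1 ≤ n) (hk : 3 + n ≤ k) : 1 ≤ Rn n k := by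
  have hn1 : (1 : ℝ) ≤ n := by exact_mod_cast hn
  unfold Rn
  rw [le_div_iff₀ (by positivity), one_mul]
  have h1 : (2 : ℝ) ^ (3 + n) ≤ 2 ^ k := pow_le_pow_right₀ (by norm_num) hk
  have h2 : (n : ℝ) ≤ 2 ^ n := by exact_mod_cast (Nat.lt_two_pow_self (n := n)).le
  rw [pow_add] at h1
  linarith

/-- **MP along sparse sets of times** -/
theorem MPT_times (hn : 1 ≤ n) {s : ℝ} (hs : 0 < s) {E0 : Set ℝ} (hE0 : E0.Countable)
    {N : ℕ → ℕ} (hcov : Cov E0 N)
    (hN : Summable fun k : ℕ => (N k : ℝ) * (2 : ℝ) ^ (-(2 * s * k)))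
    {w : E n → ℝ≥0∞} (hw : Measurable w) (hw1 : ∀ η, 1 ≤ w η)
    (hw2 : ∀ η, ENNReal.ofReal ((1 + ‖(2 * Real.pi) • η‖ ^ 2) ^ s) ≤ w η) :
    MPT w ((fun t => 2 * Real.pi * t) '' E0) := by
  classical
  refine MPT_of_TT (hE0.image _) hw hw1 fun r => ?_
  have hlow : Measurable ((Metric.ball (0 : E n) (2 ^ (3 + n))).indicator fun _ => (1 : ℝ≥0∞)) :=
    measurable_const.indicator Metric.isOpen_ball.measurableSet
  set cf : ℕ → ℝ := fun k => Real.exp 4 * (2 : ℝ) ^ (-(2 * s * k)) with hcf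
  have hcf0 : ∀ k, 0 ≤ cf k := fun k => by simp only [hcf]; positivity
  set S : ℝ≥0∞ := (∫⁻ η, (Metric.ball (0 : E n) (2 ^ (3 + n))).indicator (fun _ => (1 : ℝ≥0∞)) η) *
      volume (Metric.ball (0 : E n) r) + ∑' k, ENNReal.ofReal (cf k * Sk n r (N k)) with hS
  have hgeo : Summable fun k : ℕ => (2 : ℝ) ^ (-(2 * s * k)) := by
    have h1 : (fun k : ℕ => (2 : ℝ) ^ (-(2 * s * k))) = fun k : ℕ => ((2 : ℝ) ^ (-(2 * s))) ^ k := by
      funext k
      rw [← Real.rpow_natCast, ← Real.rpow_mul (by norm_num)]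
      congr 1
      ring
    rw [h1]
    refine summable_geometric_of_lt_one (by positivity) ?_
    exact Real.rpow_lt_one_of_one_lt_of_neg (by norm_num) (by linarith)
  have hfin : S ≠ ⊤ := by
    refine ENNReal.add_ne_top.2 ⟨ENNReal.mul_ne_top ?_ measure_ball_lt_top.ne, ?_⟩
    · rw [lintegral_indicator Metric.isOpen_ball.measurableSet]
      simp only [lintegral_const, one_mul, Measure.restrict_apply_univ]
      exact measure_ball_lt_top.ne
    · have h1 : Summable fun k => cf k * Sk n r (N k) := by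
        have e1 : (fun k => cf k * Sk n r (N k)) = fun k =>
            (Real.exp 4 * 2 * (CV n * (mm n r * √Qc ^ n))) * ((N k : ℝ) * (2 : ℝ) ^ (-(2 * s * k))) +
            (Real.exp 4 * 2 * (κn n * (volume : Measure (E n)).real (Metric.ball 0 r))) *
              (2 : ℝ) ^ (-(2 * s * k)) := by
          funext k
          simp only [hcf, Sk]
          push_cast
          ring
        rw [e1]
        exact (hN.mul_left _).add (hgeo.mul_left _)
      rw [← ENNReal.ofReal_tsum_of_nonneg (fun k => mul_nonneg (hcf0 k) (Sk_nonneg _ _ _)) h1]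
      exact ENNReal.ofReal_ne_top
  refine ⟨S.toNNReal, ?_⟩
  rw [ENNReal.coe_toNNReal hfin]
  intro A u h a ht
  have hPm := measurable_Phi (A := A) a.ms a.mh
  have hdom : ∀ η, (w η)⁻¹ ≤ (Metric.ball (0 : E n) (2 ^ (3 + n))).indicator (fun _ => (1 : ℝ≥0∞)) η +
      ∑' k, Vs s k η := by
    intro η
    have hpi3 := Real.pi_gt_three
    by_cases hη : ‖(2 * Real.pi) • η‖ < 2 ^ (3 + n)
    · refine le_trans ?_ le_self_add
      have hmem : η ∈ Metric.ball (0 : E n) (2 ^ (3 + n)) := by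
        rw [mem_ball_zero_iff]
        rw [norm_smul, Real.norm_eq_abs, abs_of_pos (by positivity)] at hη
        have h0 : 0 ≤ ‖η‖ := norm_nonneg η
        nlinarith
      rw [indicator_of_mem hmem]
      exact ENNReal.inv_le_one.2 (hw1 η)
    · rw [not_lt] at hη
      refine le_trans ?_ le_add_self
      have h1 : (1 : ℝ) ≤ ‖(2 * Real.pi) • η‖ := le_trans (one_le_pow₀ (by norm_num)) hη
      obtain ⟨k, hk1, hk2⟩ := exists_nat_pow_near h1 (by norm_num : (1 : ℝ) < 2)
      have hk : 3 + n ≤ k := by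
        have h2 : (2 : ℝ) ^ (3 + n) < 2 ^ (k + 1) := lt_of_le_of_lt hη hk2
        have h3 := (pow_lt_pow_iff_right₀ (by norm_num : (1 : ℝ) < 2)).1 h2
        omega
      refine le_trans ?_ (ENNReal.le_tsum k)
      have h3 := vk_ge hn (Rn_ge hn hk) hk1 hk2
      have hpos : (0 : ℝ) < (1 + ‖(2 * Real.pi) • η‖ ^ 2) ^ s := by positivity
      simp only [Vs, hk, if_true]
      rw [← ENNReal.ofReal_mul (by positivity)]
      calc (w η)⁻¹ ≤ (ENNReal.ofReal ((1 + ‖(2 * Real.pi) • η‖ ^ 2) ^ s))⁻¹ :=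
            ENNReal.inv_le_inv.2 (hw2 η)
        _ = ENNReal.ofReal (((1 + ‖(2 * Real.pi) • η‖ ^ 2) ^ s)⁻¹) :=
            (ENNReal.ofReal_inv_of_pos hpos).symm
        _ ≤ _ := by
            refine ENNReal.ofReal_le_ofReal ?_
            have h4 : ((1 + ‖(2 * Real.pi) • η‖ ^ 2) ^ s)⁻¹ ≤ (2 : ℝ) ^ (-(2 * s * k)) := by
              have h5 : (2 : ℝ) ^ (-(2 * s * k)) = (((2 : ℝ) ^ k) ^ 2) ^ (-s) := by
                rw [← pow_mul, ← Real.rpow_natCast, ← Real.rpow_mul (by norm_num)]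
                congr 1
                push_cast
                ring
              rw [h5, ← Real.rpow_neg (by positivity)]
              refine Real.rpow_le_rpow_of_nonpos (by positivity) ?_ (by linarith)
              have h6 : ((2 : ℝ) ^ k) ^ 2 ≤ ‖(2 * Real.pi) • η‖ ^ 2 := by gcongr
              linarith
            refine h4.trans ?_
            have h8 : Real.exp 4 * Real.exp (-4) = 1 := by
              rw [← Real.exp_add]; simp
            calc (2 : ℝ) ^ (-(2 * s * k)) =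
                  (Real.exp 4 * Real.exp (-4)) * (2 : ℝ) ^ (-(2 * s * k)) := by
                  rw [h8, one_mul]
              _ = (Real.exp 4 * (2 : ℝ) ^ (-(2 * s * k))) * Real.exp (-4) := by ring
              _ ≤ _ := by gcongr
  have hshell : ∀ k, ∫⁻ η, Vs s k η * ‖Phi A u h η‖ₑ ^ 2 ≤
      ENNReal.ofReal (cf k * Sk n r (N k)) * volume A := by
    intro k
    by_cases hk : 3 + n ≤ k
    · have hR := Rn_ge hn hk
      have m1 : Measurable fun η => ENNReal.ofReal (vk k η) * ‖Phi A u h η‖ₑ ^ 2 :=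
        (ENNReal.measurable_ofReal.comp (measurable_vk k)).mul (hPm.enorm.pow_const 2)
      have e1 : ∫⁻ η, Vs s k η * ‖Phi A u h η‖ₑ ^ 2 =
          ENNReal.ofReal (cf k) * ∫⁻ η, ENNReal.ofReal (vk k η) * ‖Phi A u h η‖ₑ ^ 2 := by
        rw [← lintegral_const_mul _ m1]
        refine lintegral_congr fun η => ?_
        simp only [Vs, hk, if_true, hcf, mul_assoc]
      rw [e1, lint_QQ (integrable_vk hR) (vk_nonneg k) a.ms a.mh a.bh a.vol,
        ENNReal.ofReal_mul (hcf0 k), mul_assoc]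
      gcongr
      rw [← ofReal_measureReal a.vol.ne, ← ENNReal.ofReal_mul (Sk_nonneg _ _ _)]
      exact ENNReal.ofReal_le_ofReal (QQ_shell hn hcov hR a ht)
    · have e1 : ∀ η : E n, Vs s k η = 0 := fun η => by simp only [Vs, hk, if_false]
      simp [e1]
  have hlw := TTr_triv r hlow A u h a
  calc ∫⁻ η, (w η)⁻¹ * ‖Phi A u h η‖ₑ ^ 2
      ≤ ∫⁻ η, ((Metric.ball (0 : E n) (2 ^ (3 + n))).indicator (fun _ => (1 : ℝ≥0∞)) η *
          ‖Phi A u h η‖ₑ ^ 2 + ∑' k, Vs s k η * ‖Phi A u h η‖ₑ ^ 2) := by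
        refine lintegral_mono fun η => ?_
        rw [ENNReal.tsum_mul_right, ← add_mul]
        gcongr
        exact hdom η
    _ = (∫⁻ η, (Metric.ball (0 : E n) (2 ^ (3 + n))).indicator (fun _ => (1 : ℝ≥0∞)) η *
          ‖Phi A u h η‖ₑ ^ 2) + ∑' k, ∫⁻ η, Vs s k η * ‖Phi A u h η‖ₑ ^ 2 := by
        have hm2 : Measurable fun η : E n =>
            (Metric.ball (0 : E n) (2 ^ (3 + n))).indicator (fun _ => (1 : ℝ≥0∞)) η *
              ‖Phi A u h η‖ₑ ^ 2 := hlow.mul (hPm.enorm.pow_const 2)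
        have hm3 : ∀ k, AEMeasurable (fun η : E n => Vs s k η * ‖Phi A u h η‖ₑ ^ 2) volume :=
          fun k => ((measurable_Vs s k).mul (hPm.enorm.pow_const 2)).aemeasurable
        rw [lintegral_add_left hm2, lintegral_tsum hm3]
    _ ≤ _ := by
        rw [hS, add_mul, ← ENNReal.tsum_mul_right]
        exact add_le_add hlw (ENNReal.tsum_le_tsum hshell)

end Vale.Agent.P076.R2.H45
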