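import Vale.Agent.P076.R2.H45.Tm6
import Vale.Agent.P076.R2.H305.ConvE

/-!
# Convergence along sparse sets of times
-/

open MeasureTheory Complex FourierTransform Filter Topology Set
open scoped ENNReal NNReal

namespace Vale.Agent.P076.R2.H45

open Vale.Agent.P076 Vale.Agent.P076.H791

variable {n : ℕ}

lemma Cov.mono {E E' : Set ℝ} {N : ℕ → ℕ} (h : Cov E N) (hE : E' ⊆ E) : Cov E' N := by
  intro k a
  obtain ⟨F, h1, h2⟩ := h k a
  exact ⟨F, h1, fun t ht => h2 t (hE ht)⟩

lemma Cov.insert {E : Set ℝ} {N : ℕ → ℕ} (h : Cov E N) (b : ℝ) :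
    Cov (insert b E) fun k => N k + 1 := by
  classical
  intro k a
  obtain ⟨F, h1, h2⟩ := h k a
  refine ⟨Insert.insert b F, (Finset.card_insert_le _ _).trans (Nat.add_le_add_right h1 1), fun t ht ha hb => ?_⟩
  rcases ht with rfl | ht
  · refine ⟨t, Finset.mem_insert_self _ _, ?_⟩
    rw [sub_self, abs_zero]
    positivity
  · obtain ⟨c, hc, hc2⟩ := h2 t ht ha hb
    exact ⟨c, Finset.mem_insert_of_mem hc, hc2⟩

lemma summable_geo_s {s : ℝ} (hs : 0 < s) : Summable fun k : ℕ => (2 : ℝ) ^ (-(2 * s * k)) := by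
  have h1 : (fun k : ℕ => (2 : ℝ) ^ (-(2 * s * k))) = fun k : ℕ => ((2 : ℝ) ^ (-(2 * s))) ^ k := by
    funext k
    rw [← Real.rpow_natCast, ← Real.rpow_mul (by norm_num)]
    congr 1
    ring
  rw [h1]
  refine summable_geometric_of_lt_one (by positivity) ?_
  exact Real.rpow_lt_one_of_one_lt_of_neg (by norm_num) (by linarith)

lemma summable_succ {s : ℝ} (hs : 0 < s) {N : ℕ → ℕ}
    (hN : Summable fun k : ℕ => (N k : ℝ) * (2 : ℝ) ^ (-(2 * s * k))) :
    Summable fun k : ℕ => ((N k + 1 : ℕ) : ℝ) * (2 : ℝ) ^ (-(2 * s * k)) := by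
  refine (hN.add (summable_geo_s hs)).congr fun k => ?_
  push_cast
  ring

/-- countable sets of times containing `0` -/
theorem conv_countable (hn : 1 ≤ n) {s : ℝ} (hs : 0 < s) {T : Set ℝ} (hT : T.Countable)
    (h0 : (0 : ℝ) ∈ T) {N : ℕ → ℕ} (hcov : Cov T N)
    (hN : Summable fun k : ℕ => (N k : ℝ) * (2 : ℝ) ^ (-(2 * s * k)))
    {f g : (Fin n → ℝ) → ℂ} (hfg : IsFourierPair f g)
    (hE : Integrable fun ξ => (1 + nrm ξ ^ 2) ^ s * ‖g ξ‖ ^ 2)
    (u : ℝ → (Fin n → ℝ) → ℂ)
    (hu : ∀ t ∈ T, IsFourierPair (u t) fun ξ => cexp (-(I * t * nrm ξ ^ 2)) * g ξ) :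
    ∀ᵐ x, ∃ v : ℝ → ℂ, ContinuousOn v (closure T) ∧ v 0 = f x ∧ ∀ t ∈ T, v t = u t x := by
  refine H305.conv_of_MPE hT h0 (fun ξ => ENNReal.ofReal ((1 + nrm ξ ^ 2) ^ s))
    (measurable_weight s) (fun ξ => ENNReal.one_le_ofReal.2 (one_le_weight hs.le ξ)) ?_ hfg
    ((integrable_weight_iff s hfg.2.1).1 hE) u hu
  refine MPT_times hn hs hT hcov hN (measurable_wt (measurable_weight s))
    (fun η => ENNReal.one_le_ofReal.2 (one_le_weight hs.le _)) fun η => ?_
  change ENNReal.ofReal ((1 + ‖(2 * Real.pi) • η‖ ^ 2) ^ s) ≤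
    ENNReal.ofReal ((1 + nrm (WithLp.ofLp ((2 * Real.pi) • η)) ^ 2) ^ s)
  rw [nrm_eq]
  exact le_refl _

/-- arbitrary sets of times -/
theorem conv_times (hn : 1 ≤ n) {s : ℝ} (hs : 0 < s) {E : Set ℝ} {N : ℕ → ℕ} (hcov : Cov E N)
    (hN : Summable fun k : ℕ => (N k : ℝ) * (2 : ℝ) ^ (-(2 * s * k)))
    {f g : (Fin n → ℝ) → ℂ} (hfg : IsFourierPair f g)
    (hE : Integrable fun ξ => (1 + nrm ξ ^ 2) ^ s * ‖g ξ‖ ^ 2) :
    ∃ v : ℝ → (Fin n → ℝ) → ℂ, v 0 = f ∧
      (∀ t ∈ closure (insert 0 E), IsFourierPair (v t) fun ξ => cexp (-(I * t * nrm ξ ^ 2)) * g ξ) ∧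
      ∀ᵐ x, ContinuousOn (fun t => v t x) (closure (insert 0 E)) := by
  classical
  -- a countable dense part
  obtain ⟨D, hDE, hDc, hDd⟩ := (TopologicalSpace.IsSeparable.of_separableSpace
    (insert 0 E : Set ℝ)).exists_countable_dense_subset
  set T : Set ℝ := insert 0 D with hT
  have hTc : T.Countable := hDc.insert 0
  have hTE : T ⊆ insert 0 E := insert_subset (mem_insert _ _) hDE
  have hclT : closure T = closure (insert 0 E) := by
    refine Subset.antisymm (closure_mono hTE) (closure_minimal ?_ isClosed_closure)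
    exact hDd.trans (closure_mono (subset_insert 0 D))
  have hcE := hcov.insert 0
  have hsE := summable_succ hs hN
  choose w hw using fun t : ℝ => exists_evolution_L2 hfg t
  have hbase := conv_countable hn hs hTc (mem_insert 0 D) (hcE.mono hTE) hsE hfg hE w fun t _ => hw t
  -- the versions
  set P : (Fin n → ℝ) → (ℝ → ℂ) → Prop := fun x v =>
    ContinuousOn v (closure T) ∧ v 0 = f x ∧ ∀ t ∈ T, v t = w t x with hP
  set v : ℝ → (Fin n → ℝ) → ℂ := fun t x =>
    if h : ∃ v : ℝ → ℂ, P x v then h.choose t else f x with hv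
  have hvx : ∀ x, (∃ v : ℝ → ℂ, P x v) → P x fun t => v t x := by
    intro x h
    have e : (fun t => v t x) = h.choose := by
      funext t
      simp only [hv, h, dif_pos]
    rw [e]
    exact h.choose_spec
  refine ⟨v, ?_, ?_, ?_⟩
  · funext x
    by_cases h : ∃ v : ℝ → ℂ, P x v
    · exact (hvx x h).2.1
    · simp only [hv, h, dif_neg, not_false_eq_true]
  · intro t ht
    have hTc2 : (insert t T).Countable := hTc.insert t
    have hsub : closure (insert t T) = closure T := by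
      refine Subset.antisymm (closure_minimal (insert_subset ?_ subset_closure) isClosed_closure)
        (closure_mono (subset_insert t T))
      rw [hclT]; exact ht
    have h2 := conv_countable hn hs hTc2 (mem_insert_of_mem t (mem_insert 0 D))
      ((hcE.mono hTE).insert t) (summable_succ hs hsE) hfg hE w fun t _ => hw t
    have hae : w t =ᵐ[volume] v t := by
      filter_upwards [hbase, h2] with x hx1 hx2
      obtain ⟨c1, c2, c3⟩ := hvx x hx1
      obtain ⟨v', d1, d2, d3⟩ := hx2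
      rw [hsub] at d1
      have hcl : t ∈ closure T := by rw [hclT]; exact ht
      have heq : EqOn v' (fun t => v t x) (closure T) := by
        have e1 : EqOn v' (fun t => v t x) T := fun q hq => by
          rw [d3 q (mem_insert_of_mem t hq)]
          exact (c3 q hq).symm
        intro y hy
        have hne : (𝓝[T] y).NeBot := mem_closure_iff_nhdsWithin_neBot.1 hy
        have l1 : Tendsto v' (𝓝[T] y) (𝓝 (v' y)) := (d1 y hy).mono_left
          (nhdsWithin_mono y subset_closure)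
        have l2 : Tendsto (fun t => v t x) (𝓝[T] y) (𝓝 (v y x)) := (c1 y hy).mono_left
          (nhdsWithin_mono y subset_closure)
        refine tendsto_nhds_unique l1 (l2.congr' ?_)
        filter_upwards [self_mem_nhdsWithin] with q hq
        exact (e1 hq).symm
      rw [← d3 t (mem_insert t T)]
      exact heq hcl
    exact isFourierPair_congr (hw t) hae (ae_eq_refl _)
  · filter_upwards [hbase] with x hx
    rw [← hclT]
    exact (hvx x hx).1

/-- the time set of a blow-up is not sparse -/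
theorem tendsto_of_countable (hn : 1 ≤ n) {s : ℝ} (hs : 0 < s) {E : Set ℝ} (hEc : E.Countable)
    {N : ℕ → ℕ} (hcov : Cov E N)
    (hN : Summable fun k : ℕ => (N k : ℝ) * (2 : ℝ) ^ (-(2 * s * k)))
    {f g : (Fin n → ℝ) → ℂ} (hfg : IsFourierPair f g)
    (hE : Integrable fun ξ => (1 + nrm ξ ^ 2) ^ s * ‖g ξ‖ ^ 2)
    (u : ℝ → (Fin n → ℝ) → ℂ)
    (hu : ∀ t ∈ E, IsFourierPair (u t) fun ξ => cexp (-(I * t * nrm ξ ^ 2)) * g ξ) :
    ∀ᵐ x, Tendsto (fun t => u t x) (𝓝[E] 0) (𝓝 (f x)) := by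
  obtain ⟨v, hv0, hv1, hv2⟩ := conv_times hn hs hcov hN hfg hE
  have h1 : ∀ᵐ x, ∀ t ∈ E, u t x = v t x := by
    refine (ae_ball_iff hEc).2 fun t ht => ?_
    exact uniq (hu t ht) (hv1 t (subset_closure (mem_insert_of_mem 0 ht))) (ae_eq_refl _)
  filter_upwards [h1, hv2] with x hx1 hx2
  have h2 : Tendsto (fun t => v t x) (𝓝[E] 0) (𝓝 (v 0 x)) :=
    (hx2 0 (subset_closure (mem_insert 0 E))).mono_left (nhdsWithin_mono 0
      ((subset_insert 0 E).trans subset_closure))
  rw [hv0] at h2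
  refine h2.congr' ?_
  filter_upwards [self_mem_nhdsWithin] with t ht
  exact (hx1 t ht).symm

end Vale.Agent.P076.R2.H45
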