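import Vale.Agent.P076.R2.H45.Tm7
import Vale.Agent.P076.R2.H45.Ga2
import Vale.Agent.P076.R2.H305.GaussLim

/-!
# Convergence along sparse sets of times, with the regularised values of the question
-/

open MeasureTheory Complex FourierTransform Filter Topology Set
open scoped ENNReal NNReal

namespace Vale.Agent.P076.R2.H45

open Vale.Agent.P076 Vale.Agent.P076.H791

variable {n : ℕ}

/-- in `H^s`, `s > 0`, the regularised values converge almost everywhere at each fixed time -/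
theorem gauss_Hs (hn : 1 ≤ n) {s : ℝ} (hs : 0 < s) {f g : (Fin n → ℝ) → ℂ}
    (hfg : IsFourierPair f g) (hE : Integrable fun ξ => (1 + nrm ξ ^ 2) ^ s * ‖g ξ‖ ^ 2)
    (t : ℝ) (u : (Fin n → ℝ) → ℂ)
    (hu : IsFourierPair u fun ξ => cexp (-(I * t * nrm ξ ^ 2)) * g ξ) :
    ∀ᵐ x, Tendsto (fun a => evolve g t a x) (𝓝[>] 0) (𝓝 (u x)) := by
  refine H305.gauss_of_MPA (fun ξ => ENNReal.ofReal ((1 + nrm ξ ^ 2) ^ s))
    (measurable_weight s) (fun ξ => ENNReal.one_le_ofReal.2 (one_le_weight hs.le ξ)) ?_ hfg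
    ((integrable_weight_iff s hfg.2.1).1 hE) t u hu
  refine MPA_Hs hn hs (measurable_wt (measurable_weight s))
    (fun η => ENNReal.one_le_ofReal.2 (one_le_weight hs.le _)) fun η => ?_
  change ENNReal.ofReal ((1 + ‖(2 * Real.pi) • η‖ ^ 2) ^ s) ≤
    ENNReal.ofReal ((1 + nrm (WithLp.ofLp ((2 * Real.pi) • η)) ^ 2) ^ s)
  rw [nrm_eq]
  exact le_refl _

/-- countable sets of times, in the sense of the question -/
theorem strong_of_countable (hn : 1 ≤ n) {s : ℝ} (hs : 0 < s) {E : Set ℝ} (hEc : E.Countable)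
    {N : ℕ → ℕ} (hcov : Cov E N)
    (hN : Summable fun k : ℕ => (N k : ℝ) * (2 : ℝ) ^ (-(2 * s * k)))
    {f g : (Fin n → ℝ) → ℂ} (hfg : IsFourierPair f g)
    (hE : Integrable fun ξ => (1 + nrm ξ ^ 2) ^ s * ‖g ξ‖ ^ 2) :
    ∀ᵐ x, ∃ u : ℝ → ℂ, ContinuousOn u (closure (insert 0 E)) ∧ u 0 = f x ∧
      ∀ t ∈ insert 0 E, Tendsto (fun a => evolve g t a x) (𝓝[>] 0) (𝓝 (u t)) := by
  obtain ⟨v, hv0, hv1, hv2⟩ := conv_times hn hs hcov hN hfg hE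
  have h1 : ∀ᵐ x, ∀ t ∈ (insert 0 E : Set ℝ),
      Tendsto (fun a => evolve g t a x) (𝓝[>] 0) (𝓝 (v t x)) :=
    (ae_ball_iff (hEc.insert 0)).2 fun t ht =>
      gauss_Hs hn hs hfg hE t (v t) (hv1 t (subset_closure ht))
  filter_upwards [h1, hv2] with x hx1 hx2
  exact ⟨fun t => v t x, hx2, congrFun hv0 x, hx1⟩

/-- the set of times of a blow-up is not sparse -/
theorem thick (hn : 1 ≤ n) {s : ℝ} (hs : 0 < s)
    (hfail : ¬ ∀ f g : (Fin n → ℝ) → ℂ, IsFourierPair f g →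
      Integrable (fun ξ => (1 + nrm ξ ^ 2) ^ s * ‖g ξ‖ ^ 2) → ConvergesAE f g) :
    ∃ (f g : (Fin n → ℝ) → ℂ) (T : Set ℝ), IsFourierPair f g ∧
      Integrable (fun ξ => (1 + nrm ξ ^ 2) ^ s * ‖g ξ‖ ^ 2) ∧
      T ⊆ Set.Ioi 0 ∧ (∀ δ > 0, (T ∩ Set.Ici δ).Finite) ∧
      (∀ u : ℝ → (Fin n → ℝ) → ℂ,
        (∀ t ∈ T, IsFourierPair (u t) fun ξ => cexp (-(I * t * nrm ξ ^ 2)) * g ξ) →
        ∀ᵐ x, ∀ M : ℝ, ∃ᶠ t in 𝓝[T] (0 : ℝ), M < ‖u t x‖) ∧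
      ∀ N : ℕ → ℕ, Cov T N → ¬ Summable fun k : ℕ => (N k : ℝ) * (2 : ℝ) ^ (-(2 * s * k)) := by
  obtain ⟨f, g, hfg, hE, T, hT0, hTf, hT⟩ := (lawH hs.le).2.1 hfail
  refine ⟨f, g, T, hfg, hE, hT0, hTf, hT, fun N hcov hN => ?_⟩
  choose u hu using fun t : ℝ => exists_evolution_L2 hfg t
  have h1 := hT u fun t _ => hu t
  have h2 := tendsto_of_countable hn hs (countable_of_finite hT0 hTf) hcov hN hfg hE u
    fun t _ => hu t
  obtain ⟨x, hx1, hx2⟩ := (h1.and h2).exists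
  have h4 : ∀ᶠ t in 𝓝[T] (0 : ℝ), ‖u t x‖ < ‖f x‖ + 1 :=
    hx2.norm.eventually (gt_mem_nhds (lt_add_one _))
  exact (hx1 (‖f x‖ + 1)) (h4.mono fun t ht => not_lt.2 ht.le)

end Vale.Agent.P076.R2.H45
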